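import Vale.Agent.P025.R2.H816.Kt1

/-!
# Solvable unramified covers embed into fields closed under unramified Kummer extensions
-/

universe u v w

namespace P025H816

open Vale.Agent.P019P P025H492 IntermediateField
open scoped Polynomial

/-- `Z/K` is closed under unramified Kummer extensions of finite levels. -/
def KumClosed (C : Type*) (K : Type*) (Z : Type*) [Field C] [Field K] [Field Z] [Algebra C K]
    [Algebra C Z] [Algebra K Z] [IsScalarTower C K Z] : Prop :=
  ∀ (F : IntermediateField K Z) [FiniteDimensional K F] [CFF C F] (n : ℕ) (f : F), n ≠ 0 →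
    f ≠ 0 → (∀ P : Plk C F, (n : ℤ) ∣ ord P f) → ∃ y : Z, y ^ n = f

theorem exists_embedding_aux {C : Type w} [Field C] [CharZero C] {Z : Type v} [Field Z]
    [Algebra C Z] (n : ℕ) : ∀ {K M : Type u} [Field K] [Algebra C K] [CFF C K] [Field M]
    [Algebra C M] [Algebra K M] [IsScalarTower C K M] [CFF C M] [FiniteDimensional K M]
    [IsGalois K M] [Algebra K Z] [IsScalarTower C K Z]
    (_ : Group.IsSolvable (M ≃ₐ[K] M)) (_ : IsUnr C K M) (_ : KumClosed C K Z)
    (_ : Module.finrank K M = n), Nonempty (M →ₐ[K] Z) := by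
  induction n using Nat.strong_induction_on with
  | _ n ih =>
  intro K M _ _ _ _ _ _ _ _ _ _ _ _ hs hu hZ hn
  have hac : IsAlgClosed C := CFF.ac (k := C) (F := K)
  by_cases hn1 : n = 1
  · have h1 : (⊥ : IntermediateField K M) = ⊤ := by
      rw [← IntermediateField.finrank_eq_one_iff_eq_top, IntermediateField.finrank_bot', hn, hn1]
    let e1 : M ≃ₐ[K] (⊤ : IntermediateField K M) := (topEquiv (F := K) (E := M)).symm
    let e2 : (⊤ : IntermediateField K M) ≃ₐ[K] (⊥ : IntermediateField K M) :=
      IntermediateField.equivOfEq h1.symm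
    let e3 : (⊥ : IntermediateField K M) ≃ₐ[K] K := botEquiv K M
    exact ⟨(Algebra.ofId K Z).comp ((e1.trans e2).trans e3).toAlgHom⟩
  · obtain ⟨y, f, hy0, hyf, hy⟩ := exists_kummer_elt C hs (by rw [hn]; exact hn1)
    rw [hn] at hyf
    have hn0 : n ≠ 0 := by
      rw [← hn]
      exact (Module.finrank_pos (R := K) (M := M)).ne'
    have hf0 : f ≠ 0 := by
      rintro rfl
      rw [map_zero] at hyf
      exact hy0 (eq_zero_of_pow_eq_zero hyf)
    have hdiv : ∀ P : Plk C K, (n : ℤ) ∣ ord P f := by
      intro P
      obtain ⟨P', rfl⟩ := exists_over (L := M) P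
      rw [← hu.ord_algebraMap, ← hyf, ord_pow]
      exact dvd_mul_right _ _
    -- an `n`-th root of `f` in `Z`
    have hcb : CFF C (⊥ : IntermediateField K Z) := cff_of_finite (K := K)
    obtain ⟨z, hz⟩ := hZ ⊥ n (algebraMap K _ f) hn0 (by simpa using hf0) (by
      intro P
      rw [P025H492.ord_algebraMap]
      exact (hdiv _).mul_left _)
    have hz' : z ^ n = algebraMap K Z f := hz
    have hp0 : (Polynomial.X ^ n - Polynomial.C f : K[X]) ≠ 0 :=
      Polynomial.X_pow_sub_C_ne_zero (Nat.pos_of_ne_zero hn0) f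
    have hyp : Polynomial.aeval y (Polynomial.X ^ n - Polynomial.C f : K[X]) = 0 := by
      rw [map_sub, map_pow, Polynomial.aeval_X, Polynomial.aeval_C, hyf, sub_self]
    have hyi : IsIntegral K y := Algebra.IsIntegral.isIntegral y
    have hsplit : ((Polynomial.X ^ n - Polynomial.C f : K[X]).map (algebraMap K Z)).Splits := by
      rw [Polynomial.map_sub, Polynomial.map_pow, Polynomial.map_X, Polynomial.map_C]
      have : NeZero (n : C) := ⟨by exact_mod_cast hn0⟩
      obtain ⟨ζ, hζ⟩ := HasEnoughRootsOfUnity.exists_primitiveRoot C n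
      exact X_pow_sub_C_splits_of_isPrimitiveRoot
        (hζ.map_of_injective (algebraMap C Z).injective) hz'
    have hms : ((minpoly K y).map (algebraMap K Z)).Splits :=
      Polynomial.Splits.of_dvd hsplit (Polynomial.map_ne_zero hp0)
        (Polynomial.map_dvd (algebraMap K Z) (minpoly.dvd K y hyp))
    obtain ⟨z₁, hz₁⟩ := hms.exists_eval_eq_zero (by
      rw [Polynomial.degree_map]
      exact (minpoly.degree_pos hyi).ne')
    have hz₁' : Polynomial.aeval z₁ (minpoly K y) = 0 := by
      rw [Polynomial.aeval_def, ← Polynomial.eval_map]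
      exact hz₁
    let pb := adjoin.powerBasis hyi
    have hroot : Polynomial.aeval z₁ (minpoly K pb.gen) = 0 := by
      rw [show pb.gen = AdjoinSimple.gen K y from adjoin.powerBasis_gen hyi, minpoly_gen, hz₁']
    let φ : K⟮y⟯ →ₐ[K] Z := pb.lift z₁ hroot
    let _ : Algebra K⟮y⟯ Z := φ.toRingHom.toAlgebra
    have hst0 : IsScalarTower K K⟮y⟯ Z := IsScalarTower.of_algebraMap_eq fun a =>
      (φ.commutes a).symm
    have hst1 : IsScalarTower C K⟮y⟯ Z := IsScalarTower.of_algebraMap_eq fun a => by
      change algebraMap C Z a = φ (algebraMap C K⟮y⟯ a)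
      have h1 : algebraMap C K⟮y⟯ a = algebraMap K K⟮y⟯ (algebraMap C K a) := by
        apply Subtype.ext
        change algebraMap C M a = algebraMap K M (algebraMap C K a)
        rw [← IsScalarTower.algebraMap_apply]
      rw [h1, φ.commutes, ← IsScalarTower.algebraMap_apply]
    have hst2 : IsScalarTower C K⟮y⟯ M := IsScalarTower.of_algebraMap_eq fun a => rfl
    have hcff : CFF C K⟮y⟯ := cff_of_finite (K := K)
    have hunr : IsUnr C K⟮y⟯ M := hu.top (K := K) (L := K⟮y⟯)
    have hsolv : Group.IsSolvable (M ≃ₐ[K⟮y⟯] M) :=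
      Group.isSolvable_of_isSolvable_injective
        (f := (IntermediateField.fixingSubgroup K⟮y⟯).subtype.comp
          (IntermediateField.fixingSubgroupEquiv K⟮y⟯).symm.toMonoidHom)
        ((Subgroup.subtype_injective _).comp (MulEquiv.injective _))
    have hlt : Module.finrank K⟮y⟯ M < n := by
      have h1 := Module.finrank_mul_finrank K K⟮y⟯ M
      have h2 : Module.finrank K K⟮y⟯ ≠ 1 := by
        intro h3
        rw [IntermediateField.finrank_eq_one_iff] at h3
        apply hy
        rw [← h3]
        exact mem_adjoin_simple_self _ _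
      have h3 := Module.finrank_pos (R := K) (M := K⟮y⟯)
      have h4 := Module.finrank_pos (R := K⟮y⟯) (M := M)
      rw [hn] at h1
      have h5 : 2 ≤ Module.finrank K K⟮y⟯ := by omega
      nlinarith
    have hZ1 : KumClosed C K⟮y⟯ Z := by
      intro F _ _ m g hm hg hgd
      have hfd : FiniteDimensional K F := FiniteDimensional.trans K K⟮y⟯ F
      have hfd' : FiniteDimensional K (F.restrictScalars K) := hfd
      have hcff' : CFF C (F.restrictScalars K) := inferInstanceAs (CFF C F)
      exact hZ (F.restrictScalars K) m g hm hg hgd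
    obtain ⟨ψ⟩ := ih _ hlt (K := K⟮y⟯) (M := M) hsolv hunr hZ1 rfl
    exact ⟨ψ.restrictScalars K⟩

/-- **a finite Galois solvable everywhere unramified extension embeds into every extension which is
closed under unramified Kummer extensions of finite levels.** -/
theorem exists_embedding {C : Type w} [Field C] [CharZero C] {Z : Type v} [Field Z]
    [Algebra C Z] {K M : Type u} [Field K] [Algebra C K] [CFF C K] [Field M]
    [Algebra C M] [Algebra K M] [IsScalarTower C K M] [CFF C M] [FiniteDimensional K M]
    [IsGalois K M] [Algebra K Z] [IsScalarTower C K Z]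
    (hs : Group.IsSolvable (M ≃ₐ[K] M)) (hu : IsUnr C K M) (hZ : KumClosed C K Z) :
    Nonempty (M →ₐ[K] Z) :=
  exists_embedding_aux _ hs hu hZ rfl

end P025H816
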