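import Vale.Agent.P025.R2.H816.J18

/-!
# The class group of a function field: divisibility and torsion for all `n`
-/

namespace P025H816

open Vale.Agent.P019P

universe u

section group

variable {A : Type*} [AddCommGroup A]

/-- the `n`-torsion. -/
def tors (A : Type*) [AddCommGroup A] (n : ℕ) : AddSubgroup A := (nsmulAddMonoidHom (α := A) n).ker

theorem mem_tors {n : ℕ} {x : A} : x ∈ tors A n ↔ n • x = 0 := Iff.rfl

/-- multiplicativity of the order of the torsion. -/
theorem card_tors_mul {a b : ℕ} (h : ∀ y : A, a • y = 0 → ∃ x : A, b • x = y) :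
    Nat.card (tors A (a * b)) = Nat.card (tors A a) * Nat.card (tors A b) := by
  have hmap : ∀ x ∈ tors A (a * b), b • x ∈ tors A a := by
    intro x hx
    rw [mem_tors] at hx ⊢
    rw [← mul_smul]
    exact hx
  let φ : tors A (a * b) →+ tors A a :=
    { toFun := fun x => ⟨b • (x : A), hmap x x.2⟩
      map_zero' := by ext; simp
      map_add' := fun x y => by ext; simp [smul_add] }
  have hφ : Function.Surjective φ := by
    rintro ⟨y, hy⟩
    obtain ⟨x, rfl⟩ := h y (mem_tors.1 hy)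
    refine ⟨⟨x, ?_⟩, rfl⟩
    rw [mem_tors, mul_smul]
    exact mem_tors.1 hy
  have h1 : Nat.card (tors A (a * b)) = Nat.card (tors A (a * b) ⧸ φ.ker) * Nat.card φ.ker :=
    AddSubgroup.card_eq_card_quotient_mul_card_addSubgroup _
  rw [h1, Nat.card_congr (QuotientAddGroup.quotientKerEquivOfSurjective φ hφ).toEquiv]
  congr 1
  refine Nat.card_congr
    { toFun := fun x => ⟨(x : tors A (a * b)), ?_⟩
      invFun := fun y => ⟨⟨y, ?_⟩, ?_⟩
      left_inv := fun x => by ext; rfl
      right_inv := fun y => by ext; rfl }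
  · have h2 := x.2
    rw [AddMonoidHom.mem_ker] at h2
    exact mem_tors.2 (congrArg Subtype.val h2)
  · rw [mem_tors, mul_smul, mem_tors.1 y.2, smul_zero]
  · rw [AddMonoidHom.mem_ker]
    exact Subtype.ext (mem_tors.1 y.2)

end group

section pic

variable {k F : Type u} [Field k] [Field F] [Algebra k F] [CFF k F]

/-- **`Pic⁰` is `n`-divisible.** -/
theorem pic0_div {n : ℕ} (hn : (n : k) ≠ 0) :
    ∀ D : Plk k F →₀ ℤ, dg D = 0 → ∃ E : Plk k F →₀ ℤ, dg E = 0 ∧ D - n • E ∈ prn k F := by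
  induction n using Nat.recOnMul with
  | zero => simp at hn
  | one => exact fun D hD => ⟨D, hD, by simp [(prn k F).zero_mem]⟩
  | prime ℓ hℓ => exact (pic_any hℓ hn).1
  | mul a b iha ihb =>
    rw [Nat.cast_mul] at hn
    intro D hD
    obtain ⟨E, hE, h1⟩ := iha (left_ne_zero_of_mul hn) D hD
    obtain ⟨E', hE', h2⟩ := ihb (right_ne_zero_of_mul hn) E hE
    refine ⟨E', hE', ?_⟩
    have h3 : D - (a * b) • E' = (D - a • E) + a • (E - b • E') := by
      rw [smul_sub, mul_smul]
      abel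
    rw [h3]
    exact (prn k F).add_mem h1 ((prn k F).nsmul_mem h2 a)

/-- function form of the divisibility. -/
theorem exists_dv {n : ℕ} (hn : (n : k) ≠ 0) {D : Plk k F →₀ ℤ} (hD : dg D = 0) :
    ∃ (g : F) (E : Plk k F →₀ ℤ), g ≠ 0 ∧ dg E = 0 ∧ dv k g = D - n • E := by
  obtain ⟨E, hE, g, hg, h⟩ := pic0_div hn D hD
  exact ⟨g, E, hg, hE, h.symm⟩

/-- the divisor class group -/
abbrev Pc (k F : Type*) [Field k] [Field F] [Algebra k F] [CFF k F] : Type _ :=
  (Plk k F →₀ ℤ) ⧸ prn k F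

theorem dg_of_tors {n : ℕ} (hn : n ≠ 0) {D : Plk k F →₀ ℤ} (h : n • D ∈ prn k F) : dg D = 0 := by
  obtain ⟨z, hz, h1⟩ := h
  have h2 := congrArg dg h1
  rw [dg_dv, map_nsmul, nsmul_eq_mul] at h2
  have h3 : (n : ℤ) ≠ 0 := by exact_mod_cast hn
  rcases mul_eq_zero.1 h2 with h4 | h4
  · exact absurd h4 h3
  · exact h4

theorem mk_tors {n : ℕ} {D : Plk k F →₀ ℤ} :
    n • (QuotientAddGroup.mk D : Pc k F) = 0 ↔ n • D ∈ prn k F := by
  rw [← QuotientAddGroup.mk_nsmul, QuotientAddGroup.eq_zero_iff]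

/-- **the order of the `n`-torsion of the class group.** -/
theorem card_pic_tors {n : ℕ} (hn : (n : k) ≠ 0) :
    Nat.card (tors (Pc k F) n) = n ^ (2 * gen k F) := by
  induction n using Nat.recOnMul with
  | zero => simp at hn
  | one =>
    rw [one_pow]
    have : Subsingleton (tors (Pc k F) 1) := by
      refine ⟨fun x y => Subtype.ext ?_⟩
      have hx := mem_tors.1 x.2
      have hy := mem_tors.1 y.2
      rw [one_smul] at hx hy
      rw [hx, hy]
    have : Nonempty (tors (Pc k F) 1) := ⟨0⟩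
    exact Nat.card_unique
  | prime ℓ hℓ => exact (pic_any hℓ hn).2
  | mul a b iha ihb =>
    rw [Nat.cast_mul] at hn
    rw [card_tors_mul, iha (left_ne_zero_of_mul hn), ihb (right_ne_zero_of_mul hn), mul_pow]
    intro y hy
    obtain ⟨D, rfl⟩ := QuotientAddGroup.mk_surjective y
    have ha0 : a ≠ 0 := by
      rintro rfl
      simp at hn
    obtain ⟨E, -, h⟩ := pic0_div (right_ne_zero_of_mul hn) D (dg_of_tors ha0 (mk_tors.1 hy))
    refine ⟨QuotientAddGroup.mk E, ?_⟩
    rw [← QuotientAddGroup.mk_nsmul]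
    exact (QuotientAddGroup.eq.2 (by rw [neg_add_eq_sub]; exact h))

end pic

end P025H816
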