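import Vale.Agent.P025.R2.H816.BC2

/-!
# Base change of the constants: algebraic closedness, genus, `H(K, n)`
-/

namespace P025H816

open Vale.Agent.P019P Polynomial IntermediateField

section ext

variable {k K L : Type*} [Field k] [Field K] [Field L] [Algebra k K] [Algebra k L] [Algebra K L]
  [IsScalarTower k K L]

/-- the isomorphism `k(x) = k(x)` inside `K` and inside `L`. -/
theorem exists_adjoin_equiv (x : K) : ∃ e : k⟮x⟯ ≃+* k⟮algebraMap K L x⟯,
    ∀ z, ((e z : k⟮algebraMap K L x⟯) : L) = algebraMap K L (z : K) := by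
  have h1 : ∀ z : k⟮x⟯, algebraMap K L (z : K) ∈ k⟮algebraMap K L x⟯ := by
    rintro ⟨z, hz⟩
    change algebraMap K L z ∈ _
    induction hz using IntermediateField.adjoin_induction with
    | mem y hy =>
      rw [Set.mem_singleton_iff] at hy
      rw [hy]
      exact mem_adjoin_simple_self _ _
    | algebraMap a =>
      rw [← IsScalarTower.algebraMap_apply]
      exact IntermediateField.algebraMap_mem _ _
    | add y z _ _ hy hz => rw [map_add]; exact add_mem hy hz
    | inv y _ hy => rw [map_inv₀]; exact inv_mem hy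
    | mul y z _ _ hy hz => rw [map_mul]; exact mul_mem hy hz
  let φ : k⟮x⟯ →+* k⟮algebraMap K L x⟯ :=
    ((algebraMap K L).comp (algebraMap k⟮x⟯ K)).codRestrict
      (k⟮algebraMap K L x⟯).toSubfield.toSubring h1
  have h2 : ∀ w ∈ k⟮algebraMap K L x⟯, ∃ z ∈ k⟮x⟯, algebraMap K L z = w := by
    intro w hw
    induction hw using IntermediateField.adjoin_induction with
    | mem y hy =>
      rw [Set.mem_singleton_iff] at hy
      exact ⟨x, mem_adjoin_simple_self _ _, hy.symm⟩
    | algebraMap a =>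
      exact ⟨algebraMap k K a, IntermediateField.algebraMap_mem _ _,
        (IsScalarTower.algebraMap_apply k K L a).symm⟩
    | add y z _ _ hy hz =>
      obtain ⟨a, ha, rfl⟩ := hy
      obtain ⟨b, hb, rfl⟩ := hz
      exact ⟨a + b, add_mem ha hb, map_add _ _ _⟩
    | inv y _ hy =>
      obtain ⟨a, ha, rfl⟩ := hy
      exact ⟨a⁻¹, inv_mem ha, map_inv₀ _ _⟩
    | mul y z _ _ hy hz =>
      obtain ⟨a, ha, rfl⟩ := hy
      obtain ⟨b, hb, rfl⟩ := hz
      exact ⟨a * b, mul_mem ha hb, map_mul _ _ _⟩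
  have hbij : Function.Bijective φ := by
    refine ⟨φ.injective, ?_⟩
    rintro ⟨w, hw⟩
    obtain ⟨z, hz, h3⟩ := h2 w hw
    exact ⟨⟨z, hz⟩, Subtype.ext h3⟩
  exact ⟨RingEquiv.ofBijective φ hbij, fun z => rfl⟩

theorem finrank_adjoin_ext (x : K) :
    Module.finrank k⟮algebraMap K L x⟯ L = Module.finrank k⟮x⟯ K * Module.finrank K L := by
  obtain ⟨e, he⟩ := exists_adjoin_equiv (k := k) (L := L) x
  rw [Module.finrank_mul_finrank]
  symm
  refine Algebra.finrank_eq_of_equiv_equiv e (RingEquiv.refl L) ?_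
  ext z
  exact he z

/-- a finite extension of a function field is a function field. -/
theorem cff_of_finite [CFF k K] [FiniteDimensional K L] : CFF k L := by
  obtain ⟨x, hx, hfd⟩ := CFF.ex (k := k) (F := K)
  refine ⟨CFF.ac K, algebraMap K L x, ?_, ?_⟩
  · exact (transcendental_algebraMap_iff (algebraMap K L).injective).2 hx
  · apply Module.finite_of_finrank_pos
    rw [finrank_adjoin_ext]
    exact Nat.mul_pos Module.finrank_pos Module.finrank_pos

end ext

section bc

variable {C K C' K' : Type*} [Field C] [Field K] [Algebra C K] [CFF C K]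
  [Field C'] [Field K'] [Algebra C' K'] [CFF C' K']

/-- `K` is algebraically closed in `K'`. -/
theorem IsBC.mem_range {i : C →+* C'} {j : K →+* K'} (h : IsBC i j) {y : K'} {p : K[X]}
    (hp : p ≠ 0) (hy : p.eval₂ j y = 0) : ∃ z, j z = y := by
  let _ : Algebra K K' := j.toAlgebra
  have hya : IsAlgebraic K y := ⟨p, hp, hy⟩
  let E : IntermediateField K K' := K⟮y⟯
  have hE : FiniteDimensional K E := adjoin.finiteDimensional hya.isIntegral
  let _ : Algebra C E := ((algebraMap K E).comp (algebraMap C K)).toAlgebra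
  have hst : IsScalarTower C K E := IsScalarTower.of_algebraMap_eq fun a => rfl
  have hcff : CFF C E := cff_of_finite (K := K)
  let j' : E →+* K' := algebraMap E K'
  have hj' : ∀ z : K, j' (algebraMap K E z) = j z := fun z => rfl
  have hbc : IsBC i j' := by
    refine ⟨fun a => ?_, fun S h1 h2 => ?_⟩
    · exact h.comm a
    · exact h.gen S h1 fun z => h2 (algebraMap K E z)
  obtain ⟨x, hx⟩ := h.exists_nc
  have h1 := (h.finrank_eq_and hx).1
  have h2 := (hbc.finrank_eq_and (x := algebraMap K E x) hx).1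
  rw [finrank_adjoin_ext (k := C) (K := K) (L := E) x] at h2
  have h3 : Module.finrank C'⟮j' (algebraMap K E x)⟯ K' = Module.finrank C'⟮j x⟯ K' := rfl
  rw [h3, h1] at h2
  have hfin : FiniteDimensional C⟮x⟯ K := (finite_of_notMem (nc_down h.comm hx)).2
  have hpos : 0 < Module.finrank C⟮x⟯ K := Module.finrank_pos
  have h4 : Module.finrank K E = 1 := by
    have h5 : Module.finrank C⟮x⟯ K * 1 = Module.finrank C⟮x⟯ K * Module.finrank K E := by
      rw [mul_one]; exact h2
    exact (Nat.eq_of_mul_eq_mul_left hpos h5).symm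
  have h5 : E = ⊥ := IntermediateField.finrank_eq_one_iff.1 h4
  have h6 : y ∈ E := mem_adjoin_simple_self K y
  rw [h5, IntermediateField.mem_bot] at h6
  exact h6

theorem IsBC.mem_range_of_pow {i : C →+* C'} {j : K →+* K'} (h : IsBC i j) {y : K'} {f : K}
    {n : ℕ} (hn : n ≠ 0) (hy : y ^ n = j f) : ∃ z, j z = y := by
  refine h.mem_range (p := X ^ n - Polynomial.C f) (X_pow_sub_C_ne_zero (Nat.pos_of_ne_zero hn) f) ?_
  simp [hy]

/-- `K^* ∩ K'^{*n} = K^{*n}`. -/
theorem IsBC.pow_of_pow {i : C →+* C'} {j : K →+* K'} (h : IsBC i j) {y : K'} {f : K}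
    {n : ℕ} (hn : n ≠ 0) (hy : y ^ n = j f) : ∃ z, j z = y ∧ z ^ n = f := by
  obtain ⟨z, rfl⟩ := h.mem_range_of_pow hn hy
  refine ⟨z, rfl, j.injective ?_⟩
  rw [map_pow, hy]

theorem dvd_up {i : C →+* C'} {j : K →+* K'}
    (h : ∀ a, j (algebraMap C K a) = algebraMap C' K' (i a)) {f : K} {n : ℕ}
    (hf : ∀ P : Plk C K, (n : ℤ) ∣ ord P f) (P' : Plk C' K') : (n : ℤ) ∣ ord P' (j f) := by
  rcases restr h P' with h1 | ⟨P, e, -, -, h1⟩
  · rw [h1]; exact dvd_zero _
  · rw [h1]; exact (hf P).mul_left e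

end bc

section hk

universe u v

variable {C K : Type u} {C' K' : Type v} [Field C] [Field K] [Algebra C K] [CFF C K]
  [Field C'] [Field K'] [Algebra C' K'] [CFF C' K']

theorem units_map_mem {i : C →+* C'} {j : K →+* K'}
    (h : ∀ a, j (algebraMap C K a) = algebraMap C' K' (i a)) (n : ℕ) (f : divU C K n) :
    Units.map (j : K →* K') (f : Kˣ) ∈ divU C' K' n := by
  intro P'
  exact dvd_up h f.2 P'

/-- the map `H(K, n) → H(K', n)`. -/
noncomputable def hkMap {i : C →+* C'} {j : K →+* K'}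
    (h : ∀ a, j (algebraMap C K a) = algebraMap C' K' (i a)) (n : ℕ) : HK C K n →* HK C' K' n :=
  QuotientGroup.map _ _
    (((Units.map (j : K →* K')).comp (divU C K n).subtype).codRestrict (divU C' K' n)
      (units_map_mem h n))
    (by
      rintro f hf
      rw [Subgroup.mem_subgroupOf] at hf
      obtain ⟨g, hg⟩ := hf
      rw [Subgroup.mem_comap, Subgroup.mem_subgroupOf]
      refine ⟨Units.map (j : K →* K') g, ?_⟩
      change (Units.map (j : K →* K') g) ^ n = Units.map (j : K →* K') (f : Kˣ)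
      rw [← map_pow]
      exact congrArg _ hg)

theorem hkMap_injective {i : C →+* C'} {j : K →+* K'} (h : IsBC i j) {n : ℕ} (hn : n ≠ 0) :
    Function.Injective (hkMap h.comm n) := by
  rw [injective_iff_map_eq_one]
  intro x hx
  obtain ⟨f, rfl⟩ := QuotientGroup.mk_surjective x
  rw [QuotientGroup.eq_one_iff, Subgroup.mem_subgroupOf, mem_powU']
  have h1 : (QuotientGroup.mk (((((Units.map (j : K →* K')).comp
      (divU C K n).subtype).codRestrict (divU C' K' n) (units_map_mem h.comm n))) f) :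
        HK C' K' n) = 1 := hx
  rw [QuotientGroup.eq_one_iff, Subgroup.mem_subgroupOf, mem_powU'] at h1
  obtain ⟨y, hy⟩ := h1
  obtain ⟨z, -, hz⟩ := h.pow_of_pow (f := ((f : Kˣ) : K)) hn hy
  exact ⟨z, hz⟩

theorem IsBC.gen_eq [CharZero C] {i : C →+* C'} {j : K →+* K'} (h : IsBC i j) :
    Vale.Agent.P019P.gen C' K' = Vale.Agent.P019P.gen C K := by
  obtain ⟨x, hx⟩ := h.exists_nc
  apply le_antisymm (h.finrank_eq_and hx).2
  have hC' : CharZero C' := charZero_of_injective_ringHom i.injective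
  have h2 : ((2 : ℕ) : C) ≠ 0 := by norm_num
  have h2' : ((2 : ℕ) : C') ≠ 0 := by norm_num
  have hc := card_HK (k := C) (F := K) h2
  have hc' := card_HK (k := C') (F := K') h2'
  have hfin : Finite (HK C' K' 2) := Nat.finite_of_card_ne_zero (by rw [hc']; positivity)
  have h3 := Nat.card_le_card_of_injective _ (hkMap_injective h (n := 2) (by norm_num))
  rw [hc, hc'] at h3
  have h4 := (Nat.pow_le_pow_iff_right (by norm_num : 1 < 2)).1 h3
  omega

theorem hkMap_bijective [CharZero C] {i : C →+* C'} {j : K →+* K'} (h : IsBC i j) {n : ℕ}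
    (hn : n ≠ 0) : Function.Bijective (hkMap h.comm n) := by
  have hC' : CharZero C' := charZero_of_injective_ringHom i.injective
  have hnC : (n : C) ≠ 0 := by exact_mod_cast hn
  have hnC' : (n : C') ≠ 0 := by exact_mod_cast hn
  have hc := card_HK (k := C) (F := K) hnC
  have hc' := card_HK (k := C') (F := K') hnC'
  rw [h.gen_eq] at hc'
  have hfin : Finite (HK C' K' n) := Nat.finite_of_card_ne_zero (by rw [hc']; positivity)
  have hfin' : Finite (HK C K n) := Nat.finite_of_card_ne_zero (by rw [hc]; positivity)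
  exact (Nat.bijective_iff_injective_and_card _).2 ⟨hkMap_injective h hn, by rw [hc, hc']⟩

/-- **every function over `C'` with divisor divisible by `n` comes from `K` modulo `n`-th
powers.** -/
theorem IsBC.exists_eq_mul_pow [CharZero C] {i : C →+* C'} {j : K →+* K'} (h : IsBC i j) {n : ℕ}
    (hn : n ≠ 0) {f' : K'} (hf' : f' ≠ 0) (hd : ∀ P' : Plk C' K', (n : ℤ) ∣ ord P' f') :
    ∃ f : K, f ≠ 0 ∧ (∀ P : Plk C K, (n : ℤ) ∣ ord P f) ∧ ∃ y : K', y ≠ 0 ∧ f' = j f * y ^ n := by
  let F' : divU C' K' n := ⟨Units.mk0 f' hf', hd⟩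
  obtain ⟨x, hx⟩ := (hkMap_bijective h hn).2 (QuotientGroup.mk F')
  obtain ⟨f, rfl⟩ := QuotientGroup.mk_surjective x
  have h1 : (QuotientGroup.mk (((((Units.map (j : K →* K')).comp
      (divU C K n).subtype).codRestrict (divU C' K' n) (units_map_mem h.comm n))) f) :
        HK C' K' n) = QuotientGroup.mk F' := hx
  rw [QuotientGroup.eq, Subgroup.mem_subgroupOf] at h1
  obtain ⟨g, hg⟩ := h1
  refine ⟨((f : Kˣ) : K), Units.ne_zero _, f.2, (g : K'), Units.ne_zero _, ?_⟩
  have h2 : g ^ n = (Units.map (j : K →* K') (f : Kˣ))⁻¹ * Units.mk0 f' hf' := hg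
  have h3 := congrArg (fun u : K'ˣ => (u : K')) h2
  simp only [Units.val_pow_eq_pow_val, Units.val_mul, Units.val_mk0,
    Units.val_inv_eq_inv_val, Units.coe_map, MonoidHom.coe_coe] at h3
  rw [h3]
  have h4 : j ((f : Kˣ) : K) ≠ 0 := by simp
  field_simp

end hk

end P025H816
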