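import Vale.Agent.P025.R2.H816.J03

/-! Carved out of `Vale.Agent.P019.Bd4` (function fields of one variable); generated file. -/

set_option linter.all false

attribute [local instance] O19.fr O19.tf O19.pj O19.fl

section

section

/-!
# Graded bases
-/

namespace Vale.Agent.P019P

open Polynomial IntermediateField

section

variable {k F : Type*} [Field k] [Field F] [Algebra k F]

/-- a filtration of a subspace of `F` by finite dimensional spaces, compatible with multiplication
by `x`. -/
structure Flt (x : F) (M : ℤ → Submodule k F) : Prop where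
  fin : ∀ r, FiniteDimensional k (M r)
  neg : ∀ r, r < 0 → M r = ⊥
  mono : Monotone M
  mul : ∀ r z, z ∈ M r → x * z ∈ M (r + 1)
  colon : ∀ r s z, z ∈ M s → x * z ∈ M r → z ∈ M (r - 1)

/-- a graded basis of a filtration. -/
structure GrB (x : F) (M : ℤ → Submodule k F) {ι : Type*} [Fintype ι] (e : ι → F)
    (a : ι → ℕ) : Prop where
  mem : ∀ i, e i ∈ M (a i)
  ind : LinearIndependent k⟮x⟯ e
  span : ∀ (r : ℤ) (z : F), z ∈ M r → ∃ φ : ι → k[X], z = ∑ i, aeval x (φ i) * e i ∧
    ∀ i, φ i ≠ 0 → ((φ i).natDegree : ℤ) + a i ≤ r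

/-- complement of a subspace by a family. -/
private theorem CGrA_cpl (V W : Submodule k F) [FiniteDimensional k V] :
    ∃ (n : ℕ) (e : Fin n → F), (∀ i, e i ∈ V) ∧
      (∀ c : Fin n → k, ∑ i, c i • e i ∈ W → ∀ i, c i = 0) ∧
      ∀ z ∈ V, ∃ c : Fin n → k, z - ∑ i, c i • e i ∈ W := by
  let W' := W.comap V.subtype
  let b := Module.finBasis k (V ⧸ W')
  have hl : ∀ i, ∃ v : V, W'.mkQ v = b i := fun i => W'.mkQ_surjective (b i)
  choose v hv using hl
  refine ⟨Module.finrank k (V ⧸ W'), fun i => (v i : F), fun i => (v i).2, ?_, ?_⟩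
  · intro c hc i
    have h1 : (∑ i, c i • v i) ∈ W' := by
      show V.subtype (∑ i, c i • v i) ∈ W
      rw [map_sum]
      exact hc
    have h2 : ∑ i, c i • b i = 0 := by
      have h3 : W'.mkQ (∑ i, c i • v i) = 0 := (Submodule.Quotient.mk_eq_zero W').2 h1
      rw [map_sum] at h3
      rw [← h3]
      exact Finset.sum_congr rfl fun j _ => by rw [map_smul, hv]
    exact (Fintype.linearIndependent_iff.1 b.linearIndependent) c h2 i
  · intro z hz
    refine ⟨fun i => b.repr (W'.mkQ ⟨z, hz⟩) i, ?_⟩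
    have h1 : ((⟨z, hz⟩ : V) - ∑ i, b.repr (W'.mkQ ⟨z, hz⟩) i • v i) ∈ W' := by
      rw [← Submodule.Quotient.mk_eq_zero W']
      show W'.mkQ ((⟨z, hz⟩ : V) - ∑ i, b.repr (W'.mkQ ⟨z, hz⟩) i • v i) = 0
      rw [map_sub, map_sum, sub_eq_zero]
      conv_lhs => rw [← b.sum_repr (W'.mkQ ⟨z, hz⟩)]
      exact Finset.sum_congr rfl fun j _ => by rw [map_smul, hv]
    have h2 : V.subtype ((⟨z, hz⟩ : V) - ∑ i, b.repr (W'.mkQ ⟨z, hz⟩) i • v i) ∈ W := h1
    rw [map_sub, map_sum] at h2
    exact h2

private theorem CGrA_pow {x : F} {M : ℤ → Submodule k F} (h : Flt x M) {s : ℤ} {z : F}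
    (hz : z ∈ M s) (j : ℕ) : x ^ j * z ∈ M (s + j) := by
  induction j with
  | zero => simpa using hz
  | succ j ih =>
    have h1 := h.mul _ _ ih
    rw [← mul_assoc, ← pow_succ'] at h1
    rw [Nat.cast_succ, ← add_assoc]
    exact h1

/-- the triangular step. -/
private theorem CGrA_tri {x : F} {M : ℤ → Submodule k F} (h : Flt x M) {ι : Type*} [Fintype ι]
    (e : ι → F) (a : ι → ℕ) (h1 : ∀ i, e i ∈ M (a i))
    (h2 : ∀ (r : ℕ) (c : ι → k), (∃ z₁ ∈ M ((r : ℤ) - 1), ∃ z₂ ∈ M ((r : ℤ) - 1),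
      (∑ i, if a i = r then c i • e i else 0) = z₁ + x * z₂) → ∀ i, a i = r → c i = 0)
    (c : ι → k) : ∀ r : ℕ,
      (∑ i, if a i ≤ r then c i • (x ^ (r - a i) * e i) else 0) ∈ M ((r : ℤ) - 1) →
      ∀ i, a i ≤ r → c i = 0 := by
  intro r
  induction r with
  | zero =>
    intro hr i hi
    refine h2 0 c ⟨_, hr, 0, Submodule.zero_mem _, ?_⟩ i (by omega)
    rw [mul_zero, add_zero]
    refine Finset.sum_congr rfl fun j _ => ?_
    by_cases hj : a j = 0
    · rw [if_pos hj, if_pos hj.le, hj, Nat.sub_self, pow_zero, one_mul]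
    · rw [if_neg hj, if_neg (by omega)]
  | succ r ih =>
    intro hr
    have hr' : (((r + 1 : ℕ) : ℤ) - 1) = r := by push_cast; ring
    rw [hr'] at hr
    have e1 : (∑ i, if a i ≤ r + 1 then c i • (x ^ (r + 1 - a i) * e i) else 0) =
        x * (∑ i, if a i ≤ r then c i • (x ^ (r - a i) * e i) else 0) +
          ∑ i, if a i = r + 1 then c i • e i else 0 := by
      rw [Finset.mul_sum, ← Finset.sum_add_distrib]
      refine Finset.sum_congr rfl fun j _ => ?_
      rcases lt_trichotomy (a j) (r + 1) with hj | hj | hj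
      · rw [if_pos hj.le, if_pos (by omega), if_neg (by omega), add_zero, mul_smul_comm,
          ← mul_assoc, ← pow_succ', show r + 1 - a j = r - a j + 1 by omega]
      · rw [if_pos hj.le, if_neg (by omega), if_pos hj, hj, Nat.sub_self, pow_zero, one_mul,
          mul_zero, zero_add]
      · rw [if_neg (by omega), if_neg (by omega), if_neg (by omega), mul_zero, zero_add]
    have hSr : (∑ i, if a i ≤ r then c i • (x ^ (r - a i) * e i) else 0) ∈ M (r : ℤ) := by
      refine Submodule.sum_mem _ fun j _ => ?_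
      split_ifs with hj
      · refine Submodule.smul_mem _ _ ?_
        have h3 := CGrA_pow h (h1 j) (r - a j)
        have h4 : ((a j : ℤ) + ((r - a j : ℕ) : ℤ)) = r := by omega
        rwa [h4] at h3
      · exact Submodule.zero_mem _
    have hc1 := h2 (r + 1) c ⟨_, hr' ▸ hr, _, hr' ▸ (Submodule.neg_mem _ hSr), by
      rw [e1]; ring⟩
    have e2 : (∑ i, if a i = r + 1 then c i • e i else 0) = 0 := by
      refine Finset.sum_eq_zero fun j _ => ?_
      split_ifs with hj
      · rw [hc1 j hj, zero_smul]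
      · rfl
    rw [e1, e2, add_zero] at hr
    have h5 := ih (h.colon _ _ _ hSr hr)
    intro i hi
    rcases Nat.lt_or_ge (a i) (r + 1) with h6 | h6
    · exact h5 i (by omega)
    · exact hc1 i (by omega)

/-- independence. -/
private theorem CGrA_ind {x : F} {M : ℤ → Submodule k F} (h : Flt x M)
    (hx : Transcendental k x) {ι : Type*} [Fintype ι]
    (e : ι → F) (a : ι → ℕ) (h1 : ∀ i, e i ∈ M (a i))
    (h2 : ∀ (r : ℕ) (c : ι → k), (∃ z₁ ∈ M ((r : ℤ) - 1), ∃ z₂ ∈ M ((r : ℤ) - 1),
      (∑ i, if a i = r then c i • e i else 0) = z₁ + x * z₂) → ∀ i, a i = r → c i = 0) :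
    LinearIndependent k⟮x⟯ e := by
  refine indep_of_poly hx fun φ h0 => ?_
  have key : ∀ N : ℕ, (∀ i j, N + 1 ≤ j + a i → (φ i).coeff j = 0) →
      ∀ i j, N ≤ j + a i → (φ i).coeff j = 0 := by
    intro N hN
    have h3 : (∑ i, if a i ≤ N then (φ i).coeff (N - a i) • (x ^ (N - a i) * e i) else 0) ∈
        M ((N : ℤ) - 1) := by
      have h4 : (∑ i, (aeval x (φ i) * e i -
          if a i ≤ N then (φ i).coeff (N - a i) • (x ^ (N - a i) * e i) else 0)) ∈
          M ((N : ℤ) - 1) := by
        refine Submodule.sum_mem _ fun i _ => ?_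
        by_cases hi : a i ≤ N
        · rw [if_pos hi]
          have hd : (φ i).natDegree < N - a i + 1 := by
            rw [Nat.lt_succ_iff, natDegree_le_iff_coeff_eq_zero]
            intro j hj
            exact hN i j (by omega)
          rw [aeval_eq_sum_range' hd, Finset.sum_range_succ, add_mul, Finset.sum_mul,
            smul_mul_assoc, add_sub_cancel_right]
          refine Submodule.sum_mem _ fun j hj => ?_
          rw [smul_mul_assoc]
          refine Submodule.smul_mem _ _ (h.mono ?_ (CGrA_pow h (h1 i) j))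
          have := Finset.mem_range.1 hj
          omega
        · rw [if_neg hi, sub_zero]
          have h5 : φ i = 0 := by
            ext j
            rw [coeff_zero]
            exact hN i j (by omega)
          rw [h5, map_zero, zero_mul]
          exact Submodule.zero_mem _
      rw [Finset.sum_sub_distrib, h0, zero_sub] at h4
      exact (Submodule.neg_mem_iff _).1 h4
    have h6 := CGrA_tri h e a h1 h2 (fun i => (φ i).coeff (N - a i)) N h3
    intro i j hij
    rcases Nat.lt_or_ge N (j + a i) with h7 | h7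
    · exact hN i j h7
    · have h8 := h6 i (by omega)
      rwa [show N - a i = j by omega] at h8
  have hbig : ∀ i j, (∑ i, ((φ i).natDegree + a i)) + 1 ≤ j + a i → (φ i).coeff j = 0 := by
    intro i j hij
    refine coeff_eq_zero_of_natDegree_lt ?_
    have := Finset.single_le_sum (f := fun i => (φ i).natDegree + a i)
      (fun _ _ => Nat.zero_le _) (Finset.mem_univ i)
    omega
  have hall : ∀ N : ℕ, (∀ i j, N ≤ j + a i → (φ i).coeff j = 0) → ∀ i j, (φ i).coeff j = 0 := by
    intro N
    induction N with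
    | zero => intro hN i j; exact hN i j (Nat.zero_le _)
    | succ N ih => intro hN; exact ih (key N hN)
  intro i
  ext j
  rw [coeff_zero]
  exact hall _ hbig i j

/-- the span. -/
private theorem CGrA_span {x : F} {M : ℤ → Submodule k F} (h : Flt x M) {ι : Type*} [Fintype ι]
    (e : ι → F) (a : ι → ℕ)
    (h3 : ∀ (r : ℕ) (z : F), z ∈ M r → ∃ c : ι → k, ∃ z₁ ∈ M ((r : ℤ) - 1),
      ∃ z₂ ∈ M ((r : ℤ) - 1), z = (∑ i, if a i = r then c i • e i else 0) + (z₁ + x * z₂)) :
    ∀ (N : ℕ) (z : F), z ∈ M ((N : ℤ) - 1) → ∃ φ : ι → k[X], z = ∑ i, aeval x (φ i) * e i ∧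
      ∀ i j, (φ i).coeff j ≠ 0 → j + a i < N := by
  intro N
  induction N with
  | zero =>
    intro z hz
    rw [h.neg _ (by norm_num), Submodule.mem_bot] at hz
    refine ⟨fun _ => 0, ?_, ?_⟩
    · rw [hz]
      simp
    · intro i j hj
      exact absurd (coeff_zero j) hj
  | succ N ih =>
    intro z hz
    have hr' : (((N + 1 : ℕ) : ℤ) - 1) = N := by push_cast; ring
    rw [hr'] at hz
    obtain ⟨c, z₁, hz₁, z₂, hz₂, hzz⟩ := h3 N z hz
    obtain ⟨φ₁, e₁, d₁⟩ := ih z₁ hz₁
    obtain ⟨φ₂, e₂, d₂⟩ := ih z₂ hz₂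
    refine ⟨fun i => (if a i = N then C (c i) else 0) + (φ₁ i + X * φ₂ i), ?_, ?_⟩
    · rw [hzz]
      conv_lhs => rw [e₁, e₂]
      rw [Finset.mul_sum, ← Finset.sum_add_distrib, ← Finset.sum_add_distrib]
      refine Finset.sum_congr rfl fun i _ => ?_
      rw [map_add, map_add, map_mul, aeval_X]
      split_ifs
      · rw [aeval_C, Algebra.smul_def]
        ring
      · rw [map_zero]
        ring
    · intro i j hj
      by_contra hcon
      apply hj
      rw [coeff_add, coeff_add]
      have g1 : (φ₁ i).coeff j = 0 := by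
        by_contra hne
        have := d₁ i j hne
        omega
      have g2 : (X * φ₂ i).coeff j = 0 := by
        cases j with
        | zero => rw [mul_coeff_zero, coeff_X_zero, zero_mul]
        | succ j =>
          rw [coeff_X_mul]
          by_contra hne
          have := d₂ i j hne
          omega
      have g3 : (if a i = N then C (c i) else (0 : k[X])).coeff j = 0 := by
        split_ifs with hi
        · rw [coeff_C_of_ne_zero]
          omega
        · exact coeff_zero j
      rw [g1, g2, g3, add_zero, add_zero]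

/-- existence of graded bases. -/
theorem Flt.exists_GrB {x : F} {M : ℤ → Submodule k F} (h : Flt x M) (hx : Transcendental k x)
    [FiniteDimensional k⟮x⟯ F] : ∃ (n : ℕ) (e : Fin n → F) (a : Fin n → ℕ), GrB x M e a := by
  classical
  have hex : ∀ r : ℕ, ∃ (n : ℕ) (e : Fin n → F), (∀ i, e i ∈ M r) ∧
      (∀ c : Fin n → k, ∑ i, c i • e i ∈
        M ((r : ℤ) - 1) ⊔ (M ((r : ℤ) - 1)).map (LinearMap.mulLeft k x) → ∀ i, c i = 0) ∧
      ∀ z ∈ M r, ∃ c : Fin n → k, z - ∑ i, c i • e i ∈
        M ((r : ℤ) - 1) ⊔ (M ((r : ℤ) - 1)).map (LinearMap.mulLeft k x) := by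
    intro r
    have := h.fin r
    exact CGrA_cpl (M r) _
  choose n e he1 he2 he3 using hex
  have hW : ∀ (r : ℕ) (w : F),
      w ∈ M ((r : ℤ) - 1) ⊔ (M ((r : ℤ) - 1)).map (LinearMap.mulLeft k x) ↔
        ∃ z₁ ∈ M ((r : ℤ) - 1), ∃ z₂ ∈ M ((r : ℤ) - 1), w = z₁ + x * z₂ := by
    intro r w
    rw [Submodule.mem_sup]
    constructor
    · rintro ⟨y, hy, z, hz, rfl⟩
      obtain ⟨z', hz', rfl⟩ := Submodule.mem_map.1 hz
      exact ⟨y, hy, z', hz', rfl⟩
    · rintro ⟨y, hy, z, hz, rfl⟩
      exact ⟨y, hy, x * z, Submodule.mem_map.2 ⟨z, hz, rfl⟩, rfl⟩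
  -- the sums over the finite families
  have hsum : ∀ (R r : ℕ) (hr : r < R) (c : (Σ s : Fin R, Fin (n s)) → k),
      (∑ p : (Σ s : Fin R, Fin (n s)), if (p.1 : ℕ) = r then c p • e p.1 p.2 else 0) =
        ∑ i : Fin (n r), c ⟨⟨r, hr⟩, i⟩ • e r i := by
    intro R r hr c
    rw [Fintype.sum_sigma, Finset.sum_eq_single (⟨r, hr⟩ : Fin R)]
    · exact Finset.sum_congr rfl fun i _ => if_pos rfl
    · intro s _ hs
      refine Finset.sum_eq_zero fun i _ => if_neg ?_
      intro h4
      exact hs (Fin.ext h4)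
    · intro h4
      exact absurd (Finset.mem_univ _) h4
  have hI1 : ∀ (R : ℕ) (p : (Σ s : Fin R, Fin (n s))), e p.1 p.2 ∈ M ((p.1 : ℕ) : ℤ) :=
    fun R p => he1 p.1 p.2
  have hI2 : ∀ (R : ℕ) (r : ℕ) (c : (Σ s : Fin R, Fin (n s)) → k),
      (∃ z₁ ∈ M ((r : ℤ) - 1), ∃ z₂ ∈ M ((r : ℤ) - 1),
        (∑ p : (Σ s : Fin R, Fin (n s)), if (p.1 : ℕ) = r then c p • e p.1 p.2 else 0) =
          z₁ + x * z₂) → ∀ p : (Σ s : Fin R, Fin (n s)), (p.1 : ℕ) = r → c p = 0 := by
    intro R r c hc p hp
    have hr : r < R := hp ▸ p.1.2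
    rw [hsum R r hr] at hc
    have h4 := he2 r _ ((hW r _).2 hc)
    obtain ⟨⟨s, hs⟩, i⟩ := p
    simp only at hp
    subst hp
    exact h4 i
  have hind : ∀ R : ℕ, LinearIndependent k⟮x⟯
      (fun p : (Σ s : Fin R, Fin (n s)) => e p.1 p.2) := fun R =>
    CGrA_ind h hx (fun p : (Σ s : Fin R, Fin (n s)) => e p.1 p.2) (fun p => (p.1 : ℕ)) (hI1 R)
      (hI2 R)
  -- finiteness
  have hbd : ∀ R : ℕ, ∑ s ∈ Finset.range R, n s ≤ Module.finrank k⟮x⟯ F := by
    intro R
    have h4 := (hind R).fintype_card_le_finrank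
    rw [Fintype.card_sigma] at h4
    simp only [Fintype.card_fin] at h4
    rwa [Fin.sum_univ_eq_sum_range (fun s => n s) R] at h4
  obtain ⟨R, hR⟩ : ∃ R : ℕ, ∀ s, R ≤ s → n s = 0 := by
    have hb : BddAbove (Set.range fun R : ℕ => ∑ s ∈ Finset.range R, n s) :=
      ⟨_, by rintro _ ⟨R, rfl⟩; exact hbd R⟩
    obtain ⟨R, hR⟩ := Nat.sSup_mem (Set.range_nonempty fun R : ℕ => ∑ s ∈ Finset.range R, n s) hb
    refine ⟨R, fun s hs => ?_⟩
    have h4 : ∑ s ∈ Finset.range (s + 1), n s ≤ ∑ s ∈ Finset.range R, n s := by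
      have h5 := le_csSup hb (Set.mem_range_self (f := fun R : ℕ => ∑ s ∈ Finset.range R, n s)
        (s + 1))
      rw [← hR] at h5
      exact h5
    have h6 : ∑ s ∈ Finset.range R, n s ≤ ∑ s ∈ Finset.range s, n s :=
      Finset.sum_le_sum_of_subset (Finset.range_subset_range.2 hs)
    rw [Finset.sum_range_succ] at h4
    omega
  -- the third property
  have hI3 : ∀ (r : ℕ) (z : F), z ∈ M r → ∃ c : (Σ s : Fin R, Fin (n s)) → k,
      ∃ z₁ ∈ M ((r : ℤ) - 1), ∃ z₂ ∈ M ((r : ℤ) - 1),
      z = (∑ p : (Σ s : Fin R, Fin (n s)), if (p.1 : ℕ) = r then c p • e p.1 p.2 else 0) +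
        (z₁ + x * z₂) := by
    intro r z hz
    obtain ⟨c, hc⟩ := he3 r z hz
    obtain ⟨z₁, hz₁, z₂, hz₂, hzz⟩ := (hW r _).1 hc
    rcases Nat.lt_or_ge r R with hr | hr
    · refine ⟨fun p => if hp : (p.1 : ℕ) = r then c (hp ▸ p.2) else 0, z₁, hz₁, z₂, hz₂, ?_⟩
      rw [hsum R r hr, ← hzz]
      have h4 : ∀ i : Fin (n r), (if hp : r = r then c (hp ▸ i) else 0) = c i := by
        intro i
        rw [dif_pos rfl]
      have h5 : (∑ i : Fin (n r), (if hp : r = r then c (hp ▸ i) else 0) • e r i) =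
          ∑ i, c i • e r i := Finset.sum_congr rfl fun i _ => by rw [h4]
      show z = (∑ i : Fin (n r), (if hp : r = r then c (hp ▸ i) else 0) • e r i) + _
      rw [h5]
      ring
    · refine ⟨0, z₁, hz₁, z₂, hz₂, ?_⟩
      have h4 : ∑ i, c i • e r i = 0 := by
        refine Finset.sum_eq_zero fun i _ => ?_
        have h9 := i.2
        have h10 := hR r hr
        omega
      rw [h4, sub_zero] at hzz
      have h5 : (∑ p : (Σ s : Fin R, Fin (n s)),
          if (p.1 : ℕ) = r then (0 : (Σ s : Fin R, Fin (n s)) → k) p • e p.1 p.2 else 0) = 0 := by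
        refine Finset.sum_eq_zero fun p _ => ?_
        split_ifs
        · rw [Pi.zero_apply, zero_smul]
        · rfl
      rw [h5, zero_add]
      exact hzz
  have hspan := CGrA_span h (fun p : (Σ s : Fin R, Fin (n s)) => e p.1 p.2) (fun p => (p.1 : ℕ))
    hI3
  have hspan2 : ∀ (r : ℤ) (z : F), z ∈ M r → ∃ φ : (Σ s : Fin R, Fin (n s)) → k[X],
      z = ∑ p, aeval x (φ p) * e p.1 p.2 ∧
        ∀ p, φ p ≠ 0 → ((φ p).natDegree : ℤ) + ((p.1 : ℕ) : ℤ) ≤ r := by
    intro r z hz
    rcases lt_or_ge r 0 with hr | hr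
    · rw [h.neg _ hr, Submodule.mem_bot] at hz
      refine ⟨fun _ => 0, ?_, fun p hp => absurd rfl hp⟩
      rw [hz]
      simp
    · obtain ⟨N, rfl⟩ := Int.eq_ofNat_of_zero_le hr
      obtain ⟨φ, hφ1, hφ2⟩ := hspan (N + 1) z (by
        have hr' : (((N + 1 : ℕ) : ℤ) - 1) = N := by push_cast; ring
        rw [hr']
        exact hz)
      refine ⟨φ, hφ1, fun p hp => ?_⟩
      have h4 := hφ2 p (φ p).natDegree (by
        rw [coeff_natDegree]
        exact leadingCoeff_ne_zero.2 hp)
      omega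
  -- reindexing
  let E := Fintype.equivFin (Σ s : Fin R, Fin (n s))
  refine ⟨Fintype.card (Σ s : Fin R, Fin (n s)), fun i => e (E.symm i).1 (E.symm i).2,
    fun i => ((E.symm i).1 : ℕ), ⟨fun i => hI1 R (E.symm i), ?_, ?_⟩⟩
  · exact (hind R).comp E.symm E.symm.injective
  · intro r z hz
    obtain ⟨φ, hφ1, hφ2⟩ := hspan2 r z hz
    refine ⟨fun i => φ (E.symm i), ?_, fun i hi => hφ2 (E.symm i) hi⟩
    rw [hφ1]
    exact (E.symm.sum_comp fun p => aeval x (φ p) * e p.1 p.2).symm

end

end Vale.Agent.P019P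
end
end

section

section

/-!
# Dimensions of a filtration with a graded basis
-/

namespace Vale.Agent.P019P

open Polynomial IntermediateField

section

variable {k F : Type*} [Field k] [Field F] [Algebra k F]

theorem CGrD_pow_mem {x : F} {M : ℤ → Submodule k F} (h : Flt x M) {s : ℤ} {z : F}
    (hz : z ∈ M s) (j : ℕ) : x ^ j * z ∈ M (s + j) := by
  induction j with
  | zero => simpa using hz
  | succ j ih =>
    have h1 := h.mul _ _ ih
    have h2 : x * (x ^ j * z) = x ^ (j + 1) * z := by ring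
    have h3 : s + (j : ℤ) + 1 = s + ((j + 1 : ℕ) : ℤ) := by push_cast; ring
    rwa [h2, h3] at h1

/-- the dimensions of a filtration with a graded basis. -/
theorem GrB.finrank_eq {x : F} {M : ℤ → Submodule k F} (h : Flt x M) (hx : Transcendental k x)
    {ι : Type*} [Fintype ι] {e : ι → F} {a : ι → ℕ} (he : GrB x M e a) {r : ℤ}
    (hr : ∀ i, (a i : ℤ) ≤ r) : (Module.finrank k (M r) : ℤ) = ∑ i, (r - a i + 1) := by
  classical
  let g : (Σ i : ι, Fin (r - a i + 1).toNat) → F := fun p => x ^ (p.2 : ℕ) * e p.1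
  have hg : LinearIndependent k g := by
    have h1 := (indep_pow_mul hx he.ind).comp
      (fun p : (Σ i : ι, Fin (r - a i + 1).toNat) => ((p.1, (p.2 : ℕ)) : ι × ℕ)) (by
        rintro ⟨i, j⟩ ⟨i', j'⟩ hij
        simp only [Prod.mk.injEq] at hij
        obtain ⟨hi, hj⟩ := hij
        subst hi
        rw [Fin.ext hj])
    exact h1
  have hspan : Submodule.span k (Set.range g) = M r := by
    apply le_antisymm
    · rw [Submodule.span_le]
      rintro _ ⟨⟨i, j⟩, rfl⟩
      have h1 := CGrD_pow_mem h (he.mem i) (j : ℕ)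
      have hj := j.2
      have h2 : (a i : ℤ) + ((j : ℕ) : ℤ) ≤ r := by omega
      exact h.mono h2 h1
    · intro z hz
      obtain ⟨φ, hφ, hd⟩ := he.span r z hz
      rw [hφ]
      refine Submodule.sum_mem _ fun i _ => ?_
      by_cases h0 : φ i = 0
      · rw [h0, map_zero, zero_mul]
        exact Submodule.zero_mem _
      · rw [aeval_eq_sum_range, Finset.sum_mul]
        refine Submodule.sum_mem _ fun j hj => ?_
        rw [smul_mul_assoc]
        refine Submodule.smul_mem _ _ (Submodule.subset_span ?_)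
        have h1 := hd i h0
        have h2 : j ≤ (φ i).natDegree := Nat.lt_succ_iff.1 (Finset.mem_range.1 hj)
        exact ⟨⟨i, ⟨j, by omega⟩⟩, rfl⟩
  have h1 : Module.finrank k (M r) = ∑ i, (r - a i + 1).toNat := by
    rw [← hspan, finrank_span_eq_card hg, Fintype.card_sigma]
    simp only [Fintype.card_fin]
  rw [h1]
  push_cast
  refine Finset.sum_congr rfl fun i _ => ?_
  have := hr i
  omega

end

end Vale.Agent.P019P
end
end

section

section

/-!
# Determinants of polynomial matrices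
-/

namespace Vale.Agent.P019P

open Polynomial

variable {k : Type*} [Field k] {ι : Type*} [Fintype ι] [DecidableEq ι]

/-- a basis of `ι → k` adapted to a subspace -/
private theorem CDet_basis (N : Submodule k (ι → k)) :
    ∃ (B : Module.Basis ι k (ι → k)) (J : Finset ι), J.card = Module.finrank k N ∧
      ∀ j ∈ J, B j ∈ N := by
  classical
  obtain ⟨N', hN⟩ := Submodule.exists_isCompl N
  set s := Module.finrank k N
  set t := Module.finrank k N'
  let b := ((Module.finBasis k N).prod (Module.finBasis k N')).map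
    (Submodule.prodEquivOfIsCompl N N' hN)
  have hcard : Fintype.card (Fin s ⊕ Fin t) = Fintype.card ι := by
    rw [← Module.finrank_eq_card_basis b, Module.finrank_fintype_fun_eq_card]
  let e : Fin s ⊕ Fin t ≃ ι := Fintype.equivOfCardEq hcard
  refine ⟨b.reindex e, (Finset.univ : Finset (Fin s)).image fun i => e (Sum.inl i), ?_, ?_⟩
  · rw [Finset.card_image_of_injective _ fun x y h => Sum.inl_injective (e.injective h),
      Finset.card_univ, Fintype.card_fin]
  · intro j hj
    obtain ⟨i, -, rfl⟩ := Finset.mem_image.1 hj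
    rw [Module.Basis.reindex_apply, e.symm_apply_apply]
    simp only [b, Module.Basis.map_apply, Module.Basis.prod_apply, Sum.elim_inl,
      Function.comp_apply, Submodule.coe_prodEquivOfIsCompl', LinearMap.coe_inl,
      ZeroMemClass.coe_zero, add_zero]
    exact (Module.finBasis k N i).2

/-- the determinant of a matrix whose value at `c` has a large kernel. -/
theorem pow_dvd_det (G : Matrix ι ι k[X]) (c : k) (N : Submodule k (ι → k))
    (h : ∀ v ∈ N, (G.map (Polynomial.eval c)).mulVec v = 0) :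
    (X - C c) ^ Module.finrank k N ∣ G.det := by
  obtain ⟨B, J, hJ, hB⟩ := CDet_basis N
  let U : Matrix ι ι k := (Pi.basisFun k ι).toMatrix B
  have hU : U * (B.toMatrix (Pi.basisFun k ι)) = 1 :=
    (Pi.basisFun k ι).toMatrix_mul_toMatrix_flip B
  have hdet : U.det ≠ 0 := by
    intro h0
    have := congrArg Matrix.det hU
    rw [Matrix.det_mul, h0, zero_mul, Matrix.det_one] at this
    exact zero_ne_one this
  let A : Matrix ι ι k[X] := G * U.map C
  have hA : ∀ j ∈ J, ∀ i, (X - C c) ∣ A i j := by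
    intro j hj i
    rw [dvd_iff_isRoot, IsRoot.def]
    have h1 := congrFun (h (B j) (hB j hj)) i
    simp only [Matrix.mulVec, dotProduct, Matrix.map_apply, Pi.zero_apply] at h1
    simp only [A, Matrix.mul_apply, Matrix.map_apply, eval_finsetSum, eval_mul, eval_C, U,
      Module.Basis.toMatrix_apply, Pi.basisFun_repr]
    exact h1
  let v : ι → k[X] := fun j => if j ∈ J then X - C c else 1
  have hv : ∀ i j, v j ∣ A i j := by
    intro i j
    by_cases hj : j ∈ J
    · simp only [v, if_pos hj]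
      exact hA j hj i
    · simp only [v, if_neg hj]
      exact one_dvd _
  choose G' hG' using hv
  have e1 : A = fun i j => v j * G' i j := by
    funext i j
    exact hG' i j
  have e2 : A.det = (∏ j, v j) * Matrix.det (fun i j => G' i j) := by
    rw [e1]
    exact Matrix.det_mul_row v _
  have e3 : (∏ j, v j) = (X - C c) ^ Module.finrank k N := by
    simp only [v]
    rw [Finset.prod_ite_mem, Finset.univ_inter, Finset.prod_const, hJ]
  have e4 : A.det = G.det * C U.det := by
    simp only [A]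
    rw [Matrix.det_mul]
    congr 1
    exact (RingHom.map_det C U).symm
  have h5 : (X - C c) ^ Module.finrank k N ∣ G.det * C U.det := by
    rw [← e4, e2, e3]
    exact dvd_mul_right _ _
  have hu : IsUnit (C U.det) := isUnit_C.2 (isUnit_iff_ne_zero.2 hdet)
  exact (hu.dvd_mul_right).1 h5

theorem natDegree_det_le' (G : Matrix ι ι k[X]) (a b : ι → ℕ)
    (h : ∀ i j, (G i j).natDegree ≤ a i + b j) :
    G.det.natDegree ≤ ∑ i, a i + ∑ j, b j := by
  rw [Matrix.det_apply]
  refine natDegree_sum_le_of_forall_le _ _ fun σ _ => ?_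
  have h1 : (Equiv.Perm.sign σ • ∏ i, G (σ i) i).natDegree ≤ (∏ i, G (σ i) i).natDegree := by
    rcases Int.units_eq_one_or (Equiv.Perm.sign σ) with h | h <;> rw [h]
    · simp
    · simp [Units.smul_def]
  refine h1.trans ((natDegree_prod_le _ _).trans ?_)
  calc ∑ i, (G (σ i) i).natDegree ≤ ∑ i, (a (σ i) + b i) := Finset.sum_le_sum fun i _ => h _ _
    _ = ∑ i, a i + ∑ j, b j := by
      rw [Finset.sum_add_distrib, Equiv.sum_comp σ a]

end Vale.Agent.P019P
end
end

section

section

/-!
# The filtration by the order of the pole at infinity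
-/

namespace Vale.Agent.P019P

open Polynomial IntermediateField

section

variable {k F : Type*} [Field k] [Field F] [Algebra k F] [CFF k F]

variable (k) in
/-- the functions with poles at most `r` times those of `x`. -/
noncomputable def Mr (x : F) (r : ℤ) : Submodule k F := LL k (r • pol k x)

theorem mem_Mr {x : F} {r : ℤ} {z : F} : z ∈ Mr k x r ↔ ∀ P, z ∈ Mge P (-(r * pol k x P)) := by
  rw [Mr, mem_LL_iff]
  refine forall_congr' fun P => ?_
  rw [Finsupp.smul_apply, smul_eq_mul]

theorem Mr_mul {x : F} {r s : ℤ} {z w : F} (hz : z ∈ Mr k x r) (hw : w ∈ Mr k x s) :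
    z * w ∈ Mr k x (r + s) := by
  rw [mem_Mr] at hz hw ⊢
  intro P
  have h := mul_mem_Mge (hz P) (hw P)
  have e : -(r * pol k x P) + -(s * pol k x P) = -((r + s) * pol k x P) := by ring
  rwa [e] at h

theorem flt_Mr {x : F} (hx : ∀ a : k, x ≠ algebraMap k F a) : Flt x (Mr k x) := by
  have hx0 : x ≠ 0 := fun h => hx 0 (by rw [h, map_zero])
  have hp : ∀ P : Plk k F, 0 ≤ pol k x P := fun P => pol_nonneg x P
  refine ⟨fun r => LL_finite _, fun r hr => ?_, fun r s hrs => ?_, fun r z hz => ?_,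
    fun r s z hz hxz => ?_⟩
  · apply LL_eq_bot
    obtain ⟨-, hfin⟩ := finite_of_notMem hx
    have hn : 0 < Module.finrank k⟮x⟯ F := Module.finrank_pos
    rw [map_zsmul, dg_pol hx, smul_eq_mul]
    exact mul_neg_of_neg_of_pos hr (by exact_mod_cast hn)
  · refine LL_mono (fun P => ?_)
    rw [Finsupp.smul_apply, Finsupp.smul_apply]
    exact mul_le_mul_of_nonneg_right hrs (hp P)
  · have h1 : x ∈ Mr k x 1 := by
      rw [mem_Mr]
      intro P
      right
      rw [one_mul, pol_apply]
      have := le_max_right 0 (-ord P x)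
      linarith only [this]
    rw [add_comm]
    exact Mr_mul h1 hz
  · rw [mem_Mr] at hz hxz ⊢
    intro P
    by_cases h : ord P x < 0
    · have h1 : pol k x P = -ord P x := by
        rw [pol_apply]; exact max_eq_right (by linarith only [h])
      have h2 := (mul_mem_Mge_iff hx0).1 (hxz P)
      have e : -(r * pol k x P) - ord P x = -((r - 1) * pol k x P) := by rw [h1]; ring
      rwa [e] at h2
    · have h1 : pol k x P = 0 := by
        rw [pol_apply]; exact max_eq_left (by linarith only [h])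
      have h2 := hz P
      rw [h1, mul_zero] at h2 ⊢
      exact h2

/-- functions without poles outside the poles of `x` belong to the filtration. -/
theorem exists_mem_Mr {x z : F} (h : ∀ P : Plk k F, 0 ≤ ord P x → z ∈ Mge P 0) :
    ∃ r : ℕ, z ∈ Mr k x r := by
  by_cases hz : z = 0
  · exact ⟨0, hz ▸ zero_mem _⟩
  refine ⟨∑ P ∈ (dv_finite (k := k) hz).toFinset, (ord P z).natAbs, ?_⟩
  rw [mem_Mr]
  intro P
  right
  have hr : (0 : ℤ) ≤ ((∑ P ∈ (dv_finite (k := k) hz).toFinset, (ord P z).natAbs : ℕ) : ℤ) :=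
    Int.natCast_nonneg _
  have hP : 0 ≤ pol k x P := pol_nonneg x P
  by_cases h1 : 0 ≤ ord P z
  · have := mul_nonneg hr hP
    linarith only [this, h1]
  · have h2 : ord P x < 0 := by
      by_contra hcon
      rcases mem_Mge.1 (h P (not_lt.1 hcon)) with h3 | h3
      · exact hz h3
      · exact h1 h3
    have h3 : 1 ≤ pol k x P := by
      rw [pol_apply]
      exact le_max_of_le_right (by omega)
    have h4 : (ord P z).natAbs ≤ ∑ P ∈ (dv_finite (k := k) hz).toFinset, (ord P z).natAbs := by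
      refine Finset.single_le_sum (f := fun P => (ord P z).natAbs) (fun _ _ => Nat.zero_le _) ?_
      rw [Set.Finite.mem_toFinset]
      intro h0
      exact h1 h0.ge
    have h5 : ((ord P z).natAbs : ℤ) ≤
        ((∑ P ∈ (dv_finite (k := k) hz).toFinset, (ord P z).natAbs : ℕ) : ℤ) := by
      exact_mod_cast h4
    have h6 : ((ord P z).natAbs : ℤ) = -ord P z := by omega
    have h7 := mul_le_mul_of_nonneg_left h3 hr
    rw [mul_one] at h7
    linarith only [h5, h6, h7]

/-- existence of a graded basis, with the formula for the sum of the degrees. -/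
theorem exists_GrB {x : F} (hx : ∀ a : k, x ≠ algebraMap k F a) :
    ∃ (e : Fin (Module.finrank k⟮x⟯ F) → F) (a : Fin (Module.finrank k⟮x⟯ F) → ℕ),
      GrB x (Mr k x) e a ∧ ∑ i, (a i : ℤ) = Module.finrank k⟮x⟯ F + gen k F - 1 := by
  obtain ⟨htr, hfin⟩ := finite_of_notMem hx
  obtain ⟨n, e, a, he⟩ := (flt_Mr hx).exists_GrB htr
  obtain ⟨r₀, hr₀⟩ := exists_l_pol_eq hx
  set r₁ : ℕ := r₀ + ∑ i, a i with hr₁
  have key : ∀ r : ℕ, r₁ ≤ r →
      (n : ℤ) * (r + 1) - ∑ i, (a i : ℤ) = r * Module.finrank k⟮x⟯ F + 1 - gen k F := by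
    intro r hr
    have h1 := hr₀ r ((Nat.le_add_right _ _).trans hr)
    have h2 := he.finrank_eq (flt_Mr hx) htr (r := (r : ℤ)) (fun i => by
      have : a i ≤ ∑ i, a i :=
        Finset.single_le_sum (f := a) (fun _ _ => Nat.zero_le _) (Finset.mem_univ i)
      have : a i ≤ r := by omega
      exact_mod_cast this)
    rw [Mr, natCast_zsmul] at h2
    rw [h2] at h1
    rw [← h1]
    have e : ∀ i, ((r : ℤ) - a i + 1) = (r + 1) - a i := fun i => by ring
    simp only [e]
    rw [Finset.sum_sub_distrib, Finset.sum_const, Finset.card_univ, Fintype.card_fin, nsmul_eq_mul]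
  have k1 := key r₁ le_rfl
  have k2 := key (r₁ + 1) (Nat.le_succ _)
  have hn : n = Module.finrank k⟮x⟯ F := by
    push_cast at k2
    have : (n : ℤ) = Module.finrank k⟮x⟯ F := by linarith only [k1, k2]
    exact_mod_cast this
  subst hn
  exact ⟨e, a, he, by linarith only [k1]⟩

end

end Vale.Agent.P019P
end
end

section

section

/-!
# Traces
-/

namespace Vale.Agent.P019P

open Polynomial IntermediateField

section

variable {k F : Type*} [Field k] [Field F] [Algebra k F] [CFF k F]
variable {x : F} {n : ℕ} {e : Fin n → F} {a : Fin n → ℕ}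

omit [CFF k F] in
theorem CTrc_map_psi (x : F) (p : k[X]) :
    algebraMap k⟮x⟯ F (aeval (AdjoinSimple.gen k x) p) = aeval x p := by
  rw [← aeval_algebraMap_apply, AdjoinSimple.algebraMap_gen]

omit [CFF k F] in
/-- multiplication matrices are unique. -/
theorem CTrc_uniq (he : LinearIndependent k⟮x⟯ e) (hx : Transcendental k x)
    {φ ψ : Fin n → k[X]} (h : ∑ i, aeval x (φ i) * e i = ∑ i, aeval x (ψ i) * e i) : φ = ψ := by
  have h1 : ∑ i, (aeval (AdjoinSimple.gen k x) (φ i) : k⟮x⟯) • e i =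
      ∑ i, (aeval (AdjoinSimple.gen k x) (ψ i) : k⟮x⟯) • e i := by
    simp only [Algebra.smul_def, CTrc_map_psi]
    exact h
  have h2 : ∑ i, ((aeval (AdjoinSimple.gen k x) (φ i) : k⟮x⟯) -
      aeval (AdjoinSimple.gen k x) (ψ i)) • e i = 0 := by
    simp only [sub_smul, Finset.sum_sub_distrib]
    rw [h1, sub_self]
  have h3 := Fintype.linearIndependent_iff.1 he _ h2
  funext i
  have h4 := congrArg (algebraMap k⟮x⟯ F) (h3 i)
  rw [map_sub, CTrc_map_psi, CTrc_map_psi, map_zero, sub_eq_zero] at h4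
  exact transcendental_iff_injective.1 hx h4

/-- the matrix of multiplication by `z` with respect to a graded basis. -/
theorem GrB.exists_mat (he : GrB x (Mr k x) e a) {r : ℤ} {z : F} (hz : z ∈ Mr k x r) :
    ∃ G : Matrix (Fin n) (Fin n) k[X], (∀ j, z * e j = ∑ i, aeval x (G i j) * e i) ∧
      ∀ i j, G i j ≠ 0 → ((G i j).natDegree : ℤ) + a i ≤ r + a j := by
  have h1 : ∀ j, ∃ φ : Fin n → k[X], z * e j = ∑ i, aeval x (φ i) * e i ∧
      ∀ i, φ i ≠ 0 → ((φ i).natDegree : ℤ) + a i ≤ r + a j := fun j =>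
    he.span (r + a j) (z * e j) (Mr_mul hz (he.mem j))
  choose φ h2 h3 using h1
  exact ⟨fun i j => φ j i, h2, fun i j h => h3 j i h⟩

theorem GrB.trace_eq (he : GrB x (Mr k x) e a) (hx : ∀ a : k, x ≠ algebraMap k F a)
    (hn : n = Module.finrank k⟮x⟯ F) {z : F}
    {G : Matrix (Fin n) (Fin n) k[X]} (hG : ∀ j, z * e j = ∑ i, aeval x (G i j) * e i) :
    algebraMap k⟮x⟯ F (Algebra.trace k⟮x⟯ F z) = aeval x G.trace := by
  classical
  have : FiniteDimensional k⟮x⟯ F := (finite_of_notMem hx).2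
  have : Nonempty (Fin n) := by
    have h0 : 0 < n := by
      rw [hn]
      exact Module.finrank_pos
    exact ⟨⟨0, h0⟩⟩
  let b := basisOfLinearIndependentOfCardEqFinrank he.ind (by rw [Fintype.card_fin]; exact hn)
  have hb : ∀ i, b i = e i := fun i => by
    simp only [b, coe_basisOfLinearIndependentOfCardEqFinrank]
  have h2 : ∀ i j, Algebra.leftMulMatrix b z i j = aeval (AdjoinSimple.gen k x) (G i j) := by
    intro i j
    rw [Algebra.leftMulMatrix_eq_repr_mul]
    have h3 : z * b j = ∑ i, (aeval (AdjoinSimple.gen k x) (G i j) : k⟮x⟯) • b i := by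
      simp only [Algebra.smul_def, CTrc_map_psi, hb]
      exact hG j
    rw [h3, b.repr_sum_self]
  rw [Algebra.trace_eq_matrix_trace b, Matrix.trace, Matrix.trace, map_sum, map_sum]
  refine Finset.sum_congr rfl fun i _ => ?_
  rw [Matrix.diag_apply, Matrix.diag_apply, h2, CTrc_map_psi]

/-- the trace of an element of the filtration is a polynomial of bounded degree. -/
theorem GrB.exists_trace (he : GrB x (Mr k x) e a) (hx : ∀ a : k, x ≠ algebraMap k F a)
    (hn : n = Module.finrank k⟮x⟯ F) {r : ℕ} {z : F} (hz : z ∈ Mr k x r) :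
    ∃ τ : k[X], τ.natDegree ≤ r ∧
      algebraMap k⟮x⟯ F (Algebra.trace k⟮x⟯ F z) = aeval x τ := by
  obtain ⟨G, hG, hd⟩ := he.exists_mat hz
  refine ⟨G.trace, ?_, he.trace_eq hx hn hG⟩
  rw [Matrix.trace]
  refine natDegree_sum_le_of_forall_le _ _ fun i _ => ?_
  rw [Matrix.diag_apply]
  by_cases h : G i i = 0
  · rw [h, natDegree_zero]
    exact Nat.zero_le _
  · have := hd i i h
    omega

/-- a power of an element vanishing over `x = c` is divisible by `x - c`. -/
theorem CTrc_exists_pow (hx : ∀ a : k, x ≠ algebraMap k F a) {r : ℤ} {z : F}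
    (hz : z ∈ Mr k x r) {c : k}
    (h0 : ∀ P : Plk k F, 0 < ord P (x - algebraMap k F c) → z ∈ Mge P 1) :
    ∃ (N s : ℕ) (w : F), w ∈ Mr k x s ∧ z ^ N = (x - algebraMap k F c) * w := by
  classical
  have hxc : x - algebraMap k F c ≠ 0 := sub_ne_zero.2 (hx c)
  have hfin := fib_finite hx c
  obtain ⟨N, hN⟩ : ∃ N : ℕ, ∀ P ∈ hfin.toFinset, ord P (x - algebraMap k F c) ≤ N := by
    refine ⟨hfin.toFinset.sup fun P => (ord P (x - algebraMap k F c)).toNat, fun P hP => ?_⟩
    have h1 := Finset.le_sup (f := fun P => (ord P (x - algebraMap k F c)).toNat) hP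
    have h2 : (ord P (x - algebraMap k F c)).toNat ≤
      hfin.toFinset.sup fun P => (ord P (x - algebraMap k F c)).toNat := h1
    omega
  have hzn : ∀ (P : Plk k F) (m : ℤ), z ∈ Mge P m → ∀ j : ℕ, z ^ j ∈ Mge P (j * m) := by
    intro P m hm j
    induction j with
    | zero =>
      right
      rw [pow_zero, ord_one]
      simp
    | succ j ih =>
      have h1 := mul_mem_Mge ih hm
      rw [pow_succ]
      refine Mge_mono P (le_of_eq ?_) h1
      push_cast
      ring
  obtain ⟨s, hs⟩ := exists_mem_Mr (k := k) (x := x) (z := z ^ N / (x - algebraMap k F c)) (by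
    intro P hP
    have h5 : (x - algebraMap k F c) * (z ^ N / (x - algebraMap k F c)) = z ^ N :=
      mul_div_cancel₀ _ hxc
    rcases lt_or_ge 0 (ord P (x - algebraMap k F c)) with h1 | h1
    · have h2 := hN P (hfin.mem_toFinset.2 h1)
      have h3 := hzn P 1 (h0 P h1) N
      rw [← h5, mul_mem_Mge_iff hxc] at h3
      exact Mge_mono P (by omega) h3
    · have h2 : x - algebraMap k F c ∈ Mge P 0 := by
        refine Submodule.sub_mem _ (Or.inr hP) (Or.inr ?_)
        rw [ord_const]
      have h3 : 0 ≤ ord P (x - algebraMap k F c) := h2.resolve_left hxc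
      have h4 : z ∈ Mge P 0 := by
        have h6 := (mem_Mr.1 hz) P
        rw [pol_apply, max_eq_left (by omega), mul_zero, neg_zero] at h6
        exact h6
      have h7 := hzn P 0 h4 N
      rw [← h5, mul_mem_Mge_iff hxc] at h7
      exact Mge_mono P (by omega) h7)
  exact ⟨N, s, _, hs, (mul_div_cancel₀ _ hxc).symm⟩

omit [CFF k F] in
/-- the product of multiplication matrices. -/
theorem CTrc_mat_mul {z w : F} {A B : Matrix (Fin n) (Fin n) k[X]}
    (hA : ∀ j, z * e j = ∑ i, aeval x (A i j) * e i)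
    (hB : ∀ j, w * e j = ∑ i, aeval x (B i j) * e i) (j : Fin n) :
    z * w * e j = ∑ i, aeval x ((A * B) i j) * e i := by
  rw [mul_assoc, hB, Finset.mul_sum]
  have h1 : ∀ l, z * (aeval x (B l j) * e l) =
      ∑ i, aeval x (A i l) * aeval x (B l j) * e i := by
    intro l
    rw [mul_left_comm, hA, Finset.mul_sum]
    exact Finset.sum_congr rfl fun i _ => by ring
  simp only [h1, Matrix.mul_apply, map_sum, map_mul, Finset.sum_mul]
  exact Finset.sum_comm

/-- the trace of an element vanishing over `x = c` vanishes at `c`. -/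
theorem GrB.trace_eval (he : GrB x (Mr k x) e a) (hx : ∀ a : k, x ≠ algebraMap k F a)
    (hn : n = Module.finrank k⟮x⟯ F) {r : ℤ} {z : F} (hz : z ∈ Mr k x r) {c : k}
    (h0 : ∀ P : Plk k F, 0 < ord P (x - algebraMap k F c) → z ∈ Mge P 1) {τ : k[X]}
    (hτ : algebraMap k⟮x⟯ F (Algebra.trace k⟮x⟯ F z) = aeval x τ) : τ.eval c = 0 := by
  classical
  have htr := (finite_of_notMem hx).1
  obtain ⟨N, s, w, hw, hzw⟩ := CTrc_exists_pow hx hz h0
  obtain ⟨G, hG, -⟩ := he.exists_mat hz
  obtain ⟨H, hH, -⟩ := he.exists_mat hw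
  have h1 : τ = G.trace := by
    have h2 := he.trace_eq hx hn hG
    rw [hτ] at h2
    exact transcendental_iff_injective.1 htr h2
  have hpow : ∀ m : ℕ, ∀ j, z ^ m * e j = ∑ i, aeval x ((G ^ m) i j) * e i := by
    intro m
    induction m with
    | zero =>
      intro j
      rw [pow_zero, pow_zero, one_mul, Finset.sum_eq_single j]
      · rw [Matrix.one_apply_eq, map_one, one_mul]
      · intro i _ hi
        rw [Matrix.one_apply_ne hi, map_zero, zero_mul]
      · intro h
        exact absurd (Finset.mem_univ j) h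
    | succ m ih =>
      intro j
      rw [pow_succ, pow_succ]
      exact CTrc_mat_mul ih hG j
  have hsm : ∀ j, z ^ N * e j = ∑ i, aeval x (((X - C c) • H) i j) * e i := by
    intro j
    rw [hzw, mul_assoc, hH, Finset.mul_sum]
    refine Finset.sum_congr rfl fun i _ => ?_
    rw [Matrix.smul_apply, smul_eq_mul, map_mul, map_sub, aeval_X, aeval_C, mul_assoc]
  have hmat : G ^ N = (X - C c) • H := by
    ext1 i j
    have h3 := CTrc_uniq he.ind htr (φ := fun i => (G ^ N) i j)
      (ψ := fun i => ((X - C c) • H) i j) ((hpow N j).symm.trans (hsm j))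
    exact congrFun h3 i
  have hev : ((evalRingHom c).mapMatrix G) ^ N = 0 := by
    rw [← map_pow, hmat]
    ext i j
    rw [RingHom.mapMatrix_apply, Matrix.map_apply, Matrix.smul_apply, smul_eq_mul, map_mul,
      coe_evalRingHom, eval_sub, eval_X, eval_C, sub_self, zero_mul, Matrix.zero_apply]
  have hnil : IsNilpotent ((evalRingHom c).mapMatrix G).trace :=
    Matrix.isNilpotent_trace_of_isNilpotent ⟨N, hev⟩
  have h4 := hnil.eq_zero
  rw [h1, ← coe_evalRingHom, Matrix.trace, map_sum]
  rw [Matrix.trace] at h4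
  exact h4

end

end Vale.Agent.P019P
end
end

section

section

/-!
# The discriminant of a graded basis
-/

namespace Vale.Agent.P019P

open Polynomial IntermediateField

section

variable {k F : Type*} [Field k] [Field F] [Algebra k F] [CFF k F]

/-- vanishing at the points of a finite set is a small number of conditions. -/
theorem finrank_vanish {n : ℕ} {e : Fin n → F} (S : Finset (Plk k F))
    (he : ∀ P ∈ S, ∀ i, e i ∈ Mge P 0) :
    ∃ N : Submodule k (Fin n → k), n ≤ Module.finrank k N + S.card ∧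
      ∀ v ∈ N, ∀ P ∈ S, ∑ i, v i • e i ∈ Mge P 1 := by
  have hres : ∀ P : S, ∀ i, ∃ c : k, e i - algebraMap k F c ∈ Mge P.1 1 := by
    intro P i
    rcases mem_Mge.1 (he P.1 P.2 i) with h0 | h0
    · exact ⟨0, by rw [h0, map_zero, sub_zero]; exact Submodule.zero_mem _⟩
    · obtain ⟨c, hc⟩ := exists_cst P.1 ((mem_iff_ord P.1 _).2 (Or.inr h0))
      refine ⟨c, ?_⟩
      rcases hc with hc | hc
      · rw [← hc, sub_self]; exact Submodule.zero_mem _
      · exact Or.inr hc
  choose c hc using hres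
  refine ⟨LinearMap.ker (Matrix.mulVecLin (Matrix.of c)), ?_, ?_⟩
  · have h1 := LinearMap.finrank_range_add_finrank_ker (Matrix.mulVecLin (Matrix.of c))
    have h2 : Module.finrank k (LinearMap.range (Matrix.mulVecLin (Matrix.of c))) ≤ S.card :=
      (Submodule.finrank_le _).trans
        (by rw [Module.finrank_fintype_fun_eq_card, Fintype.card_coe])
    rw [Module.finrank_fin_fun] at h1
    omega
  · intro v hv P hP
    have h3 : ∑ i, c ⟨P, hP⟩ i * v i = 0 := congrFun (LinearMap.mem_ker.1 hv) ⟨P, hP⟩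
    have h5 : ∑ i, v i • algebraMap k F (c ⟨P, hP⟩ i) = 0 := by
      have h6 : ∀ i, v i • algebraMap k F (c ⟨P, hP⟩ i) =
          algebraMap k F (c ⟨P, hP⟩ i * v i) := by
        intro i
        rw [Algebra.smul_def, ← map_mul, mul_comm]
      rw [Finset.sum_congr rfl fun i _ => h6 i, ← map_sum, h3, map_zero]
    have h4 : ∑ i, v i • e i = ∑ i, v i • (e i - algebraMap k F (c ⟨P, hP⟩ i)) := by
      simp only [smul_sub]
      rw [Finset.sum_sub_distrib, h5, sub_zero]
    rw [h4]
    exact Submodule.sum_mem _ fun i _ => Submodule.smul_mem _ _ (hc ⟨P, hP⟩ i)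

/-- the discriminant. -/
theorem exists_disc {x : F} (hx : ∀ a : k, x ≠ algebraMap k F a) [Algebra.IsSeparable k⟮x⟯ F] :
    ∃ Δ : k[X], Δ ≠ 0 ∧
      (Δ.natDegree : ℤ) ≤ 2 * gen k F - 2 + 2 * Module.finrank k⟮x⟯ F ∧
      ∀ c : k, (X - C c) ^ (Module.finrank k⟮x⟯ F - (fib_finite hx c).toFinset.card) ∣ Δ := by
  classical
  obtain ⟨e, a, he, ha⟩ := exists_GrB hx
  obtain ⟨-, hfd⟩ := finite_of_notMem hx
  have hmul : ∀ i j, e i * e j ∈ Mr k x ((a i + a j : ℕ) : ℤ) := fun i j => by
    rw [Nat.cast_add]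
    exact Mr_mul (he.mem i) (he.mem j)
  choose T hTd hT using fun i j => he.exists_trace hx rfl (hmul i j)
  have hpos : 0 < Module.finrank k⟮x⟯ F := Module.finrank_pos
  have hne : Nonempty (Fin (Module.finrank k⟮x⟯ F)) := ⟨⟨0, hpos⟩⟩
  have hdisc := Algebra.discr_not_zero_of_basis k⟮x⟯
    (basisOfLinearIndependentOfCardEqFinrank he.ind (Fintype.card_fin _))
  rw [coe_basisOfLinearIndependentOfCardEqFinrank, Algebra.discr_def] at hdisc
  have hdet : algebraMap k⟮x⟯ F (Algebra.traceMatrix k⟮x⟯ e).det =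
      aeval x (Matrix.of T).det := by
    rw [RingHom.map_det, AlgHom.map_det]
    congr 1
    ext i j
    change algebraMap k⟮x⟯ F (Algebra.trace k⟮x⟯ F (e i * e j)) = aeval x (T i j)
    exact hT i j
  refine ⟨(Matrix.of T).det, ?_, ?_, ?_⟩
  · intro h0
    rw [h0, map_zero] at hdet
    exact hdisc ((map_eq_zero _).1 hdet)
  · have h1 := natDegree_det_le' (Matrix.of T) a a hTd
    have h2 : ((Matrix.of T).det.natDegree : ℤ) ≤ ∑ i, (a i : ℤ) + ∑ i, (a i : ℤ) := by
      exact_mod_cast h1
    rw [ha] at h2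
    linarith
  · intro c
    have hS : ∀ P ∈ (fib_finite hx c).toFinset, ∀ i, e i ∈ Mge P 0 := by
      intro P hP i
      have h1 : 0 < ord P (x - algebraMap k F c) := (Set.Finite.mem_toFinset (fib_finite hx c)).1 hP
      have h2 : x ∈ Mge P 0 := by
        have h3 : x = (x - algebraMap k F c) + algebraMap k F c := by ring
        rw [h3]
        exact Submodule.add_mem _ (Or.inr h1.le) (Or.inr (ord_const P c).ge)
      have h4 : 0 ≤ ord P x := by
        rcases h2 with h2 | h2
        · rw [h2, ord_zero]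
        · exact h2
      have h5 : pol k x P = 0 := by
        rw [pol_apply]
        exact max_eq_left (by omega)
      have h6 := mem_Mr.1 (he.mem i) P
      rwa [h5, mul_zero, neg_zero] at h6
    obtain ⟨N, hN1, hN2⟩ := finrank_vanish (fib_finite hx c).toFinset hS
    refine (pow_dvd_pow _ (by omega)).trans (pow_dvd_det (Matrix.of T) c N ?_)
    intro v hv
    funext i
    have hsum : e i * ∑ j, v j • e j = ∑ j, v j • (e i * e j) := by
      rw [Finset.mul_sum]
      exact Finset.sum_congr rfl fun j _ => mul_smul_comm _ _ _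
    have hmem : e i * ∑ j, v j • e j ∈ Mr k x ((a i + ∑ j, a j : ℕ) : ℤ) := by
      rw [hsum]
      refine Submodule.sum_mem _ fun j _ => Submodule.smul_mem _ _ ?_
      refine (flt_Mr hx).mono ?_ (hmul i j)
      have h7 := Finset.single_le_sum (f := a) (fun _ _ => Nat.zero_le _) (Finset.mem_univ j)
      exact_mod_cast Nat.add_le_add_left h7 _
    have h0 : ∀ P : Plk k F, 0 < ord P (x - algebraMap k F c) →
        e i * ∑ j, v j • e j ∈ Mge P 1 := by
      intro P hP
      have hP' : P ∈ (fib_finite hx c).toFinset := (Set.Finite.mem_toFinset (fib_finite hx c)).2 hP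
      have h8 := mul_mem_Mge (hS P hP' i) (hN2 v hv P hP')
      rwa [zero_add] at h8
    have hτ : algebraMap k⟮x⟯ F (Algebra.trace k⟮x⟯ F (e i * ∑ j, v j • e j)) =
        aeval x (∑ j, C (v j) * T i j) := by
      rw [hsum, map_sum, map_sum, map_sum]
      refine Finset.sum_congr rfl fun j _ => ?_
      rw [LinearMap.map_smul_of_tower, Algebra.smul_def, map_mul,
        ← IsScalarTower.algebraMap_apply k k⟮x⟯ F, hT i j, map_mul, aeval_C]
    have h9 := he.trace_eval hx rfl hmem h0 hτ
    rw [eval_finsetSum] at h9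
    change ∑ j, (T i j).eval c * v j = 0
    rw [← h9]
    refine Finset.sum_congr rfl fun j _ => ?_
    rw [eval_mul, eval_C, mul_comm]

end

end Vale.Agent.P019P
end
end

section

section

/-!
# The inequality of Riemann and Hurwitz
-/

namespace Vale.Agent.P019P

open Polynomial IntermediateField

section

variable {k F : Type*} [Field k] [Field F] [Algebra k F] [CFF k F]

/-- the fibres have at most `n` points. -/
theorem crh_card_le {x : F} (hx : ∀ a : k, x ≠ algebraMap k F a) (c : k) :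
    (fib_finite hx c).toFinset.card ≤ Module.finrank k⟮x⟯ F := by
  have h1 := fib_sum hx c
  have h2 : ((fib_finite hx c).toFinset.card : ℤ) ≤
      ∑ P ∈ (fib_finite hx c).toFinset, ord P (x - algebraMap k F c) := by
    rw [Finset.card_eq_sum_ones, Nat.cast_sum]
    refine Finset.sum_le_sum fun P hP => ?_
    rw [Set.Finite.mem_toFinset] at hP
    have h3 : 0 < ord P (x - algebraMap k F c) := hP
    push_cast
    omega
  rw [h1] at h2
  exact_mod_cast h2

/-- Riemann-Hurwitz. -/
theorem RH {x : F} (hx : ∀ a : k, x ≠ algebraMap k F a) [Algebra.IsSeparable k⟮x⟯ F]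
    (s : Finset k) :
    ∑ c ∈ s, ((Module.finrank k⟮x⟯ F : ℤ) - (fib_finite hx c).toFinset.card) ≤
      2 * gen k F - 2 + 2 * Module.finrank k⟮x⟯ F := by
  classical
  obtain ⟨Δ, hΔ, hdeg, hdvd⟩ := exists_disc hx
  refine le_trans ?_ hdeg
  obtain ⟨r, hr⟩ : ∃ r : k → ℕ, r = fun c =>
      Module.finrank k⟮x⟯ F - (fib_finite hx c).toFinset.card := ⟨_, rfl⟩
  have hcast : ∀ c ∈ s, ((Module.finrank k⟮x⟯ F : ℤ) - (fib_finite hx c).toFinset.card) =
      ((r c : ℕ) : ℤ) := by
    intro c _
    rw [hr]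
    exact (Nat.cast_sub (crh_card_le hx c)).symm
  rw [Finset.sum_congr rfl hcast, ← Nat.cast_sum]
  have hco : (s : Set k).Pairwise (Function.onFun IsCoprime fun c => (X - C c) ^ r c) := by
    intro a _ b _ hab
    exact (Polynomial.isCoprime_X_sub_C_of_isUnit_sub
      ((sub_ne_zero.mpr hab).isUnit)).pow
  have hprod : ∏ c ∈ s, (X - C c) ^ r c ∣ Δ :=
    Finset.prod_dvd_of_coprime hco fun c _ => by rw [hr]; exact hdvd c
  have h3 := Polynomial.natDegree_le_of_dvd hprod hΔ
  rw [Polynomial.natDegree_prod_of_monic _ _ fun c _ => (monic_X_sub_C c).pow _] at h3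
  have h4 : ∀ c ∈ s, ((X - C c) ^ r c).natDegree = r c := fun c _ => by
    rw [Polynomial.natDegree_pow, Polynomial.natDegree_X_sub_C, mul_one]
  rw [Finset.sum_congr rfl h4] at h3
  exact_mod_cast h3

end

end Vale.Agent.P019P
end
end

section

section

/-!
# The consequence of Riemann-Hurwitz used for residue curves
-/

namespace Vale.Agent.P019P

set_option linter.style.haveILetI false
set_option linter.unusedSectionVars false

open Polynomial IntermediateField

namespace AuxGRH

/-- counting: positive integers, at most `N` of them prime to `ℓ ≥ 2`. -/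
theorem two_card_le {α : Type*} (A : Finset α) (f : α → ℤ) (hf : ∀ P ∈ A, 0 < f P) {ℓ : ℕ}
    (hℓ : 2 ≤ ℓ) (N : ℕ) (hN : {P | P ∈ A ∧ ¬ (ℓ : ℤ) ∣ f P}.encard ≤ N) :
    2 * (A.card : ℤ) ≤ ∑ P ∈ A, f P + N := by
  classical
  have h1 : {P | P ∈ A ∧ ¬ (ℓ : ℤ) ∣ f P} = ((A.filter fun P => ¬ (ℓ : ℤ) ∣ f P : Finset α) : Set α) := by
    ext P
    simp
  rw [h1, Set.encard_coe_eq_coe_finsetCard] at hN
  have h2 : (A.filter fun P => ¬ (ℓ : ℤ) ∣ f P).card ≤ N := by exact_mod_cast hN
  have h3 : ∀ P ∈ A, (2 : ℤ) - (if ¬ (ℓ : ℤ) ∣ f P then 1 else 0) ≤ f P := by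
    intro P hP
    have h4 := hf P hP
    split_ifs with h5
    · have h6 : (ℓ : ℤ) ≤ f P := Int.le_of_dvd h4 h5
      have h7 : (2 : ℤ) ≤ ℓ := by exact_mod_cast hℓ
      omega
    · omega
  have h4 := Finset.sum_le_sum h3
  rw [Finset.sum_sub_distrib, Finset.sum_const, nsmul_eq_mul] at h4
  have h5 : (∑ P ∈ A, (if ¬ (ℓ : ℤ) ∣ f P then (1 : ℤ) else 0)) =
      ((A.filter fun P => ¬ (ℓ : ℤ) ∣ f P).card : ℤ) := by
    rw [Finset.card_filter]
    push_cast
    rfl
  have h6 : ((A.filter fun P => ¬ (ℓ : ℤ) ∣ f P).card : ℤ) ≤ N := by exact_mod_cast h2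
  rw [h5] at h4
  linarith

end AuxGRH

/-- five points with at most `N` places of order prime to `ℓ` in each fibre. -/
theorem rh_five {k F : Type*} [Field k] [Field F] [Algebra k F] [CFF k F] {x : F}
    (hx : ∀ a : k, x ≠ algebraMap k F a) [Algebra.IsSeparable k⟮x⟯ F] {ℓ : ℕ} (hℓ : 2 ≤ ℓ)
    (N : ℕ) (s : Finset k) (hs : s.card = 5)
    (hN : ∀ c ∈ s, {P : Plk k F | 0 < ord P (x - algebraMap k F c) ∧
      ¬ (ℓ : ℤ) ∣ ord P (x - algebraMap k F c)}.encard ≤ N) :
    Module.finrank k⟮x⟯ F ≤ 4 * gen k F + 5 * N := by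
  have key := RH hx s
  set n : ℕ := Module.finrank k⟮x⟯ F with hn
  have h1 : ∀ c ∈ s, (n : ℤ) - N ≤ 2 * ((n : ℤ) - (fib_finite hx c).toFinset.card) := by
    intro c hc
    have h2 := AuxGRH.two_card_le (fib_finite hx c).toFinset
      (fun P => ord P (x - algebraMap k F c))
      (fun P hP => by simpa using hP) hℓ N (by
        refine le_trans (le_of_eq ?_) (hN c hc)
        congr 1
        ext P
        simp)
    rw [fib_sum hx c] at h2
    linarith
  have h2 := Finset.sum_le_sum h1
  rw [Finset.sum_const, hs, nsmul_eq_mul, ← Finset.mul_sum] at h2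
  have h3 : (n : ℤ) ≤ 4 * gen k F + 5 * N := by
    push_cast at h2
    linarith
  exact_mod_cast h3

end Vale.Agent.P019P
end
end

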