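import Vale.Agent.P025.R2.H133.QpLin
import Vale.Agent.P025.R2.H587.HTDefs
import Vale.Agent.P025.R2.H670.DerOrd
import Vale.Agent.P025.R2.H670.Density

/-!
# G-RNS (9.3), (9.4): the logarithmic system `∏ (ψ - α_i) ^ n_i`
-/

namespace P025H816

open Vale.Agent.P019P P025H587 P025H492 P025H670 IntermediateField
open scoped Polynomial

/-- integer approximations with sum exactly zero. -/
theorem exists_approx {p : ℕ} [Fact p.Prime] {N : ℕ} (n : Fin N → ℤ_[p]) (hn : ∑ i, n i = 0) :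
    ∃ a : ℕ → Fin N → ℤ, (∀ m, ∑ i, a m i = 0) ∧
      ∀ m i, (p : ℤ_[p]) ^ m ∣ (a m i : ℤ_[p]) - n i := by
  cases N with
  | zero => exact ⟨fun _ _ => 0, fun m => by simp, fun m i => i.elim0⟩
  | succ k =>
    have happ : ∀ (x : ℤ_[p]) (m : ℕ), (p : ℤ_[p]) ^ m ∣ ((x.appr m : ℕ) : ℤ_[p]) - x := by
      intro x m
      have h1 := PadicInt.appr_spec m x
      rw [Ideal.mem_span_singleton] at h1
      rw [← neg_sub]
      exact (dvd_neg).2 h1
    refine ⟨fun m => Fin.cons (-∑ j : Fin k, ((n j.succ).appr m : ℤ))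
      (fun j => ((n j.succ).appr m : ℤ)), ?_, ?_⟩
    · intro m
      rw [Fin.sum_univ_succ]
      simp
    · intro m i
      refine Fin.cases ?_ (fun j => ?_) i
      · have h0 : n 0 = -∑ j : Fin k, n j.succ := by
          rw [Fin.sum_univ_succ] at hn
          linear_combination hn
        beta_reduce
        rw [Fin.cons_zero, h0]
        push_cast
        have h1 : -(∑ j : Fin k, (((n j.succ).appr m : ℕ) : ℤ_[p])) - -∑ j : Fin k, n j.succ =
            -∑ j : Fin k, ((((n j.succ).appr m : ℕ) : ℤ_[p]) - n j.succ) := by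
          rw [Finset.sum_sub_distrib]
          ring
        rw [h1, dvd_neg]
        exact Finset.dvd_sum fun j _ => happ _ _
      · beta_reduce
        rw [Fin.cons_succ]
        push_cast
        exact happ _ _

/-- logarithmic derivative of a product of powers. -/
theorem logDer_prod {C K : Type*} [Field C] [Field K] [Algebra C K] (D : Derivation C K K)
    {ι : Type*} (s : Finset ι) (f : ι → K) (a : ι → ℤ) (hf : ∀ i ∈ s, f i ≠ 0) :
    D (∏ i ∈ s, f i ^ a i) / (∏ i ∈ s, f i ^ a i) = ∑ i ∈ s, (a i : K) * (D (f i) / f i) := by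
  classical
  induction s using Finset.induction_on with
  | empty => simp
  | insert i s hi ih =>
    have h1 : ∀ j ∈ s, f j ≠ 0 := fun j hj => hf j (Finset.mem_insert_of_mem hj)
    have h2 : f i ≠ 0 := hf i (Finset.mem_insert_self _ _)
    have h3 : ∏ j ∈ s, f j ^ a j ≠ 0 := Finset.prod_ne_zero_iff.2 fun j hj => zpow_ne_zero _ (h1 j hj)
    have h4 : f i ^ a i ≠ 0 := zpow_ne_zero _ h2
    rw [Finset.prod_insert hi, Finset.sum_insert hi, ← ih h1, D.leibniz, smul_eq_mul, smul_eq_mul,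
      add_div, mul_comm (∏ j ∈ s, f j ^ a j) (D (f i ^ a i)), mul_div_mul_right _ _ h3,
      mul_div_mul_left _ _ h4, add_comm]
    congr 1
    rw [D.leibniz_zpow, zsmul_eq_mul, smul_eq_mul, zpow_sub_one₀ h2]
    field_simp

section main

variable {p : ℕ} [Fact p.Prime] {C K : Type*} [NontriviallyNormedField C] [Algebra ℚ_[p] C]
  [Field K] [Algebra C K]

/-- the elements `h_m = ∏ (ψ - α_i) ^ (a_i)`. -/
noncomputable def logEl (ψ : K) {N : ℕ} (β : Fin N → C) (a : ℕ → Fin N → ℤ) (m : ℕ) : K :=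
  ∏ i, (ψ - algebraMap C K (β i)) ^ a m i

theorem logEl_ne_zero {ψ : K} (hψ : ∀ a : C, ψ ≠ algebraMap C K a) {N : ℕ} (β : Fin N → C)
    (a : ℕ → Fin N → ℤ) (m : ℕ) : logEl ψ β a m ≠ 0 :=
  Finset.prod_ne_zero_iff.2 fun _ _ => zpow_ne_zero _ (sub_ne_zero.2 (hψ _))

omit [Algebra ℚ_[p] C] in
theorem logEl_succ {ψ : K} (hψ : ∀ a : C, ψ ≠ algebraMap C K a) {N : ℕ} (β : Fin N → C)
    {n : Fin N → ℤ_[p]} {a : ℕ → Fin N → ℤ}
    (ha : ∀ m i, (p : ℤ_[p]) ^ m ∣ (a m i : ℤ_[p]) - n i) (m : ℕ) :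
    ∃ g : K, g ≠ 0 ∧ logEl ψ β a (m + 1) = logEl ψ β a m * g ^ p ^ m := by
  have h1 : ∀ i, (p : ℤ) ^ m ∣ a (m + 1) i - a m i := by
    intro i
    have h2 : (p : ℤ_[p]) ^ m ∣ ((a (m + 1) i - a m i : ℤ) : ℤ_[p]) := by
      have h3 := dvd_sub ((pow_dvd_pow (p : ℤ_[p]) (Nat.le_succ m)).trans (ha (m + 1) i)) (ha m i)
      rw [sub_sub_sub_cancel_right] at h3
      push_cast
      exact h3
    rw [← PadicInt.norm_int_le_pow_iff_dvd]
    rw [PadicInt.norm_le_pow_iff_mem_span_pow, Ideal.mem_span_singleton]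
    exact h2
  choose b hb using h1
  refine ⟨∏ i, (ψ - algebraMap C K (β i)) ^ b i,
    Finset.prod_ne_zero_iff.2 fun i _ => zpow_ne_zero _ (sub_ne_zero.2 (hψ _)), ?_⟩
  rw [logEl, logEl, ← Finset.prod_pow, ← Finset.prod_mul_distrib]
  refine Finset.prod_congr rfl fun i _ => ?_
  have h2 : a (m + 1) i = a m i + b i * ((p ^ m : ℕ) : ℤ) := by
    have := hb i
    push_cast
    linear_combination this
  rw [h2, zpow_add₀ (sub_ne_zero.2 (hψ _)), zpow_mul, zpow_natCast]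

variable [CFF C K]

omit [Algebra ℚ_[p] C] [Fact p.Prime] in
theorem ord_logEl {ψ : K} (hψ : ∀ a : C, ψ ≠ algebraMap C K a) {N : ℕ} (β : Fin N → C)
    {a : ℕ → Fin N → ℤ} (hs : ∀ m, ∑ i, a m i = 0) (m : ℕ) (P : Plk C K)
    (h : ∀ i, ord P (ψ - algebraMap C K (β i)) ≤ 0) : ord P (logEl ψ β a m) = 0 := by
  have hψ0 : ψ ≠ 0 := by
    have := hψ 0
    rwa [map_zero] at this
  have hc : ∃ c : ℤ, ∀ i, ord P (ψ - algebraMap C K (β i)) = c := by
    have hcm : ∀ b : C, algebraMap C K b ∈ Mge P 0 := by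
      intro b
      by_cases hb : b = 0
      · rw [hb, map_zero]; exact Or.inl rfl
      · exact Or.inr (by rw [ord_const])
    by_cases h0 : ord P ψ < 0
    · refine ⟨ord P ψ, fun i => ?_⟩
      have h1 := ord_add_of_lt (P := P) (z := ψ) (w := -algebraMap C K (β i)) hψ0
        (Mge_mono P (by omega) ((Mge P 0).neg_mem (hcm _)))
      rw [← sub_eq_add_neg] at h1
      exact h1.2
    · refine ⟨0, fun i => le_antisymm (h i) ?_⟩
      have h1 : ψ - algebraMap C K (β i) ∈ Mge P 0 :=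
        (Mge P 0).sub_mem (Or.inr (not_lt.1 h0)) (hcm _)
      exact h1.resolve_left (sub_ne_zero.2 (hψ _))
  obtain ⟨c, hc⟩ := hc
  rw [logEl, ord_prod _ _ _ fun i _ => zpow_ne_zero _ (sub_ne_zero.2 (hψ _))]
  simp only [ord_zpow, hc]
  rw [← Finset.sum_mul, hs, zero_mul]

/-- **(9.3) + (9.4), algebraic half**, explicit form: for every `u` algebraic over `ℚ_p` there is
a local logarithmic system `h_m = ∏ (ψ - α_i) ^ (a m i)` whose form vanishes to order exactly `l` at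
all the places where `ψ - u` is a uniformizer. -/
theorem exists_log_system' (hnm : ∀ x : ℚ_[p], ‖algebraMap ℚ_[p] C x‖ = ‖x‖) [CharZero C]
    {ψ : K} (hψ : ∀ a : C, ψ ≠ algebraMap C K a) (u : C) (hu : IsIntegral ℚ_[p] u)
    (S : Set ℤ_[p]) (hS : S.Finite) (l : ℕ) (D : Derivation C K K) (hD : D ≠ 0) :
    ∃ (N : ℕ) (α : Fin N → ℤ_[p]) (a : ℕ → Fin N → ℤ) (θ : K),
      (∀ i, α i ∉ S ∧ algebraMap ℚ_[p] C (α i : ℚ_[p]) ≠ u) ∧
        (∀ m, ∃ g, g ≠ 0 ∧ logEl ψ (fun i => algebraMap ℚ_[p] C (α i : ℚ_[p])) a (m + 1) =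
          logEl ψ (fun i => algebraMap ℚ_[p] C (α i : ℚ_[p])) a m * g ^ p ^ m) ∧
        (∀ m (P : Plk C K), (∀ i, ord P (ψ - algebraMap C K (algebraMap ℚ_[p] C
          (α i : ℚ_[p]))) ≤ 0) →
            ord P (logEl ψ (fun i => algebraMap ℚ_[p] C (α i : ℚ_[p])) a m) = 0) ∧
        θ ≠ 0 ∧ IsTheta p D (logEl ψ (fun i => algebraMap ℚ_[p] C (α i : ℚ_[p])) a) θ ∧
        ∀ P : Plk C K, ord P (ψ - algebraMap C K u) = 1 → ∀ s, ord P s = 1 →
          ord P θ - ord P (D s) = l := by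
  classical
  have hac : IsAlgClosed C := CFF.ac (k := C) (F := K)
  obtain ⟨N, α, n, c, hαi, hαS, hαu, hn, hc, hres⟩ := P025H133.exists_res u S hS l
  obtain ⟨a, ha1, ha2⟩ := exists_approx n hn
  let β : Fin N → C := fun i => algebraMap ℚ_[p] C (α i : ℚ_[p])
  have hχ : ∀ b : C, ψ - algebraMap C K b ≠ 0 := fun b => sub_ne_zero.2 (hψ b)
  let _ : Algebra ℚ_[p] K := ((algebraMap C K).comp (algebraMap ℚ_[p] C)).toAlgebra
  have hst : IsScalarTower ℚ_[p] C K := IsScalarTower.of_algebraMap_eq fun x => rfl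
  have hKdef : ∀ x : ℚ_[p], algebraMap ℚ_[p] K x = algebraMap C K (algebraMap ℚ_[p] C x) :=
    fun x => rfl
  -- the form
  let θ : K := ∑ i, algebraMap ℚ_[p] K (n i : ℚ_[p]) * (D ψ / (ψ - algebraMap C K (β i)))
  have hθ : θ = D ψ * (algebraMap ℚ_[p] K c * Polynomial.aeval ψ (minpoly ℚ_[p] u) ^ l /
      ∏ i, (ψ - algebraMap C K (β i))) := by
    have h1 : ∑ i, algebraMap ℚ_[p] K (n i : ℚ_[p]) / (ψ - algebraMap C K (β i)) =
        algebraMap ℚ_[p] K c * Polynomial.aeval ψ (minpoly ℚ_[p] u) ^ l /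
          ∏ i, (ψ - algebraMap C K (β i)) := hres K ψ (fun i => by rw [hKdef]; exact hψ _)
    rw [← h1, Finset.mul_sum]
    refine Finset.sum_congr rfl fun i _ => ?_
    ring
  -- the derivative of `ψ`
  obtain ⟨Q, hQ⟩ := exists_pole hψ
  obtain ⟨s₀, -, hs₀⟩ := exists_unif Q
  have hDψ : D ψ ≠ 0 := (ord_der hD hs₀ (y := ψ) (by omega)).1
  have hDsub : ∀ b : C, D (ψ - algebraMap C K b) = D ψ := by
    intro b
    rw [map_sub, D.map_algebraMap, sub_zero]
  -- the minimal polynomial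
  obtain ⟨g, hg, hgu⟩ := P025H133.minpoly_simple u hu
  have hμ : Polynomial.aeval ψ (minpoly ℚ_[p] u) =
      (ψ - algebraMap C K u) * Polynomial.aeval ψ g := by
    have h1 : Polynomial.aeval ψ ((minpoly ℚ_[p] u).map (algebraMap ℚ_[p] C)) =
        Polynomial.aeval ψ (minpoly ℚ_[p] u) := Polynomial.aeval_map_algebraMap C ψ _
    rw [← h1, hg, map_mul, map_sub, Polynomial.aeval_X, Polynomial.aeval_C]
  have hg0 : g ≠ 0 := by
    rintro rfl
    simp at hgu
  have htr : Transcendental C ψ := (finite_of_notMem hψ).1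
  have hgψ : Polynomial.aeval ψ g ≠ 0 := fun h1 => hg0 ((transcendental_iff.1 htr) g h1)
  have hμ0 : Polynomial.aeval ψ (minpoly ℚ_[p] u) ≠ 0 := by
    rw [hμ]
    exact mul_ne_zero (hχ u) hgψ
  have hprod : ∏ i, (ψ - algebraMap C K (β i)) ≠ 0 := Finset.prod_ne_zero_iff.2 fun i _ => hχ _
  have hcK : algebraMap ℚ_[p] K c ≠ 0 := (_root_.map_ne_zero _).2 hc
  have hθ0 : θ ≠ 0 := by
    rw [hθ]
    exact mul_ne_zero hDψ (div_ne_zero (mul_ne_zero hcK (pow_ne_zero _ hμ0)) hprod)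
  refine ⟨N, α, a, θ, fun i => ⟨hαS i, hαu i⟩, logEl_succ hψ β ha2, ?_, hθ0, ?_, ?_⟩
  · intro m P hP
    exact ord_logEl hψ β ha1 m P hP
  · -- convergence
    intro w hw
    refine ⟨∑ i, w (D ψ / (ψ - algebraMap C K (β i))), fun m => ?_⟩
    have h1 : D (logEl ψ β a m) / logEl ψ β a m - θ =
        ∑ i, algebraMap C K (algebraMap ℚ_[p] C ((a m i : ℚ_[p]) - (n i : ℚ_[p]))) *
          (D ψ / (ψ - algebraMap C K (β i))) := by
      rw [logEl, logDer_prod D _ _ _ fun i _ => hχ _, ← Finset.sum_sub_distrib]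
      refine Finset.sum_congr rfl fun i _ => ?_
      rw [hDsub, hKdef, map_sub, map_sub, map_intCast, map_intCast]
      ring
    rw [h1]
    refine (w.sum_le _ _).trans ?_
    rw [Finset.sum_mul]
    refine Finset.sum_le_sum fun i _ => ?_
    rw [map_mul, hw.const, hnm, mul_comm]
    refine mul_le_mul_of_nonneg_left ?_ (w.nonneg _)
    obtain ⟨y, hy⟩ := ha2 m i
    have h2 : (a m i : ℚ_[p]) - (n i : ℚ_[p]) = (((a m i : ℤ_[p]) - n i : ℤ_[p]) : ℚ_[p]) := by
      push_cast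
      ring
    rw [h2, hy]
    push_cast
    rw [norm_mul, norm_pow]
    have h3 : ‖(p : C)‖ = ‖(p : ℚ_[p])‖ := by
      rw [← hnm, map_natCast]
    rw [h3]
    exact mul_le_of_le_one_right (by positivity) (PadicInt.norm_le_one y)
  · -- the order
    intro P hP s hs
    have h1 : ord P (D ψ) = ord P (D s) := by
      have h2 := (ord_der hD hs (y := ψ - algebraMap C K u) (by omega)).2
      rw [hDsub, hP] at h2
      omega
    have hpos : 0 < ord P (ψ - algebraMap C K u) := by omega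
    have h2 : ord P (Polynomial.aeval ψ g) = 0 := (ord_aeval_of_eval hpos hgu).2
    have h3 : ord P (∏ i, (ψ - algebraMap C K (β i))) = 0 := by
      rw [ord_prod _ _ _ fun i _ => hχ _]
      refine Finset.sum_eq_zero fun i _ => ?_
      have h4 := (ord_aeval_of_eval hpos (q := Polynomial.X - Polynomial.C (β i)) (by
        rw [Polynomial.eval_sub, Polynomial.eval_X, Polynomial.eval_C]
        exact sub_ne_zero.2 fun h5 => hαu i h5.symm)).2
      rwa [map_sub, Polynomial.aeval_X, Polynomial.aeval_C] at h4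
    have h5 : ord P (algebraMap ℚ_[p] K c) = 0 := by rw [hKdef, ord_const]
    rw [hθ, ord_mul _ hDψ (div_ne_zero (mul_ne_zero hcK (pow_ne_zero _ hμ0)) hprod),
      div_eq_mul_inv, ord_mul _ (mul_ne_zero hcK (pow_ne_zero _ hμ0)) (inv_ne_zero hprod),
      ord_mul _ hcK (pow_ne_zero _ hμ0), ord_inv, ord_pow, h3, h5, hμ,
      ord_mul _ (hχ u) hgψ, hP, h2, h1]
    ring

/-- **(9.3) + (9.4), algebraic half**. -/
theorem exists_log_system (hnm : ∀ x : ℚ_[p], ‖algebraMap ℚ_[p] C x‖ = ‖x‖) [CharZero C]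
    {ψ : K} (hψ : ∀ a : C, ψ ≠ algebraMap C K a) (u : C) (hu : IsIntegral ℚ_[p] u)
    (S : Set ℤ_[p]) (hS : S.Finite) (l : ℕ) (D : Derivation C K K) (hD : D ≠ 0) :
    ∃ A : Finset ℤ_[p], (∀ a ∈ A, a ∉ S ∧ algebraMap ℚ_[p] C (a : ℚ_[p]) ≠ u) ∧
      ∃ (h : ℕ → K) (θ : K), (∀ m, h m ≠ 0) ∧
        (∀ m, ∃ g, g ≠ 0 ∧ h (m + 1) = h m * g ^ p ^ m) ∧
        (∀ m (P : Plk C K), (∀ a ∈ A, ord P (ψ - algebraMap C K (algebraMap ℚ_[p] C
          (a : ℚ_[p]))) ≤ 0) → ord P (h m) = 0) ∧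
        θ ≠ 0 ∧ IsTheta p D h θ ∧
        ∀ P : Plk C K, ord P (ψ - algebraMap C K u) = 1 → ∀ s, ord P s = 1 →
          ord P θ - ord P (D s) = l := by
  classical
  obtain ⟨N, α, a, θ, h1, h2, h3, h4, h5, h6⟩ := exists_log_system' hnm hψ u hu S hS l D hD
  refine ⟨Finset.univ.image α, ?_, _, θ, logEl_ne_zero hψ _ a, h2, ?_, h4, h5, h6⟩
  · intro x hx
    obtain ⟨i, -, rfl⟩ := Finset.mem_image.1 hx
    exact h1 i
  · intro m P hP
    exact h3 m P fun i => hP (α i) (Finset.mem_image_of_mem _ (Finset.mem_univ i))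

end main

end P025H816
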