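import Vale.Agent.P025.R2.H816.Pic

/-!
# Classes of functions with divisor divisible by `n`
-/

namespace P025H816

open Vale.Agent.P019P

universe u

section

variable {k F : Type u} [Field k] [Field F] [Algebra k F] [CFF k F]

variable (k F) in
/-- the functions all of whose orders are divisible by `n` -/
def divU (n : ℕ) : Subgroup Fˣ where
  carrier := {f | ∀ P : Plk k F, (n : ℤ) ∣ ord P (f : F)}
  mul_mem' := by
    intro f g hf hg P
    rw [Units.val_mul, ord_mul P f.ne_zero g.ne_zero]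
    exact dvd_add (hf P) (hg P)
  one_mem' := by
    intro P
    rw [Units.val_one, Vale.Agent.P019P.ord_one]
    exact dvd_zero _
  inv_mem' := by
    intro f hf P
    rw [Units.val_inv_eq_inv_val, Vale.Agent.P019P.ord_inv]
    exact (hf P).neg_right

theorem mem_divU {n : ℕ} {f : Fˣ} : f ∈ divU k F n ↔ ∀ P : Plk k F, (n : ℤ) ∣ ord P (f : F) :=
  Iff.rfl

/-- the `n`-th powers -/
def powU (F : Type*) [Field F] (n : ℕ) : Subgroup Fˣ := (powMonoidHom n : Fˣ →* Fˣ).range

theorem mem_powU {n : ℕ} {f : Fˣ} : f ∈ powU F n ↔ ∃ g : Fˣ, g ^ n = f := Iff.rfl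

theorem mem_powU' {n : ℕ} {f : Fˣ} : f ∈ powU F n ↔ ∃ g : F, g ^ n = f := by
  constructor
  · rintro ⟨g, rfl⟩
    exact ⟨g, by simp⟩
  · rintro ⟨g, hg⟩
    by_cases hn : n = 0
    · refine ⟨1, ?_⟩
      subst hn
      ext
      simpa using hg
    · have h0 : g ≠ 0 := by
        rintro rfl
        rw [zero_pow hn] at hg
        exact f.ne_zero hg.symm
      exact ⟨Units.mk0 g h0, by ext; simpa using hg⟩

theorem powU_le (n : ℕ) : powU F n ≤ divU k F n := by
  rintro f ⟨g, rfl⟩ P
  change (n : ℤ) ∣ ord P ((g ^ n : Fˣ) : F)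
  rw [Units.val_pow_eq_pow_val, Vale.Agent.P019P.ord_pow]
  exact Dvd.intro _ rfl

variable (k F) in
/-- `H(F, n)`: functions with divisor divisible by `n`, modulo `n`-th powers. -/
abbrev HK (n : ℕ) : Type _ := divU k F n ⧸ (powU F n).subgroupOf (divU k F n)

theorem exists_halfdiv {n : ℕ} {f : Fˣ} (hf : f ∈ divU k F n) :
    ∃ E : Plk k F →₀ ℤ, n • E = dv k (f : F) := by
  refine ⟨(dv k (f : F)).mapRange (fun z => z / n) (Int.zero_ediv _), ?_⟩
  ext P
  rw [Finsupp.smul_apply, Finsupp.mapRange_apply, nsmul_eq_mul, dv_apply]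
  exact Int.mul_ediv_cancel' (hf P)

theorem smul_inj' {P : Type*} {n : ℕ} (hn : n ≠ 0) {D E : P →₀ ℤ} (h : n • D = n • E) : D = E := by
  ext p
  have h1 := DFunLike.congr_fun h p
  rw [Finsupp.smul_apply, Finsupp.smul_apply, nsmul_eq_mul, nsmul_eq_mul] at h1
  have h2 : (n : ℤ) ≠ 0 := by exact_mod_cast hn
  exact mul_left_cancel₀ h2 h1

theorem halfdiv_tors {n : ℕ} {f : F} (hf : f ≠ 0) {E : Plk k F →₀ ℤ} (h : n • E = dv k f) :
    (QuotientAddGroup.mk E : Pc k F) ∈ tors (Pc k F) n := by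
  rw [mem_tors, mk_tors, h]
  exact ⟨f, hf, rfl⟩

/-- the class of the `n`-th part of the divisor -/
noncomputable def toTors {n : ℕ} (hn : n ≠ 0) :
    divU k F n →* Multiplicative (tors (Pc k F) n) where
  toFun f := Multiplicative.ofAdd
    ⟨QuotientAddGroup.mk (exists_halfdiv f.2).choose,
      halfdiv_tors (f : Fˣ).ne_zero (exists_halfdiv f.2).choose_spec⟩
  map_one' := by
    apply congrArg Multiplicative.ofAdd
    apply Subtype.ext
    change (QuotientAddGroup.mk _ : Pc k F) = 0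
    have h1 := (exists_halfdiv (k := k) (F := F) (n := n) (1 : divU k F n).2).choose_spec
    have h2 : (exists_halfdiv (k := k) (F := F) (n := n) (1 : divU k F n).2).choose = 0 := by
      apply smul_inj' hn
      rw [h1, smul_zero]
      change dv k ((1 : Fˣ) : F) = 0
      rw [Units.val_one]
      ext P
      rw [dv_apply, Vale.Agent.P019P.ord_one, Finsupp.zero_apply]
    refine (QuotientAddGroup.eq_zero_iff _).2 ?_
    rw [h2]
    exact (prn k F).zero_mem
  map_mul' f g := by
    rw [← ofAdd_add]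
    apply congrArg Multiplicative.ofAdd
    apply Subtype.ext
    change (QuotientAddGroup.mk _ : Pc k F) = QuotientAddGroup.mk _ + QuotientAddGroup.mk _
    rw [← QuotientAddGroup.mk_add]
    congr 1
    apply smul_inj' hn
    rw [smul_add, (exists_halfdiv (f * g).2).choose_spec, (exists_halfdiv f.2).choose_spec,
      (exists_halfdiv g.2).choose_spec]
    change dv k (((f : Fˣ) * (g : Fˣ) : Fˣ) : F) = _
    rw [Units.val_mul, dv_mul (Units.ne_zero _) (Units.ne_zero _)]

theorem toTors_eq {n : ℕ} (hn : n ≠ 0) (f : divU k F n) {E : Plk k F →₀ ℤ}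
    (h : n • E = dv k ((f : Fˣ) : F)) :
    ((toTors hn f).toAdd : Pc k F) = QuotientAddGroup.mk E := by
  change (QuotientAddGroup.mk _ : Pc k F) = QuotientAddGroup.mk E
  congr 1
  apply smul_inj' hn
  rw [h, (exists_halfdiv f.2).choose_spec]

theorem toTors_surj {n : ℕ} (hn : n ≠ 0) : Function.Surjective (toTors (k := k) (F := F) hn) := by
  intro x
  obtain ⟨⟨y, hy⟩, rfl⟩ := Multiplicative.ofAdd.surjective x
  obtain ⟨E, rfl⟩ := QuotientAddGroup.mk_surjective y
  obtain ⟨z, hz, h⟩ := mk_tors.1 (mem_tors.1 hy)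
  have hmem : Units.mk0 z hz ∈ divU k F n := by
    intro P
    change (n : ℤ) ∣ ord P z
    rw [← dv_apply, ← h, Finsupp.smul_apply, nsmul_eq_mul]
    exact Dvd.intro _ rfl
  refine ⟨⟨Units.mk0 z hz, hmem⟩, ?_⟩
  apply Multiplicative.toAdd.injective
  apply Subtype.ext
  exact toTors_eq hn ⟨Units.mk0 z hz, hmem⟩ h

theorem toTors_ker {n : ℕ} (hn : n ≠ 0) :
    (toTors (k := k) (F := F) hn).ker = (powU F n).subgroupOf (divU k F n) := by
  have : IsAlgClosed k := CFF.ac F
  ext f
  rw [MonoidHom.mem_ker, Subgroup.mem_subgroupOf]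
  obtain ⟨E, hE⟩ := exists_halfdiv f.2
  have h0 : toTors hn f = 1 ↔ (QuotientAddGroup.mk E : Pc k F) = 0 := by
    rw [← toTors_eq hn f hE]
    constructor
    · intro h
      rw [h]
      rfl
    · intro h
      apply Multiplicative.toAdd.injective
      exact Subtype.ext h
  rw [h0, QuotientAddGroup.eq_zero_iff]
  constructor
  · rintro ⟨z, hz, h⟩
    rw [mem_powU']
    have h1 : dv k (z ^ n) = dv k ((f : Fˣ) : F) := by
      rw [← hE, h]
      ext P
      rw [dv_apply, Vale.Agent.P019P.ord_pow, Finsupp.smul_apply, dv_apply, nsmul_eq_mul]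
    obtain ⟨a, ha, h2⟩ := (dv_eq_iff (pow_ne_zero n hz) (Units.ne_zero _)).1 h1
    obtain ⟨b, hb⟩ := IsAlgClosed.exists_pow_nat_eq a (Nat.pos_of_ne_zero hn)
    refine ⟨algebraMap k F b * z, ?_⟩
    rw [mul_pow, ← map_pow, hb, h2, Algebra.smul_def]
  · intro h
    obtain ⟨g, hg⟩ := mem_powU'.1 h
    have hg0 : g ≠ 0 := by
      rintro rfl
      rw [zero_pow hn] at hg
      exact (Units.ne_zero _) hg.symm
    refine ⟨g, hg0, ?_⟩
    apply smul_inj' hn
    rw [hE, ← hg]
    ext P
    rw [dv_apply, Vale.Agent.P019P.ord_pow, Finsupp.smul_apply, dv_apply, nsmul_eq_mul]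

/-- **the order of `H(F, n)`**. -/
theorem card_HK {n : ℕ} (hn : (n : k) ≠ 0) : Nat.card (HK k F n) = n ^ (2 * gen k F) := by
  have hn0 : n ≠ 0 := by
    rintro rfl
    simp at hn
  rw [← card_pic_tors (F := F) hn]
  unfold HK
  rw [← toTors_ker hn0]
  exact (Nat.card_congr (QuotientGroup.quotientKerEquivOfSurjective _ (toTors_surj hn0)).toEquiv)

end

end P025H816
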