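import Vale.Agent.P025.R2.H450.RnsDef
import Vale.Agent.P025.R2.H535.Closure2
import Vale.Agent.P025.R2.H544.Dec

/-!
# G-RNS (S5): descent of the ramified / non-split property along a cover

`K ⊆ Z ⊆ W` with `W / K` in the class `Cov N`: if `RNSat` holds for a place of `Z` (with covers in
the class `Cov M`), then it holds for its restriction to `K` (with covers in the class
`Cov (N * M)`), `l` prime to `N * M`.
-/

set_option linter.unusedSectionVars false
set_option linter.style.longLine false

open TensorProduct P025H373 P025H628 P025H544 P025H492 P025H837 Vale.Agent.P019P P025H450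

universe u v w

namespace P025H816

section finite

/-- a function field over `C` is finite over the image of `C(t)`. -/
theorem finite_of_ratFunc {C : Type u} {K : Type v} [NontriviallyNormedField C]
    [IsUltrametricDist C] [CompleteSpace C] [IsAlgClosed C] [Field K] [Algebra C K]
    [Algebra (RatFunc C) K]
    [IsScalarTower C (RatFunc C) K] [CFF C K] : FiniteDimensional (RatFunc C) K := by
  have h : Transcendental C (algebraMap (RatFunc C) K RatFunc.X) := by
    rw [transcendental_algebraMap_iff (FaithfulSMul.algebraMap_injective (RatFunc C) K)]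
    exact RatFunc.transcendental_X
  have h1 := CFld_finite (k := C) (F := K) (x := algebraMap (RatFunc C) K RatFunc.X)
    h
  refine FiniteDimensional.of_finrank_pos ?_
  have h2 : Module.finrank (RatFunc C) K =
      Module.finrank (IntermediateField.adjoin C {algebraMap (RatFunc C) K RatFunc.X}) K := by
    refine Algebra.finrank_eq_of_equiv_equiv (RatFunc.algEquivOfTranscendental _ h).toRingEquiv
      (RingEquiv.refl K) ?_
    refine RingHom.ext fun u => ?_
    let f : RatFunc C →ₐ[C] K :=
      (IntermediateField.adjoin C {algebraMap (RatFunc C) K RatFunc.X}).val.comp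
        (RatFunc.algEquivOfTranscendental _ h).toAlgHom
    let g : RatFunc C →ₐ[C] K := IsScalarTower.toAlgHom C (RatFunc C) K
    have hfg : f = g := ratFunc_ext (RatFunc.algEquivOfTranscendental_X _ h)
    exact DFunLike.congr_fun hfg u
  rw [h2]
  exact Module.finrank_pos

end finite

section down

variable {C : Type u} [NontriviallyNormedField C] [IsUltrametricDist C] [CompleteSpace C]
  [IsAlgClosed C] {K : Type v} {Z : Type w} [Field K] [Field Z] [Algebra C K] [Algebra C Z]
  [Algebra (RatFunc C) K] [Algebra (RatFunc C) Z] [IsScalarTower C (RatFunc C) K]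
  [IsScalarTower C (RatFunc C) Z] [Algebra K Z] [IsScalarTower C K Z]
  [IsScalarTower (RatFunc C) K Z] [CFF C K] [CFF C Z] [Algebra.IsAlgebraic K Z]

/-- the component of the restriction of a place is the restriction of the component. -/
theorem onD_down {c : Cˣ} {P' : Plk C Z} {d : Pt (RatFunc C) (F2r C c) Z} (h : OnD C c P' d)
    (hunr : ram K P' = 1) :
    OnD C c (down K P')
      (ptMap (RatFunc C) (F2r C c) (IsScalarTower.toAlgHom (RatFunc C) K Z) d) := by
  obtain ⟨φ, hker, hord⟩ := h
  let g : F2r C c ⊗[RatFunc C] K →ₐ[F2r C c] F2r C c ⊗[RatFunc C] Z :=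
    tL (RatFunc C) (F2r C c) (IsScalarTower.toAlgHom (RatFunc C) K Z)
  refine ⟨{ (φ : _ →+* LaurentSeries C).comp (g : _ →+* F2r C c ⊗[RatFunc C] Z) with
    commutes' := fun a => ?_ }, ?_, fun x hx => ?_⟩
  · change φ (g (algebraMap C (F2r C c ⊗[RatFunc C] K) a)) = _
    rw [Algebra.TensorProduct.algebraMap_apply]
    change φ (tL (RatFunc C) (F2r C c) (IsScalarTower.toAlgHom (RatFunc C) K Z) _) = _
    rw [tL_tmul, map_one, ← Algebra.TensorProduct.algebraMap_apply]
    exact φ.commutes a
  · ext z
    have h1 : φ (g z) = 0 ↔ g z ∈ d.asIdeal := by rw [← hker]; rfl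
    exact h1
  · change (φ (tL (RatFunc C) (F2r C c) (IsScalarTower.toAlgHom (RatFunc C) K Z)
      ((1 : F2r C c) ⊗ₜ x))).order = _
    rw [tL_tmul]
    change (φ ((1 : F2r C c) ⊗ₜ (algebraMap K Z x))).order = _
    rw [hord _ ((_root_.map_ne_zero _).2 hx), P025H492.ord_algebraMap, hunr, Nat.cast_one, one_mul]

end down

section main

variable {C : Type u} [NontriviallyNormedField C] [IsUltrametricDist C] [CompleteSpace C]
  [IsAlgClosed C] [CharZero C] {K Z W : Type u} [Field K] [Field Z] [Field W]
  [Algebra C K] [Algebra C Z] [Algebra C W]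
  [Algebra (RatFunc C) K] [Algebra (RatFunc C) Z] [IsScalarTower C (RatFunc C) K]
  [IsScalarTower C (RatFunc C) Z] [Algebra K Z] [Algebra K W] [Algebra Z W]
  [IsScalarTower C K Z] [IsScalarTower C K W] [IsScalarTower K Z W]
  [IsScalarTower (RatFunc C) K Z] [CFF C K] [CFF C Z] [CFF C W] [FiniteDimensional K Z]

/-- the subextension of an unramified extension is unramified. -/
theorem ram_bot {N : ℕ} (hW : Cov N C K W) (P' : Plk C Z) : ram K P' = 1 := by
  have := hW.fin
  have : IsScalarTower C Z W := IsScalarTower.of_algebraMap_eq fun a => by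
    rw [IsScalarTower.algebraMap_apply C K W, IsScalarTower.algebraMap_apply K Z W,
      ← IsScalarTower.algebraMap_apply C K Z]
  have : FiniteDimensional Z W := FiniteDimensional.right K Z W
  exact IsUnr.bot (k := C) (K := K) (L := Z) (M := W) (fun Q => hW.unr Q) P'

/-- **(S5)** descent of `RNSat`. -/
theorem rnsat_descend {N M l : ℕ} (hW : Cov N C K W) (hl : Nat.Coprime l (N * M)) (P' : Plk C Z)
    (c : Cˣ) (h : RNSat C M l P' c) : RNSat C (N * M) l (down K P') c := by
  classical
  have := hW.fin
  have := hW.gal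
  have hsW : Group.IsSolvable (W ≃ₐ[K] W) := hW.sol
  have : IsScalarTower C Z W := IsScalarTower.of_algebraMap_eq fun a => by
    rw [IsScalarTower.algebraMap_apply C K W, IsScalarTower.algebraMap_apply K Z W,
      ← IsScalarTower.algebraMap_apply C K Z]
  have : CharZero K := charZero_of_injective_algebraMap (algebraMap C K).injective
  obtain ⟨L, iL, iCL, iZL, iRL, hCZL, hCRL, hRZL, hCFF, hL, β, hβ0, hβ, hV, d', hd', hnp⟩ := h
  have := hL.fin
  have := hL.gal
  have hsL : Group.IsSolvable (L ≃ₐ[Z] L) := hL.sol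
  let iKL : Algebra K L := ((algebraMap Z L).comp (algebraMap K Z)).toAlgebra
  have : IsScalarTower K Z L := IsScalarTower.of_algebraMap_eq fun a => rfl
  have : IsScalarTower C K L := IsScalarTower.of_algebraMap_eq fun a => by
    rw [IsScalarTower.algebraMap_apply C Z L, IsScalarTower.algebraMap_apply K Z L,
      ← IsScalarTower.algebraMap_apply C K Z]
  have : IsScalarTower (RatFunc C) K L := IsScalarTower.of_algebraMap_eq fun a => by
    rw [IsScalarTower.algebraMap_apply (RatFunc C) Z L, IsScalarTower.algebraMap_apply K Z L,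
      ← IsScalarTower.algebraMap_apply (RatFunc C) K Z]
  obtain ⟨E, iE, iCE, iKE, iLE, hCKE, hKLE, hCLE, hCE, hfin, hgal, hsol, hunr, j, hj⟩ :=
    P025H535.exists_galois_closure (k := C) (K := K) (Z := Z) (W := W) (L := L)
      (fun Q => hW.unr Q) (fun Q => hL.unr Q)
  let iRE : Algebra (RatFunc C) E := ((algebraMap L E).comp (algebraMap (RatFunc C) L)).toAlgebra
  have hRLE : IsScalarTower (RatFunc C) L E := IsScalarTower.of_algebraMap_eq fun a => rfl
  have hRKE : IsScalarTower (RatFunc C) K E := IsScalarTower.of_algebraMap_eq fun a => by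
    rw [IsScalarTower.algebraMap_apply (RatFunc C) L E, IsScalarTower.algebraMap_apply (RatFunc C) K L,
      ← IsScalarTower.algebraMap_apply K L E]
  have hCRE : IsScalarTower C (RatFunc C) E := IsScalarTower.of_algebraMap_eq fun a => by
    rw [IsScalarTower.algebraMap_apply C L E, IsScalarTower.algebraMap_apply (RatFunc C) L E,
      ← IsScalarTower.algebraMap_apply C (RatFunc C) L]
  have hZLfin : FiniteDimensional Z L := hL.fin
  have hKLfin : FiniteDimensional K L := FiniteDimensional.trans K Z L
  have hLEfin : FiniteDimensional L E := FiniteDimensional.right K L E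
  have hLEgal : IsGalois L E := IsGalois.tower_top_of_isGalois K L E
  have hLEunr : IsUnr C L E := hunr.top (K := K) (L := L)
  have hRKfin : FiniteDimensional (RatFunc C) K := finite_of_ratFunc
  have hRLfin : FiniteDimensional (RatFunc C) L := FiniteDimensional.trans (RatFunc C) K L
  have hREfin : FiniteDimensional (RatFunc C) E := FiniteDimensional.trans (RatFunc C) K E
  -- the degree
  have hNM : ∃ m, Module.finrank K E ∣ (N * M) ^ m := by
    obtain ⟨a, ha⟩ := hW.deg
    obtain ⟨b, hb⟩ := hL.deg
    refine ⟨(a + b) * j, hj.trans ?_⟩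
    rw [pow_mul]
    refine pow_dvd_pow_of_dvd ?_ j
    rw [pow_add]
    refine mul_dvd_mul (ha.trans (pow_dvd_pow_of_dvd ⟨M, rfl⟩ a))
      (hb.trans (pow_dvd_pow_of_dvd ⟨N, mul_comm _ _⟩ b))
  have hcop : (Nat.card (E ≃ₐ[L] E)).Coprime l := by
    obtain ⟨m, hm⟩ := hNM
    rw [IsGalois.card_aut_eq_finrank]
    have h1 : Module.finrank L E ∣ (N * M) ^ m :=
      (Dvd.intro_left _ (Module.finrank_mul_finrank K L E)).trans hm
    exact Nat.Coprime.coprime_dvd_left h1 (hl.symm.pow_left m)
  obtain ⟨D, hD⟩ := P025H544.ptMap_surjective (A := F2r C c) (IsScalarTower.toAlgHom (RatFunc C) L E) d'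
  refine ⟨E, iE, iCE, iKE, iRE, hCKE, hCRE, hRKE, hCE, ⟨hfin, hgal, hsol, hNM, ?_⟩,
    algebraMap L E β, (_root_.map_ne_zero _).2 hβ0, fun Q => ?_, ?_, D, ?_, ?_⟩
  · intro _ _ Q
    exact hunr Q
  · rw [hLEunr.ord_algebraMap]
    exact hβ _
  · obtain ⟨x, hx⟩ := hV
    refine ⟨tL (RatFunc C) (F1r C c) (IsScalarTower.toAlgHom (RatFunc C) L E) x, ?_⟩
    rw [← map_pow, hx, tL_tmul]
    rfl
  · have h1 := onD_down (K := K) hd' (ram_bot hW P')
    rw [P025H544.ptMap_comp, ← hD, P025H544.ptMap_comp] at h1
    have h2 : IsScalarTower.toAlgHom (RatFunc C) K E =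
        ((IsScalarTower.toAlgHom (RatFunc C) L E).comp (IsScalarTower.toAlgHom (RatFunc C) Z L)).comp
          (IsScalarTower.toAlgHom (RatFunc C) K Z) := by
      refine AlgHom.ext fun x => ?_
      change algebraMap K E x = algebraMap L E (algebraMap Z L (algebraMap K Z x))
      rw [← IsScalarTower.algebraMap_apply K Z L, ← IsScalarTower.algebraMap_apply K L E]
    rw [h2]
    exact h1
  · have := smulComm_gal (F := RatFunc C) (L := L) (L' := E)
    refine NotPow.ext (G := E ≃ₐ[L] E) (IsScalarTower.toAlgHom (RatFunc C) L E)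
      (fun g x => g.commutes x) (fun x hx => ?_) hcop hβ0 (hD.symm ▸ hnp)
    exact (IsGalois.mem_range_algebraMap_iff_fixed x).2 hx

end main

end P025H816
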