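import Vale.Agent.P025.R2.H816.Nsu1

/-!
# The class of finite Galois solvable everywhere unramified extensions: Kummer steps
-/

universe u v w

namespace P025H816

open Vale.Agent.P019P P025H492 IntermediateField
open scoped Polynomial

theorem adjoin_set_top {K M : Type*} [Field K] [Field M] [Algebra K M] (S : Set M) :
    adjoin K {x : adjoin K S | (x : M) ∈ S} = ⊤ := by
  rw [eq_top_iff]
  rintro ⟨x, hx⟩ -
  induction hx using IntermediateField.adjoin_induction with
  | mem z hz => exact subset_adjoin _ _ hz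
  | algebraMap a => exact IntermediateField.algebraMap_mem _ a
  | add a b ha hb ha' hb' => exact add_mem ha' hb'
  | inv a ha ha' => exact inv_mem ha'
  | mul a b ha hb ha' hb' => exact mul_mem ha' hb'

/-- the `n`-th roots of unity of an extension of an algebraically closed field. -/
theorem exists_const_of_pow {C Ω : Type*} [Field C] [IsAlgClosed C] [CharZero C] [Field Ω]
    [Algebra C Ω] {n : ℕ} (hn : n ≠ 0) {z z' : Ω} (h : z ^ n = z' ^ n) :
    ∃ ζ : C, z = algebraMap C Ω ζ * z' := by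
  by_cases hz' : z' = 0
  · rw [hz', zero_pow hn] at h
    exact ⟨0, by rw [eq_zero_of_pow_eq_zero h, map_zero, zero_mul]⟩
  have : NeZero (n : C) := ⟨by exact_mod_cast hn⟩
  obtain ⟨ζ, hζ⟩ := HasEnoughRootsOfUnity.exists_primitiveRoot C n
  have hζ' := hζ.map_of_injective (algebraMap C Ω).injective
  have h1 : (z * z'⁻¹) ^ n = 1 := by
    rw [mul_pow, h, ← mul_pow, mul_inv_cancel₀ hz', one_pow]
  have : NeZero n := ⟨hn⟩
  obtain ⟨i, -, hi⟩ := hζ'.eq_pow_of_pow_eq_one h1
  refine ⟨ζ ^ i, ?_⟩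
  rw [map_pow, hi, mul_assoc, inv_mul_cancel₀ hz', mul_one]

section step

variable {C K Ω : Type*} [Field C] [Field K] [Field Ω] [Algebra C K] [Algebra C Ω] [Algebra K Ω]
  [IsScalarTower C K Ω] [CharZero C] [CFF C K] [Algebra.IsAlgebraic K Ω] [IsAlgClosed Ω]

/-- adjoining an `n`-th root of an element of a solvable unramified extension whose orders are all
divisible by `n`: the Galois closure is solvable and unramified. -/
theorem IsSU.exists_root {W : IntermediateField K Ω} (hW : IsSU C K W) {n : ℕ} (hn : n ≠ 0)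
    {f : W} (hf : ∀ [CFF C W] (P : Plk C W), (n : ℤ) ∣ ord P f) {y : Ω}
    (hy : y ^ n = (f : Ω)) : ∃ W' : IntermediateField K Ω, W ≤ W' ∧ y ∈ W' ∧ IsSU C K W' := by
  have hWf := hW.fin
  have hWg := hW.gal
  have hWs := hW.solv
  have hac : IsAlgClosed C := CFF.ac (k := C) (F := K)
  have hcW : CFF C W := cff_of_finite (K := K)
  have hcK : CharZero K := charZero_of_injective_algebraMap (algebraMap C K).injective
  have hWn : Normal K W := hWg.to_normal
  have hΩn : Normal K Ω := by
    have : IsAlgClosure K Ω := ⟨inferInstance, inferInstance⟩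
    exact IsAlgClosure.normal K Ω
  -- all `n`-th roots of all conjugates of `f`
  let S : Set Ω := {z | ∃ τ : W ≃ₐ[K] W, z ^ n = (τ f : Ω)}
  have hSfin : S.Finite := by
    have h1 : S = ⋃ τ : W ≃ₐ[K] W, {z : Ω | z ^ n = (τ f : Ω)} := by
      ext z
      simp [S]
    rw [h1]
    apply Set.finite_iUnion
    intro τ
    have h2 : (Polynomial.X ^ n - Polynomial.C (τ f : Ω)) ≠ 0 :=
      Polynomial.X_pow_sub_C_ne_zero (Nat.pos_of_ne_zero hn) _
    refine ((Polynomial.X ^ n - Polynomial.C (τ f : Ω)).rootSet_finite Ω).subset ?_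
    intro z hz
    rw [Polynomial.mem_rootSet]
    refine ⟨h2, ?_⟩
    rw [map_sub, map_pow, Polynomial.aeval_X, Polynomial.aeval_C]
    exact sub_eq_zero.2 hz
  have hyS : y ∈ S := ⟨1, hy⟩
  -- the extension
  have hst0 : IsScalarTower C W Ω := IsScalarTower.of_algebraMap_eq fun a => rfl
  let W₂ : IntermediateField W Ω := adjoin W S
  have hSint : ∀ z ∈ S, IsIntegral W z := by
    rintro z -
    exact Algebra.IsIntegral.isIntegral (R := W) z
  have hfin2 : FiniteDimensional W W₂ := by
    have : Finite S := hSfin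
    exact finiteDimensional_adjoin hSint
  have hst1 : IsScalarTower C W W₂ := IsScalarTower.of_algebraMap_eq fun a => rfl
  have hcW2 : CFF C W₂ := cff_of_finite (K := W)
  have hrad : ∀ x ∈ {x : W₂ | (x : Ω) ∈ S}, ∃ (m : ℕ) (g : W), (m : C) ≠ 0 ∧
      x ^ m = algebraMap W W₂ g ∧ ∀ P : Plk C W, (m : ℤ) ∣ ord P g := by
    rintro x ⟨τ, hτ⟩
    refine ⟨n, τ f, by exact_mod_cast hn, Subtype.ext hτ, ?_⟩
    intro P
    rw [ord_aut τ P f]
    exact hf _
  have hgal2 : IsGalois W W₂ := isGalois_radicals (k := C) (adjoin_set_top S) fun x hx => by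
    obtain ⟨m, g, h1, h2, -⟩ := hrad x hx
    exact ⟨m, g, h1, h2⟩
  have hunr2 : IsUnr C W W₂ := isUnr_radicals (adjoin_set_top S) hrad
  -- over `K`
  let W' : IntermediateField K Ω := W₂.restrictScalars K
  have hmem : ∀ x : Ω, x ∈ W' ↔ x ∈ adjoin W S := fun x => Iff.rfl
  have hWW' : W ≤ W' := fun x hx => (adjoin W S).algebraMap_mem ⟨x, hx⟩
  have hmap : ∀ σ : Ω →ₐ[K] Ω, W'.map σ ≤ W' := by
    rintro σ _ ⟨x, hx, rfl⟩
    change σ x ∈ adjoin W S
    have hx' : x ∈ adjoin W S := hx
    have hσW : ∀ a : W, σ (a : Ω) ∈ W := by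
      intro a
      have h1 := (normal_iff_forall_map_le.1 hWn) σ
      exact h1 ⟨a, a.2, rfl⟩
    induction hx' using IntermediateField.adjoin_induction with
    | mem z hz =>
      apply subset_adjoin
      obtain ⟨τ, hτ⟩ := hz
      let ρ : W ≃ₐ[K] W := AlgHom.restrictNormal' σ W
      have hρ : ∀ a : W, ((ρ a : W) : Ω) = σ (a : Ω) := fun a =>
        AlgHom.restrictNormal_commutes σ W a
      refine ⟨ρ * τ, ?_⟩
      rw [← map_pow, hτ]
      exact (hρ (τ f)).symm
    | algebraMap a => exact (adjoin W S).algebraMap_mem ⟨σ (a : Ω), hσW a⟩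
    | add a b ha hb ha' hb' => rw [map_add]; exact add_mem (ha' ha) (hb' hb)
    | inv a ha ha' => rw [map_inv₀]; exact inv_mem (ha' ha)
    | mul a b ha hb ha' hb' => rw [map_mul]; exact mul_mem (ha' ha) (hb' hb)
  have hnorm : Normal K W' := normal_iff_forall_map_le.2 hmap
  have hgal : IsGalois K W' := ⟨⟩
  have hfin : FiniteDimensional K W' := by
    have : FiniteDimensional K W₂ := FiniteDimensional.trans K W W₂
    exact this
  let _ : Algebra W W' := (inferInstance : Algebra W W₂)
  have hst2 : IsScalarTower K W W' := (inferInstance : IsScalarTower K W W₂)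
  have hst3 : IsScalarTower C W W' := hst1
  have hal : Algebra.IsAlgebraic W W' := (inferInstance : Algebra.IsAlgebraic W W₂)
  refine ⟨W', hWW', subset_adjoin W S hyS, hfin, hgal, ?_, ?_⟩
  · -- solvable
    let ρ : (W' ≃ₐ[K] W') →* (W ≃ₐ[K] W) := AlgEquiv.restrictNormalHom W
    have hρ : ∀ (σ : W' ≃ₐ[K] W') (a : W), algebraMap W W' (ρ σ a) = σ (algebraMap W W' a) :=
      fun σ a => AlgEquiv.restrictNormal_commutes σ W a
    have hker : Group.IsSolvable ρ.ker := by
      apply Group.isSolvable_of_comm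
      rintro ⟨σ, hσ⟩ ⟨τ, hτ⟩
      apply Subtype.ext
      change σ * τ = τ * σ
      have hfixW : ∀ σ' : W' ≃ₐ[K] W', σ' ∈ ρ.ker → ∀ a : W,
          σ' (algebraMap W W' a) = algebraMap W W' a := by
        intro σ' h a
        rw [← hρ, (MonoidHom.mem_ker.1 h : ρ σ' = 1)]
        rfl
      have hroot : ∀ σ' : W' ≃ₐ[K] W', σ' ∈ ρ.ker → ∀ z : W', (z : Ω) ∈ S →
          ∃ ζ : C, σ' z = algebraMap C W' ζ * z := by
        rintro σ' h z ⟨τ', hτ'⟩
        have h1 : z ^ n = algebraMap W W' (τ' f) := Subtype.ext hτ'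
        have h2 : (σ' z) ^ n = z ^ n := by
          rw [← map_pow, h1, hfixW σ' h]
        exact exists_const_of_pow hn h2
      have hC : ∀ (σ' : W' ≃ₐ[K] W') (c : C), σ' (algebraMap C W' c) = algebraMap C W' c := by
        intro σ' c
        have h1 : algebraMap C W' c = algebraMap K W' (algebraMap C K c) := by
          apply Subtype.ext
          change algebraMap C Ω c = algebraMap K Ω (algebraMap C K c)
          rw [← IsScalarTower.algebraMap_apply]
        rw [h1, AlgEquiv.commutes]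
      refine AlgEquiv.ext fun x => ?_
      obtain ⟨x, hx⟩ := x
      have hx' : x ∈ adjoin W S := hx
      change σ (τ ⟨x, hx'⟩) = τ (σ ⟨x, hx'⟩)
      induction hx' using IntermediateField.adjoin_induction with
      | mem z hz =>
        obtain ⟨ζ, hζ⟩ := hroot σ hσ ⟨z, subset_adjoin W S hz⟩ hz
        obtain ⟨ξ, hξ⟩ := hroot τ hτ ⟨z, subset_adjoin W S hz⟩ hz
        rw [hζ, hξ, map_mul, map_mul, hC, hC, hζ, hξ]
        ring
      | algebraMap a =>
        have h1 := hfixW σ hσ a
        have h2 := hfixW τ hτ a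
        have h3 : (⟨algebraMap W Ω a, (adjoin W S).algebraMap_mem a⟩ : W') = algebraMap W W' a := rfl
        rw [h3, h1, h2, h1]
      | add a b ha hb ha' hb' =>
        have h3 : (⟨a + b, add_mem ha hb⟩ : W') = (⟨a, ha⟩ : W') + ⟨b, hb⟩ := rfl
        rw [h3, map_add, map_add, map_add, map_add, ha' ha, hb' hb]
      | inv a ha ha' =>
        have h3 : (⟨a⁻¹, inv_mem ha⟩ : W') = (⟨a, ha⟩ : W')⁻¹ := rfl
        rw [h3, map_inv₀, map_inv₀, map_inv₀, map_inv₀, ha' ha]
      | mul a b ha hb ha' hb' =>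
        have h3 : (⟨a * b, mul_mem ha hb⟩ : W') = (⟨a, ha⟩ : W') * ⟨b, hb⟩ := rfl
        rw [h3, map_mul, map_mul, map_mul, map_mul, ha' ha, hb' hb]
    exact Group.isSolvable_of_ker_le_range ρ.ker.subtype ρ (by rw [Subgroup.range_subtype])
  · intro _ _ _
    have hu2 : IsUnr C W W' := hunr2
    exact hW.unr.trans hu2

end step

end P025H816
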