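import Vale.Agent.P025.R2.H816.Kt2
import Vale.Agent.P025.R2.H816.Nsu2

/-!
# The maximal solvable everywhere unramified extension of a function field
-/

universe u v w

namespace P025H816

open Vale.Agent.P019P P025H492 IntermediateField
open scoped Polynomial

section defs

variable (C K Ω : Type*) [Field C] [Field K] [Field Ω] [Algebra C K] [Algebra C Ω] [Algebra K Ω]
  [IsScalarTower C K Ω]

/-- the composite of all finite Galois solvable everywhere unramified extensions inside `Ω`. -/
def Nsu : IntermediateField K Ω := ⨆ L : {L : IntermediateField K Ω // IsSU C K L}, L.1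

end defs

section basic

variable {C K Ω : Type*} [Field C] [Field K] [Field Ω] [Algebra C K] [Algebra C Ω] [Algebra K Ω]
  [IsScalarTower C K Ω] [CharZero C] [CFF C K]

omit [CharZero C] [CFF C K] in
theorem isSU_bot : IsSU C K (⊥ : IntermediateField K Ω) where
  fin := inferInstance
  gal := inferInstance
  solv := by
    have h1 : Subsingleton ((⊥ : IntermediateField K Ω) ≃ₐ[K] (⊥ : IntermediateField K Ω)) := by
      refine ⟨fun σ τ => AlgEquiv.ext ?_⟩
      rintro ⟨x, hx⟩
      obtain ⟨z, rfl⟩ := IntermediateField.mem_bot.1 hx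
      have h2 : (⟨algebraMap K Ω z, hx⟩ : (⊥ : IntermediateField K Ω)) =
        algebraMap K (⊥ : IntermediateField K Ω) z := rfl
      rw [h2, AlgEquiv.commutes, AlgEquiv.commutes]
    infer_instance
  unr := isUnr_bot

theorem directed_SU : Directed (· ≤ ·)
    (fun L : {L : IntermediateField K Ω // IsSU C K L} => L.1) := by
  intro A B
  exact ⟨⟨A.1 ⊔ B.1, A.2.sup B.2⟩, le_sup_left, le_sup_right⟩

theorem mem_Nsu {x : Ω} : x ∈ Nsu C K Ω ↔ ∃ L : IntermediateField K Ω, IsSU C K L ∧ x ∈ L := by
  have : Nonempty {L : IntermediateField K Ω // IsSU C K L} := ⟨⟨⊥, isSU_bot⟩⟩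
  rw [← SetLike.mem_coe, Nsu, coe_iSup_of_directed directed_SU, Set.mem_iUnion]
  constructor
  · rintro ⟨L, hL⟩
    exact ⟨L.1, L.2, hL⟩
  · rintro ⟨L, hL, hx⟩
    exact ⟨⟨L, hL⟩, hx⟩

theorem IsSU.le_Nsu {L : IntermediateField K Ω} (h : IsSU C K L) : L ≤ Nsu C K Ω :=
  fun _ hx => mem_Nsu.2 ⟨L, h, hx⟩

theorem exists_SU_of_finite {L : IntermediateField K Ω} [FiniteDimensional K L]
    (h : L ≤ Nsu C K Ω) : ∃ W : IntermediateField K Ω, L ≤ W ∧ IsSU C K W := by
  classical
  let b := Module.finBasis K L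
  have h1 : ∀ s : Finset (Fin (Module.finrank K L)), ∃ W : IntermediateField K Ω,
      IsSU C K W ∧ ∀ i ∈ s, ((b i : L) : Ω) ∈ W := by
    intro s
    induction s using Finset.induction_on with
    | empty => exact ⟨⊥, isSU_bot, by simp⟩
    | insert i s hi ih =>
      obtain ⟨W, hW, hWs⟩ := ih
      obtain ⟨W', hW', hi'⟩ := mem_Nsu.1 (h (b i).2)
      refine ⟨W ⊔ W', hW.sup hW', ?_⟩
      intro l hl
      rcases Finset.mem_insert.1 hl with rfl | hl
      · exact (le_sup_right (a := W) (b := W')) hi'
      · exact (le_sup_left (a := W) (b := W')) (hWs l hl)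
  obtain ⟨W, hW, hWs⟩ := h1 Finset.univ
  refine ⟨W, ?_, hW⟩
  intro x hx
  have h2 := b.sum_repr ⟨x, hx⟩
  have h3 : x = ∑ i, b.repr ⟨x, hx⟩ i • ((b i : L) : Ω) := by
    conv_lhs => rw [show x = ((⟨x, hx⟩ : L) : Ω) from rfl, ← h2]
    rw [AddSubmonoidClass.coe_finsetSum]
    rfl
  rw [h3]
  exact sum_mem fun i _ => W.smul_mem (hWs i (Finset.mem_univ i))

omit [CFF C K] in
theorem isGalois_Nsu : IsGalois K (Nsu C K Ω) := by
  have hcK : CharZero K := charZero_of_injective_algebraMap (algebraMap C K).injective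
  have h1 : ∀ L : {L : IntermediateField K Ω // IsSU C K L}, Normal K L.1 :=
    fun L => L.2.gal.to_normal
  have h2 : Normal K (Nsu C K Ω) := normal_iSup _ _ _
  exact ⟨⟩

end basic

section sub

variable {C K L W : Type*} [Field C] [Field K] [Field L] [Field W] [Algebra C K] [Algebra C L]
  [Algebra C W] [Algebra K L] [Algebra K W] [IsScalarTower C K L] [IsScalarTower C K W]
  [CFF C K] [CFF C L]

/-- subextensions of a solvable unramified extension are unramified. -/
theorem IsSU.isUnr_of_hom [Algebra.IsAlgebraic K L] (h : IsSU C K W) (φ : L →ₐ[K] W) :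
    IsUnr C K L := by
  have hWf := h.fin
  have hcW : CFF C W := cff_of_finite (K := K)
  let _ : Algebra L W := φ.toRingHom.toAlgebra
  have hs1 : IsScalarTower K L W := IsScalarTower.of_algebraMap_eq fun a => (φ.commutes a).symm
  have hs3 : IsScalarTower C L W := IsScalarTower.of_algebraMap_eq fun a => by
    change algebraMap C W a = φ (algebraMap C L a)
    rw [IsScalarTower.algebraMap_apply C K L, φ.commutes, ← IsScalarTower.algebraMap_apply]
  have hf : FiniteDimensional L W := FiniteDimensional.right K L W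
  exact h.unr.bot (K := K) (L := L) (M := W)

end sub

section closed

variable {C K Ω : Type*} [Field C] [Field K] [Field Ω] [Algebra C K] [Algebra C Ω] [Algebra K Ω]
  [IsScalarTower C K Ω] [CharZero C] [CFF C K]

/-- finite subextensions lie in solvable unramified ones. -/
theorem exists_SU_le (L : IntermediateField K (Nsu C K Ω)) [FiniteDimensional K L] :
    ∃ W : IntermediateField K (Nsu C K Ω), L ≤ W ∧ IsSU C K W := by
  let L' : IntermediateField K Ω := L.map (Nsu C K Ω).val
  have hfin : FiniteDimensional K L' :=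
    Module.Finite.equiv (IntermediateField.equivMap L (Nsu C K Ω).val).toLinearEquiv
  have hle : L' ≤ Nsu C K Ω := by
    rintro _ ⟨x, -, rfl⟩
    exact x.2
  obtain ⟨W, hLW, hW⟩ := exists_SU_of_finite hle
  let W' : IntermediateField K (Nsu C K Ω) := W.comap (Nsu C K Ω).val
  have hmap : W'.map (Nsu C K Ω).val = W := by
    apply le_antisymm
    · rintro _ ⟨x, hx, rfl⟩
      exact hx
    · intro x hx
      exact ⟨⟨x, hW.le_Nsu hx⟩, hx, rfl⟩
  refine ⟨W', ?_, ?_⟩
  · intro x hx
    exact hLW ⟨x, hx, rfl⟩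
  · exact hW.congr ((IntermediateField.equivOfEq hmap.symm).trans
      (IntermediateField.equivMap W' (Nsu C K Ω).val).symm)

/-- finite subextensions are unramified. -/
theorem isUnr_of_le_Nsu (L : IntermediateField K (Nsu C K Ω)) [FiniteDimensional K L]
    [CFF C L] : IsUnr C K L := by
  obtain ⟨W, hLW, hW⟩ := exists_SU_le L
  exact hW.isUnr_of_hom (inclusion hLW)

variable [Algebra.IsAlgebraic K Ω] [IsAlgClosed Ω]

/-- **closure under unramified Kummer extensions.** -/
theorem kumClosed_Nsu : KumClosed C K (Nsu C K Ω) := by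
  intro F _ _ n f hn hf0 hf
  obtain ⟨W, hFW, hW⟩ := exists_SU_le F
  have hWf := hW.fin
  let W₀ : IntermediateField K Ω := W.map (Nsu C K Ω).val
  have hW₀ : IsSU C K W₀ := hW.congr (IntermediateField.equivMap W (Nsu C K Ω).val)
  have hW₀f := hW₀.fin
  let φ : F →ₐ[K] W₀ := ((IntermediateField.equivMap W (Nsu C K Ω).val).toAlgHom).comp
    (inclusion hFW)
  let _ : Algebra F W₀ := φ.toRingHom.toAlgebra
  have hs1 : IsScalarTower K F W₀ := IsScalarTower.of_algebraMap_eq fun a => (φ.commutes a).symm
  have hs2 : IsScalarTower C F W₀ := IsScalarTower.of_algebraMap_eq fun a => rfl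
  have hal : Algebra.IsAlgebraic F W₀ := Algebra.IsAlgebraic.tower_top (K := K) F
  let f' : W₀ := φ f
  obtain ⟨y, hy⟩ := IsAlgClosed.exists_pow_nat_eq (f' : Ω) (Nat.pos_of_ne_zero hn)
  obtain ⟨W', -, hyW', hW'⟩ := hW₀.exists_root hn (f := f') (by
    intro _ P
    have h1 : ord P f' = ram F P * ord (down F P) f := P025H492.ord_algebraMap (K := F) P f
    rw [h1]
    exact (hf _).mul_left _) hy
  refine ⟨⟨y, hW'.le_Nsu hyW'⟩, Subtype.ext ?_⟩
  exact hy

/-- **every finite Galois solvable unramified extension embeds.** -/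
theorem exists_hom_Nsu {M : Type*} [Field M] [Algebra C M] [Algebra K M] [IsScalarTower C K M]
    (h : IsSU C K M) : Nonempty (M →ₐ[K] Nsu C K Ω) := by
  have hf := h.fin
  let φ : M →ₐ[K] Ω := IsAlgClosed.lift
  have h1 : IsSU C K φ.fieldRange := h.congr (AlgEquiv.ofInjectiveField φ)
  exact ⟨(inclusion h1.le_Nsu).comp (AlgEquiv.ofInjectiveField φ).toAlgHom⟩

end closed

section tower

variable {C K K' Z : Type*} [Field C] [Field K] [Field K'] [Field Z] [Algebra C K] [Algebra C K']
  [Algebra C Z] [Algebra K K'] [Algebra K Z] [Algebra K' Z] [IsScalarTower C K Z]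
  [IsScalarTower C K' Z] [IsScalarTower K K' Z] [FiniteDimensional K K']

/-- the closure property does not depend on the finite level. -/
theorem KumClosed.tower (h : KumClosed C K Z) : KumClosed C K' Z := by
  intro F _ _ m g hm hg hgd
  have hfd : FiniteDimensional K F := FiniteDimensional.trans K K' F
  have hfd' : FiniteDimensional K (F.restrictScalars K) := hfd
  have hcff' : CFF C (F.restrictScalars K) := inferInstanceAs (CFF C F)
  exact h (F.restrictScalars K) m g hm hg hgd

end tower

end P025H816
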