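import Vale.Agent.P025.R2.H628.Amb
import Vale.Agent.P025.R2.H816.Nsu

/-!
# The ambient field of solvable unramified covers exists
-/

open Vale.Agent.P019P P025H492 P025H628 IntermediateField

namespace P025H816

universe u

section sub

variable {C K L W : Type*} [Field C] [Field K] [Field L] [Field W] [Algebra C K] [Algebra C L]
  [Algebra C W] [Algebra K L] [Algebra K W] [IsScalarTower C K L] [IsScalarTower C K W]

/-- Galois subextensions of a solvable unramified extension are solvable unramified. -/
theorem IsSU.of_hom [CFF C K] [IsGalois K L] [FiniteDimensional K L] (h : IsSU C K W)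
    (φ : L →ₐ[K] W) : IsSU C K L := by
  have hWf := h.fin
  have hWg := h.gal
  have hWs := h.solv
  have hcL : CFF C L := cff_of_finite (K := K)
  refine ⟨inferInstance, inferInstance, ?_, ?_⟩
  · let _ : Algebra L W := φ.toRingHom.toAlgebra
    have hs1 : IsScalarTower K L W := IsScalarTower.of_algebraMap_eq fun a => (φ.commutes a).symm
    exact Group.isSolvable_of_surjective (f := AlgEquiv.restrictNormalHom (F := K) (K₁ := W) L)
      (AlgEquiv.restrictNormalHom_surjective (F := K) (K₁ := L) W)
  · intro _ _ _
    exact h.isUnr_of_hom φ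

end sub

/-- **every function field in characteristic `0` has an ambient field.** -/
theorem exists_amb (C K : Type u) [Field C] [Field K] [Algebra C K] [CFF C K] [CharZero C] :
    ∃ N : IntermediateField K (AlgebraicClosure K), Amb C K N := by
  refine ⟨Nsu C K (AlgebraicClosure K), isGalois_Nsu, ?_, ?_, ?_⟩
  · intro W _ _ _
    obtain ⟨W', hle, hW'⟩ := exists_SU_le (C := C) (Ω := AlgebraicClosure K) W
    have h1 : IsSU C K W := hW'.of_hom (inclusion hle)
    exact ⟨h1.gal, h1.solv, h1.unr⟩
  · intro L _ _ _ _ _ _ h
    exact exists_hom_Nsu ⟨inferInstance, h.gal, h.sol, h.unr⟩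
  · intro Z _ _ n hn y hy0 hy
    exact kumClosed_Nsu Z n y (Nat.pos_iff_ne_zero.1 hn) hy0 hy

end P025H816
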