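import Vale.Agent.P025.R2.H816.J03

/-!
# Base change of the constants: restriction of places, linear disjointness
-/

namespace P025H816

open Vale.Agent.P019P

section

variable {C K C' K' : Type*} [Field C] [Field K] [Algebra C K] [CFF C K]
  [Field C'] [Field K'] [Algebra C' K'] [CFF C' K']

/-- `K'/C'` is generated by `K` and `C'`. -/
structure IsBC (i : C →+* C') (j : K →+* K') : Prop where
  comm : ∀ a, j (algebraMap C K a) = algebraMap C' K' (i a)
  gen : ∀ S : Subfield K', (∀ a, algebraMap C' K' a ∈ S) → (∀ z, j z ∈ S) → S = ⊤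

/-- the restriction of a place to `K` is trivial or a place. -/
theorem restr {i : C →+* C'} {j : K →+* K'}
    (h : ∀ a, j (algebraMap C K a) = algebraMap C' K' (i a)) (P' : Plk C' K') :
    (∀ z : K, ord P' (j z) = 0) ∨ ∃ (P : Plk C K) (e : ℤ), 0 < e ∧
      (∀ z, z ∈ P.1 ↔ j z ∈ P'.1) ∧ ∀ z, ord P' (j z) = e * ord P z := by
  by_cases htop : P'.1.comap j = ⊤
  · left
    intro z
    by_cases hz : z = 0
    · rw [hz, map_zero, ord_zero]
    have h1 : ∀ w : K, j w ∈ P'.1 := by
      intro w
      have : w ∈ P'.1.comap j := by rw [htop]; exact ValuationSubring.mem_top w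
      exact this
    have hjz : j z ≠ 0 := by simpa using hz
    have h2 : 0 ≤ ord P' (j z) := ((mem_iff_ord P' _).1 (h1 z)).resolve_left hjz
    have h3 : 0 ≤ ord P' (j z)⁻¹ := by
      rw [← map_inv₀]
      exact ((mem_iff_ord P' _).1 (h1 z⁻¹)).resolve_left (by simpa using hz)
    rw [ord_inv] at h3
    omega
  · right
    let P : Plk C K := ⟨P'.1.comap j, fun a => by
      change j (algebraMap C K a) ∈ P'.1
      rw [h]
      exact P'.2.1 _, htop⟩
    have hP : ∀ z, z ∈ P.1 ↔ j z ∈ P'.1 := fun z => Iff.rfl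
    obtain ⟨π, hπ0, hπ⟩ := exists_unif P
    have hjπ0 : j π ≠ 0 := by simpa using hπ0
    have he : 0 < ord P' (j π) := by
      have h1 : π ∈ P.1 := (mem_iff_ord P π).2 (Or.inr (by omega))
      have h2 : π⁻¹ ∉ P.1 := by
        intro h3
        have h4 := ((mem_iff_ord P _).1 h3).resolve_left (inv_ne_zero hπ0)
        rw [ord_inv] at h4
        omega
      have h3 : 0 ≤ ord P' (j π) := ((mem_iff_ord P' _).1 ((hP _).1 h1)).resolve_left hjπ0
      rcases h3.lt_or_eq with h4 | h4
      · exact h4
      · exfalso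
        apply h2
        rw [hP, map_inv₀, mem_iff_ord, ord_inv]
        right
        omega
    refine ⟨P, ord P' (j π), he, hP, ?_⟩
    intro z
    by_cases hz : z = 0
    · rw [hz, map_zero, ord_zero, ord_zero, mul_zero]
    -- unit part
    set m := ord P z with hm
    set u := z * (π ^ m)⁻¹ with hu
    have hu0 : u ≠ 0 := mul_ne_zero hz (inv_ne_zero (zpow_ne_zero m hπ0))
    have hum : ord P u = 0 := by
      rw [hu, ord_mul P hz (inv_ne_zero (zpow_ne_zero m hπ0)), ord_inv, ord_zpow, hπ]
      omega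
    have hju0 : j u ≠ 0 := by simpa using hu0
    have h1 : 0 ≤ ord P' (j u) :=
      ((mem_iff_ord P' _).1 ((hP _).1 ((mem_iff_ord P u).2 (Or.inr hum.ge)))).resolve_left hju0
    have h2 : 0 ≤ ord P' (j u⁻¹) := by
      refine ((mem_iff_ord P' _).1 ((hP _).1 ((mem_iff_ord P u⁻¹).2 (Or.inr ?_)))).resolve_left
        (by simpa using hu0)
      rw [ord_inv, hum, neg_zero]
    rw [map_inv₀, ord_inv] at h2
    have h3 : ord P' (j u) = 0 := by omega
    have hz' : z = u * π ^ m := by
      rw [hu, mul_assoc, inv_mul_cancel₀ (zpow_ne_zero m hπ0), mul_one]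
    have hjm : j (π ^ m) ≠ 0 := by
      rw [map_zpow₀]
      exact zpow_ne_zero m hjπ0
    rw [hz', map_mul, ord_mul P' hju0 hjm, h3, map_zpow₀, ord_zpow, zero_add, mul_comm]

omit [CFF C K] in
theorem IsBC.exists_nc {i : C →+* C'} {j : K →+* K'} (h : IsBC i j) :
    ∃ x : K, ∀ a : C', j x ≠ algebraMap C' K' a := by
  by_contra hcon
  push Not at hcon
  have h1 : (algebraMap C' K').fieldRange = ⊤ := by
    apply h.gen
    · intro a; exact ⟨a, rfl⟩
    · intro z
      obtain ⟨a, ha⟩ := hcon z
      exact ⟨a, ha.symm⟩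
  obtain ⟨x, hx, -⟩ := CFF.ex (k := C') (F := K')
  have h2 : x ∈ (algebraMap C' K').fieldRange := by rw [h1]; trivial
  obtain ⟨a, rfl⟩ := h2
  exact hx (isAlgebraic_algebraMap a)

omit [CFF C K] [CFF C' K'] in
theorem nc_down {i : C →+* C'} {j : K →+* K'}
    (h : ∀ a, j (algebraMap C K a) = algebraMap C' K' (i a)) {x : K}
    (hx : ∀ a : C', j x ≠ algebraMap C' K' a) (a : C) : x ≠ algebraMap C K a := by
  rintro rfl
  exact hx (i a) (h a)

/-- places above the value `c` of `x`. -/
theorem exists_above_cst {i : C →+* C'} {j : K →+* K'}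
    (h : ∀ a, j (algebraMap C K a) = algebraMap C' K' (i a)) {x : K}
    (hx : ∀ a : C', j x ≠ algebraMap C' K' a) (c : C) :
    ∃ (P' : Plk C' K') (P : Plk C K) (e : ℤ), 0 < e ∧
      (∀ z, z ∈ P.1 ↔ j z ∈ P'.1) ∧ (∀ z, ord P' (j z) = e * ord P z) ∧
      0 < ord P (x - algebraMap C K c) := by
  obtain ⟨P', hP'⟩ := exists_zero (nc_sub hx (i c))
  have h1 : j (x - algebraMap C K c) = j x - algebraMap C' K' (i c) := by rw [map_sub, h]
  rw [← h1] at hP'
  rcases restr h P' with h2 | ⟨P, e, he, h2, h3⟩
  · rw [h2] at hP'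
    exact absurd hP' (lt_irrefl _)
  · refine ⟨P', P, e, he, h2, h3, ?_⟩
    rw [h3] at hP'
    exact pos_of_mul_pos_right hP' he.le

theorem cst_unique (P : Plk C K) {x : K} {c c' : C} (h : 0 < ord P (x - algebraMap C K c))
    (h' : 0 < ord P (x - algebraMap C K c')) : c = c' := by
  by_contra hcc
  have h1 : x - algebraMap C K c ≠ 0 := by
    intro h0
    rw [h0, ord_zero] at h
    exact lt_irrefl _ h
  have h2 : x - algebraMap C K c' ≠ 0 := by
    intro h0
    rw [h0, ord_zero] at h'
    exact lt_irrefl _ h'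
  have h3 : (x - algebraMap C K c') - (x - algebraMap C K c) ∈ Mge P 1 :=
    Submodule.sub_mem _ (mem_Mge.2 (Or.inr h')) (mem_Mge.2 (Or.inr h))
  have h4 : (x - algebraMap C K c') - (x - algebraMap C K c) = algebraMap C K (c - c') := by
    rw [map_sub]; ring
  rw [h4, mem_Mge, ord_const] at h3
  rcases h3 with h3 | h3
  · rw [map_eq_zero, sub_eq_zero] at h3
    exact hcc h3
  · exact absurd h3 (by norm_num)

/-- linear disjointness, first form. -/
theorem IsBC.indep_left {i : C →+* C'} {j : K →+* K'} (h : IsBC i j) {m : ℕ} (γ : Fin m → C')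
    (hγ : ∀ b : Fin m → C, ∑ l, γ l * i (b l) = 0 → b = 0) (w : Fin m → K)
    (hw : ∑ l, algebraMap C' K' (γ l) * j (w l) = 0) : w = 0 := by
  have : IsAlgClosed C := CFF.ac K
  have : Infinite C := IsAlgClosed.instInfinite
  obtain ⟨x, hx⟩ := h.exists_nc
  by_contra hne
  obtain ⟨l₀, hl₀⟩ : ∃ l, w l ≠ 0 := Function.ne_iff.1 hne
  have hab := fun c => exists_above_cst h.comm hx c
  choose P' P e he hP1 hP2 hP3 using hab
  have hinj : Function.Injective P := by
    intro c c' hcc
    have h1 := hP3 c'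
    rw [← hcc] at h1
    exact cst_unique (P c) (hP3 c) h1
  let S : Set (Plk C K) := ⋃ l : Fin m, {Q | w l ≠ 0 ∧ ord Q (w l) ≠ 0}
  have hS : S.Finite := by
    refine Set.finite_iUnion fun l => ?_
    by_cases hl : w l = 0
    · refine Set.Finite.subset Set.finite_empty ?_
      rintro Q ⟨h1, -⟩
      exact absurd hl h1
    · exact (dv_finite hl).subset fun Q hQ => hQ.2
  obtain ⟨c, hc⟩ : ∃ c, P c ∉ S := by
    by_contra hcon
    push Not at hcon
    exact (Set.infinite_range_of_injective hinj) (hS.subset (by rintro _ ⟨c, rfl⟩; exact hcon c))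
  have hord : ∀ l, w l ≠ 0 → ord (P c) (w l) = 0 := by
    intro l hl
    by_contra h1
    exact hc (Set.mem_iUnion.2 ⟨l, hl, h1⟩)
  have hmem : ∀ l, w l ∈ (P c).1 := by
    intro l
    rw [mem_iff_ord]
    by_cases hl : w l = 0
    · exact Or.inl hl
    · exact Or.inr (hord l hl).ge
  choose b hb using fun l => exists_cst (P c) (hmem l)
  have hr : ∀ l, j (w l - algebraMap C K (b l)) ∈ Mge (P' c) 1 := by
    intro l
    rw [mem_Mge]
    rcases hb l with h1 | h1
    · left
      rw [h1, sub_self, map_zero]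
    · right
      rw [hP2]
      have := mul_pos (he c) h1
      omega
  have hsum : ∑ l, algebraMap C' K' (γ l) * j (w l - algebraMap C K (b l)) ∈ Mge (P' c) 1 := by
    refine Submodule.sum_mem _ fun l _ => ?_
    rw [← Algebra.smul_def]
    exact Submodule.smul_mem _ _ (hr l)
  have hsum2 : ∑ l, algebraMap C' K' (γ l) * j (w l - algebraMap C K (b l)) =
      algebraMap C' K' (-∑ l, γ l * i (b l)) := by
    simp only [map_sub, mul_sub, Finset.sum_sub_distrib, hw, h.comm, map_neg, map_sum, map_mul,
      zero_sub]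
  rw [hsum2, mem_Mge, ord_const] at hsum
  have h0 : ∑ l, γ l * i (b l) = 0 := by
    rcases hsum with h1 | h1
    · rw [map_eq_zero, neg_eq_zero] at h1
      exact h1
    · exact absurd h1 (by norm_num)
  have hb0 := hγ b h0
  rcases hb l₀ with h1 | h1
  · rw [hb0, Pi.zero_apply, map_zero] at h1
    exact hl₀ h1
  · rw [hb0, Pi.zero_apply, map_zero, sub_zero, hord l₀ hl₀] at h1
    exact lt_irrefl _ h1

/-- linear disjointness. -/
theorem IsBC.indep {i : C →+* C'} {j : K →+* K'} (h : IsBC i j) {ι : Type*} [Fintype ι]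
    {z : ι → K} (hz : LinearIndependent C z) : LinearIndependent C' (fun t => j (z t)) := by
  classical
  rw [Fintype.linearIndependent_iff]
  intro a ha
  let _ : Algebra C C' := i.toAlgebra
  let V : Submodule C C' := Submodule.span C (Set.range a)
  have hV : FiniteDimensional C V := FiniteDimensional.span_of_finite C (Set.finite_range a)
  let β := Module.finBasis C V
  let γ : Fin (Module.finrank C V) → C' := fun l => (β l : C')
  have hγ : ∀ b : Fin (Module.finrank C V) → C, ∑ l, γ l * i (b l) = 0 → b = 0 := by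
    intro b hb
    have h1 : ∑ l, b l • β l = 0 := by
      apply Subtype.ext
      rw [Submodule.coe_sum, Submodule.coe_zero, ← hb]
      refine Finset.sum_congr rfl fun l _ => ?_
      rw [Submodule.coe_smul, Algebra.smul_def, mul_comm]
      rfl
    funext l
    exact (Fintype.linearIndependent_iff.1 β.linearIndependent) b h1 l
  have hmem : ∀ t, a t ∈ V := fun t => Submodule.subset_span ⟨t, rfl⟩
  let c : ι → Fin (Module.finrank C V) → C := fun t l => β.repr ⟨a t, hmem t⟩ l
  have hac : ∀ t, a t = ∑ l, γ l * i (c t l) := by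
    intro t
    have h1 := congrArg (fun v : V => (v : C')) (β.sum_repr ⟨a t, hmem t⟩)
    simp only [Submodule.coe_sum, Submodule.coe_smul] at h1
    rw [← h1]
    refine Finset.sum_congr rfl fun l _ => ?_
    rw [Algebra.smul_def, mul_comm]
    rfl
  have hw := h.indep_left γ hγ (fun l => ∑ t, algebraMap C K (c t l) * z t) (by
    rw [← ha]
    simp only [map_sum, map_mul, h.comm, Finset.mul_sum]
    rw [Finset.sum_comm]
    refine Finset.sum_congr rfl fun t _ => ?_
    rw [Algebra.smul_def, hac t, map_sum, Finset.sum_mul]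
    refine Finset.sum_congr rfl fun l _ => ?_
    rw [map_mul]
    ring)
  intro t
  rw [hac t]
  refine Finset.sum_eq_zero fun l _ => ?_
  have h1 := congrFun hw l
  simp only [Pi.zero_apply, ← Algebra.smul_def] at h1
  rw [(Fintype.linearIndependent_iff.1 hz) _ h1 t, map_zero, mul_zero]

/-- dimension comparison. -/
theorem IsBC.finrank_le {i : C →+* C'} {j : K →+* K'} (h : IsBC i j) {V : Submodule C K}
    {V' : Submodule C' K'} [FiniteDimensional C V] [FiniteDimensional C' V']
    (hV : ∀ z ∈ V, j z ∈ V') : Module.finrank C V ≤ Module.finrank C' V' := by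
  let β := Module.finBasis C V
  have h1 : LinearIndependent C (fun l => (β l : K)) :=
    β.linearIndependent.map' V.subtype (Submodule.ker_subtype V)
  have h2 := h.indep h1
  have h3 : LinearIndependent C' (fun l => (⟨j (β l : K), hV _ (β l).2⟩ : V')) := by
    apply LinearIndependent.of_comp V'.subtype
    exact h2
  have h4 := h3.fintype_card_le_finrank
  simpa using h4

theorem LL_up {i : C →+* C'} {j : K →+* K'}
    (h : ∀ a, j (algebraMap C K a) = algebraMap C' K' (i a)) {x z : K} {r : ℕ}
    (hz : z ∈ LL C (r • pol C x)) : j z ∈ LL C' (r • pol C' (j x)) := by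
  rw [mem_LL] at hz ⊢
  rcases hz with hz | hz
  · left
    rw [hz, map_zero]
  · right
    intro P'
    rw [Finsupp.smul_apply, pol_apply, nsmul_eq_mul]
    rcases restr h P' with h1 | ⟨P, e, he, -, h1⟩
    · rw [h1, h1]
      simp
    · rw [h1, h1]
      have h2 := hz P
      rw [Finsupp.smul_apply, pol_apply, nsmul_eq_mul] at h2
      have h3 : max 0 (-(e * ord P x)) = e * max 0 (-ord P x) := by
        rw [mul_max_of_nonneg _ _ he.le, mul_zero, mul_neg]
      rw [h3]
      have h4 := mul_le_mul_of_nonneg_left h2 he.le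
      calc -((r : ℤ) * (e * max 0 (-ord P x))) = e * -((r : ℤ) * max 0 (-ord P x)) := by ring
        _ ≤ e * ord P z := h4

end

end P025H816
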