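import Vale.Agent.P025.R2.H816.BC1
import Vale.Agent.P025.R2.H816.HK

/-!
# Base change of the constants: degree, genus, algebraic closedness, `H(K, n)`
-/

namespace P025H816

open Vale.Agent.P019P Polynomial IntermediateField

section finrank

variable {C K C' K' : Type*} [Field C] [Field K] [Algebra C K] [CFF C K]
  [Field C'] [Field K'] [Algebra C' K'] [CFF C' K']

/-- elements of `C(x)` go to `C'(jx)`. -/
theorem map_adjoin {i : C →+* C'} {j : K →+* K'}
    (h : ∀ a, j (algebraMap C K a) = algebraMap C' K' (i a)) {x z : K} (hz : z ∈ C⟮x⟯) :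
    j z ∈ C'⟮j x⟯ := by
  induction hz using IntermediateField.adjoin_induction with
  | mem y hy =>
    rw [Set.mem_singleton_iff] at hy
    rw [hy]
    exact mem_adjoin_simple_self _ _
  | algebraMap a => rw [h]; exact IntermediateField.algebraMap_mem _ _
  | add y z _ _ hy hz => rw [map_add]; exact add_mem hy hz
  | inv y _ hy => rw [map_inv₀]; exact inv_mem hy
  | mul y z _ _ hy hz => rw [map_mul]; exact mul_mem hy hz

theorem IsBC.finrank_adjoin_le {i : C →+* C'} {j : K →+* K'} (h : IsBC i j) {x : K}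
    (hx : ∀ a : C', j x ≠ algebraMap C' K' a) :
    Module.finrank C'⟮j x⟯ K' ≤ Module.finrank C⟮x⟯ K := by
  have hfin : FiniteDimensional C⟮x⟯ K := (finite_of_notMem (nc_down h.comm hx)).2
  have hfin' : FiniteDimensional C'⟮j x⟯ K' := (finite_of_notMem hx).2
  let β := Module.finBasis C⟮x⟯ K
  -- the span of the images of the basis
  let W : Submodule C'⟮j x⟯ K' := Submodule.span C'⟮j x⟯ (Set.range fun l => j (β l))
  have hjW : ∀ z : K, j z ∈ W := by
    intro z
    rw [← β.sum_repr z, map_sum]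
    refine Submodule.sum_mem _ fun l _ => ?_
    have h1 : j ((β.repr z l) • β l) =
        (⟨j (β.repr z l : C⟮x⟯), map_adjoin h.comm (β.repr z l).2⟩ : C'⟮j x⟯) • j (β l) := by
      rw [Algebra.smul_def, map_mul, Algebra.smul_def]
      rfl
    rw [h1]
    exact Submodule.smul_mem _ _ (Submodule.subset_span ⟨l, rfl⟩)
  let A : Subalgebra C'⟮j x⟯ K' := Algebra.adjoin C'⟮j x⟯ (Set.range j)
  have hAW : ∀ z ∈ A, z ∈ W := by
    intro z hz
    have h1 : z ∈ Submodule.span C'⟮j x⟯ ((Submonoid.closure (Set.range j) : Submonoid K') :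
        Set K') := by
      rw [← Algebra.adjoin_eq_span]
      exact hz
    refine Submodule.span_le.2 ?_ h1
    intro y hy
    have h2 : (Submonoid.closure (Set.range j) : Submonoid K') ≤ MonoidHom.mrange (j : K →* K') := by
      rw [Submonoid.closure_le]
      rintro _ ⟨w, rfl⟩
      exact ⟨w, rfl⟩
    obtain ⟨w, rfl⟩ := h2 hy
    exact hjW w
  have hAfield : IsField A := Subalgebra.isField_of_algebraic A
  have hAtop : ∀ z : K', z ∈ A := by
    intro z
    let S : Subfield K' :=
      { A.toSubring with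
        inv_mem' := by
          intro y hy
          by_cases hy0 : y = 0
          · rw [hy0, inv_zero]; exact A.zero_mem
          · obtain ⟨⟨w, hw⟩, hyw⟩ := hAfield.mul_inv_cancel (a := ⟨y, hy⟩)
              (fun h0 => hy0 (congrArg Subtype.val h0))
            have h3 : y * w = 1 := congrArg Subtype.val hyw
            rw [inv_eq_of_mul_eq_one_right h3]
            exact hw }
    have hS : S = ⊤ := h.gen S (fun a => A.algebraMap_mem (algebraMap C' C'⟮j x⟯ a))
      (fun z => Algebra.subset_adjoin ⟨z, rfl⟩)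
    have : z ∈ S := by rw [hS]; trivial
    exact this
  have hW : W = ⊤ := by
    rw [eq_top_iff]
    intro z _
    exact hAW z (hAtop z)
  have h5 : Module.finrank C'⟮j x⟯ W ≤ Fintype.card (Fin (Module.finrank C⟮x⟯ K)) :=
    finrank_range_le_card (R := C'⟮j x⟯) (fun l => j (β l))
  rw [hW, finrank_top, Fintype.card_fin] at h5
  exact h5

/-- degrees are preserved, the genus does not increase. -/
theorem IsBC.finrank_eq_and {i : C →+* C'} {j : K →+* K'} (h : IsBC i j) {x : K}
    (hx : ∀ a : C', j x ≠ algebraMap C' K' a) :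
    Module.finrank C'⟮j x⟯ K' = Module.finrank C⟮x⟯ K ∧ Vale.Agent.P019P.gen C' K' ≤ Vale.Agent.P019P.gen C K := by
  have h1 := h.finrank_adjoin_le hx
  obtain ⟨r₀, hr₀⟩ := exists_l_pol_eq (nc_down h.comm hx)
  obtain ⟨r₁, hr₁⟩ := exists_l_pol_eq hx
  have h2 : ∀ r : ℕ, r₀ ≤ r → r₁ ≤ r → (r : ℤ) * Module.finrank C⟮x⟯ K + 1 - Vale.Agent.P019P.gen C K ≤
      r * Module.finrank C'⟮j x⟯ K' + 1 - Vale.Agent.P019P.gen C' K' := by
    intro r h3 h4
    rw [← hr₀ r h3, ← hr₁ r h4]
    have h5 := h.finrank_le (V := LL C (r • pol C x)) (V' := LL C' (r • pol C' (j x)))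
      (fun z hz => LL_up h.comm hz)
    exact_mod_cast h5
  have h3 : Module.finrank C'⟮j x⟯ K' = Module.finrank C⟮x⟯ K := by
    apply le_antisymm h1
    by_contra hcon
    push Not at hcon
    have h4 := h2 (r₀ + r₁ + Vale.Agent.P019P.gen C K) (by omega) (by omega)
    have h5 : (Module.finrank C'⟮j x⟯ K' : ℤ) + 1 ≤ Module.finrank C⟮x⟯ K := by exact_mod_cast hcon
    have h6 : ((r₀ + r₁ + Vale.Agent.P019P.gen C K : ℕ) : ℤ) * (Module.finrank C'⟮j x⟯ K' + 1) ≤
        ((r₀ + r₁ + Vale.Agent.P019P.gen C K : ℕ) : ℤ) * Module.finrank C⟮x⟯ K :=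
      mul_le_mul_of_nonneg_left h5 (by positivity)
    have h7 : (0 : ℤ) ≤ Vale.Agent.P019P.gen C' K' := by positivity
    have h8 : (0 : ℤ) ≤ r₀ := by positivity
    have h9 : (0 : ℤ) ≤ r₁ := by positivity
    rw [mul_add, mul_one] at h6
    push_cast at h4 h6
    -- need strictness
    have h10 : (Vale.Agent.P019P.gen C K : ℤ) ≤ (r₀ + r₁ + Vale.Agent.P019P.gen C K : ℤ) := by omega
    by_cases h0 : (r₀ + r₁ + Vale.Agent.P019P.gen C K : ℤ) = Vale.Agent.P019P.gen C K ∧ (Vale.Agent.P019P.gen C' K' : ℤ) = 0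
    · -- use a larger `r`
      have h4' := h2 (r₀ + r₁ + Vale.Agent.P019P.gen C K + 1) (by omega) (by omega)
      have h6' : ((r₀ + r₁ + Vale.Agent.P019P.gen C K + 1 : ℕ) : ℤ) * (Module.finrank C'⟮j x⟯ K' + 1) ≤
          ((r₀ + r₁ + Vale.Agent.P019P.gen C K + 1 : ℕ) : ℤ) * Module.finrank C⟮x⟯ K :=
        mul_le_mul_of_nonneg_left h5 (by positivity)
      rw [mul_add, mul_one] at h6'
      push_cast at h4' h6'
      omega
    · omega
  refine ⟨h3, ?_⟩
  have h4 := h2 (r₀ + r₁) (by omega) (by omega)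
  rw [h3] at h4
  have h5 : (Vale.Agent.P019P.gen C' K' : ℤ) ≤ Vale.Agent.P019P.gen C K := by omega
  exact_mod_cast h5

end finrank

end P025H816
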