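import Vale.Agent.P025.R2.H816.BC2

/-!
# Base change of the constants: places
-/

namespace P025H816

open Vale.Agent.P019P Polynomial IntermediateField

section bc

variable {C K C' K' : Type*} [Field C] [Field K] [Algebra C K] [CFF C K]
  [Field C'] [Field K'] [Algebra C' K'] [CFF C' K']

/-- non-constant elements stay non-constant. -/
theorem IsBC.nc_up {i : C →+* C'} {j : K →+* K'} (h : IsBC i j) {x : K}
    (hx : ∀ a : C, x ≠ algebraMap C K a) (a : C') : j x ≠ algebraMap C' K' a := by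
  intro ha
  have h1 : LinearIndependent C ![(1 : K), x] := by
    rw [LinearIndependent.pair_iff]
    intro s t hst
    have ht : t = 0 := by
      by_contra ht
      apply hx (-t⁻¹ * s)
      rw [Algebra.smul_def, Algebra.smul_def, mul_one] at hst
      have h2 : algebraMap C K t ≠ 0 := by simpa using ht
      rw [map_mul, map_neg, map_inv₀]
      field_simp
      linear_combination hst
    refine ⟨?_, ht⟩
    rw [ht, zero_smul, add_zero, Algebra.smul_def, mul_one, map_eq_zero] at hst
    exact hst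
  have h2 := h.indep h1
  have h3 := (Fintype.linearIndependent_iff.1 h2) ![a, -1] (by
    rw [Fin.sum_univ_two]
    simp only [Matrix.cons_val_zero, Matrix.cons_val_one, Algebra.smul_def, map_one, map_neg]
    rw [ha]
    ring) 1
  simp at h3

/-- a function whose only zero is `P`. -/
theorem exists_only_zero (P : Plk C K) : ∃ x : K, x ≠ 0 ∧ 0 < ord P x ∧
    ∀ Q : Plk C K, Q ≠ P → ord Q x ≤ 0 := by
  obtain ⟨x, h1, h2⟩ : ∃ x : K, x ≠ 0 ∧ x ∈ LL C (Finsupp.single P (Vale.Agent.P019P.gen C K + 1 : ℤ)) ∧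
      x ∉ Submodule.span C {(1 : K)} := by
    by_contra hcon
    push Not at hcon
    have h3 : LL C (Finsupp.single P (Vale.Agent.P019P.gen C K + 1 : ℤ)) ≤ Submodule.span C {(1 : K)} := by
      intro z hz
      by_cases hz0 : z = 0
      · rw [hz0]; exact Submodule.zero_mem _
      · exact hcon z hz0 hz
    have h4 := RR (k := C) (F := K) (Finsupp.single P (Vale.Agent.P019P.gen C K + 1 : ℤ))
    rw [dg_sgl] at h4
    have h5 : Module.finrank C (LL C (Finsupp.single P (Vale.Agent.P019P.gen C K + 1 : ℤ) :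
        Plk C K →₀ ℤ)) ≤ 1 := by
      refine (Submodule.finrank_mono h3).trans ?_
      exact (finrank_span_singleton (K := C) (one_ne_zero : (1 : K) ≠ 0)).le
    have h6 : (0 : ℤ) ≤ Module.finrank C (LL C (can C K -
      Finsupp.single P (Vale.Agent.P019P.gen C K + 1 : ℤ))) := by positivity
    omega
  have hnc : ∀ a : C, x ≠ algebraMap C K a := by
    intro a ha
    apply h2.2
    rw [ha, Algebra.algebraMap_eq_smul_one]
    exact Submodule.smul_mem _ _ (Submodule.mem_span_singleton_self _)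
  have hord : ∀ Q : Plk C K, Q ≠ P → 0 ≤ ord Q x := by
    intro Q hQ
    have h3 := (mem_LL.1 h2.1).resolve_left h1 Q
    rwa [Finsupp.single_eq_of_ne hQ, neg_zero] at h3
  obtain ⟨Q, hQ⟩ := exists_pole hnc
  have hQP : Q = P := by
    by_contra hne
    exact absurd (hord Q hne) (not_le.2 hQ)
  refine ⟨x⁻¹, inv_ne_zero h1, ?_, ?_⟩
  · rw [ord_inv, ← hQP]
    omega
  · intro Q hQ
    rw [ord_inv]
    have := hord Q hQ
    omega

/-- **every place of `K` has exactly one place of `K'` above it, and it is unramified.** -/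
theorem IsBC.exists_unique_above {i : C →+* C'} {j : K →+* K'} (h : IsBC i j) (P : Plk C K) :
    ∃ P' : Plk C' K', (∀ z, z ∈ P.1 ↔ j z ∈ P'.1) ∧ (∀ z, ord P' (j z) = ord P z) ∧
      ∀ Q' : Plk C' K', (∀ z, z ∈ P.1 → j z ∈ Q'.1) → (∃ z, z ≠ 0 ∧ ord Q' (j z) ≠ 0) →
        Q' = P' := by
  classical
  obtain ⟨x, hx0, hxP, hx⟩ := exists_only_zero P
  have hnc : ∀ a : C, x ≠ algebraMap C K a := by
    intro a ha
    rw [ha, ord_const] at hxP
    exact lt_irrefl _ hxP
  have hnc' : ∀ a : C', j x ≠ algebraMap C' K' a := h.nc_up hnc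
  -- places above zeros of `x`
  have key : ∀ Q' : Plk C' K', 0 < ord Q' (j x) →
      ∃ e : ℤ, 0 < e ∧ (∀ z, z ∈ P.1 ↔ j z ∈ Q'.1) ∧ ∀ z, ord Q' (j z) = e * ord P z := by
    intro Q' hQ'
    rcases restr h.comm Q' with h1 | ⟨Q, e, he, h1, h2⟩
    · rw [h1] at hQ'
      exact absurd hQ' (lt_irrefl _)
    · have h3 : Q = P := by
        by_contra hne
        have h4 := hx Q hne
        rw [h2] at hQ'
        have h5 := pos_of_mul_pos_right hQ' he.le
        omega
      subst h3
      exact ⟨e, he, h1, h2⟩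
  have hsum := fib_sum hnc (0 : C)
  have hsum' := fib_sum hnc' (0 : C')
  obtain ⟨T, hT⟩ : ∃ T, T = (fib_finite hnc' (0 : C')).toFinset := ⟨_, rfl⟩
  rw [← hT] at hsum'
  have hP1 : (fib_finite hnc (0 : C)).toFinset = {P} := by
    ext Q
    rw [Set.Finite.mem_toFinset, Finset.mem_singleton, Set.mem_ofPred_eq, map_zero, sub_zero]
    constructor
    · intro h1
      by_contra hne
      exact absurd (hx Q hne) (not_le.2 h1)
    · rintro rfl
      exact hxP
  rw [hP1, Finset.sum_singleton, map_zero, sub_zero, ← (h.finrank_eq_and hnc').1, ← hsum'] at hsum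
  simp only [map_zero, sub_zero] at hsum
  have hTmem : ∀ Q', Q' ∈ T ↔ 0 < ord Q' (j x) := by
    intro Q'
    rw [hT, Set.Finite.mem_toFinset, Set.mem_ofPred_eq, map_zero, sub_zero]
  obtain ⟨P', hP'⟩ := exists_zero hnc'
  obtain ⟨e, he, h1, h2⟩ := key P' hP'
  have hge : ∀ Q' ∈ T, ord P x ≤ ord Q' (j x) := by
    intro Q' hQ'
    obtain ⟨e', he', -, h3⟩ := key Q' ((hTmem Q').1 hQ')
    rw [h3]
    nlinarith
  have hP'T : P' ∈ T := (hTmem P').2 hP'
  have hcard : T = {P'} := by
    by_contra hne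
    obtain ⟨Q', hQ', hQP⟩ : ∃ Q' ∈ T, Q' ≠ P' := by
      by_contra hcon
      push Not at hcon
      exact hne (Finset.eq_singleton_iff_unique_mem.2 ⟨hP'T, hcon⟩)
    have h3 : ∑ Q ∈ ({P', Q'} : Finset (Plk C' K')), ord Q (j x) ≤ ∑ Q ∈ T, ord Q (j x) := by
      refine Finset.sum_le_sum_of_subset_of_nonneg ?_ ?_
      · intro Q hQ
        rw [Finset.mem_insert, Finset.mem_singleton] at hQ
        rcases hQ with rfl | rfl
        · exact hP'T
        · exact hQ'
      · intro Q hQ _
        exact ((hTmem Q).1 hQ).le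
    rw [Finset.sum_pair hQP.symm, ← hsum] at h3
    have h4 := hge P' hP'T
    have h5 := hge Q' hQ'
    omega
  have he1 : e = 1 := by
    rw [hcard, Finset.sum_singleton, h2] at hsum
    have h3 : e * ord P x = 1 * ord P x := by rw [one_mul]; exact hsum.symm
    exact mul_right_cancel₀ hxP.ne' h3
  subst he1
  refine ⟨P', h1, fun z => by rw [h2, one_mul], ?_⟩
  intro Q' hQ' hne
  rcases restr h.comm Q' with h3 | ⟨Q, e, he, h3, h4⟩
  · obtain ⟨z, -, hz⟩ := hne
    exact absurd (h3 z) hz
  · have hQP : P = Q := Plk.eq_of_le fun z hz => (h3 z).2 (hQ' z hz)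
    subst hQP
    have h5 : Q' ∈ T := (hTmem Q').2 (by rw [h4]; exact mul_pos he hxP)
    rw [hcard, Finset.mem_singleton] at h5
    exact h5

end bc

end P025H816
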