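import Vale.Agent.P025.R2.H816.J02

/-! Carved out of `Vale.Agent.P019.Bd4` (function fields of one variable); generated file. -/

set_option linter.all false

attribute [local instance] O19.fr O19.tf O19.pj O19.fl

section

section

/-!
# Rings of functions with poles at one place: definitions
-/

namespace Vale.Agent.P019P

open Polynomial IntermediateField TensorProduct

/-- numerical semigroups with `g` gaps, all of them smaller than `2 * g`. -/
structure Sgp (g : ℕ) (S : Set ℕ) : Prop where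
  zero : 0 ∈ S
  add : ∀ {a b : ℕ}, a ∈ S → b ∈ S → a + b ∈ S
  large : ∀ n, 2 * g ≤ n → n ∈ S
  gaps : Sᶜ.ncard = g

section

variable {A R : Type*} [CommRing A] [CommRing R] [Algebra A R] {S : Set ℕ}

/-- bases indexed by the degrees, the leading coefficients of the products are units. -/
structure IsDB (b : Module.Basis S A R) : Prop where
  one : ∀ d : S, (d : ℕ) = 0 → b d = 1
  top : ∀ d e f : S, (f : ℕ) = d + e → IsUnit (b.repr (b d * b e) f)
  low : ∀ d e f : S, (d : ℕ) + e < f → b.repr (b d * b e) f = 0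

/-- the elements of degree at most `n`. -/
def fil (b : Module.Basis S A R) (n : ℕ) : Submodule A R where
  carrier := {z | ∀ f : S, n < f → b.repr z f = 0}
  zero_mem' := fun f _ => by rw [map_zero]; rfl
  add_mem' := fun {z w} hz hw f hf => by
    rw [map_add, Finsupp.add_apply, hz f hf, hw f hf, add_zero]
  smul_mem' := fun a z hz f hf => by
    rw [map_smul, Finsupp.smul_apply, hz f hf, smul_zero]

theorem mem_fil {b : Module.Basis S A R} {n : ℕ} {z : R} :
    z ∈ fil b n ↔ ∀ f : S, n < f → b.repr z f = 0 := Iff.rfl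

/-- the degree. -/
noncomputable def dgr (b : Module.Basis S A R) (z : R) : ℕ :=
  (b.repr z).support.sup fun f => (f : ℕ)

/-- the bounded part of the index set. -/
abbrev SD (S : Set ℕ) (D : ℕ) : Type := {d : Fin (D + 1) // (d : ℕ) ∈ S}

noncomputable instance (S : Set ℕ) (D : ℕ) : Fintype (SD S D) := Fintype.ofFinite _

noncomputable instance (S : Set ℕ) (D : ℕ) : DecidableEq (SD S D) := Classical.decEq _

/-- the index of an element of the bounded part. -/
def SD.ix {S : Set ℕ} {D : ℕ} (d : SD S D) : S := ⟨(d.1 : ℕ), d.2⟩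

/-- elements with given coordinates. -/
noncomputable def el (b : Module.Basis S A R) {D : ℕ} (t : SD S D → A) : R :=
  ∑ d, t d • b d.ix

end

section

variable {k F : Type*} [Field k] [Field F] [Algebra k F] [CFF k F]

/-- the functions with poles only at `P₀`. -/
def RO (P₀ : Plk k F) : Subalgebra k F where
  carrier := {w | ∀ P, P ≠ P₀ → w = 0 ∨ 0 ≤ ord P w}
  mul_mem' := by
    intro z w hz hw P hP
    rcases hz P hP with h1 | h1
    · left; rw [h1, zero_mul]
    rcases hw P hP with h2 | h2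
    · left; rw [h2, mul_zero]
    by_cases hz0 : z = 0
    · left; rw [hz0, zero_mul]
    by_cases hw0 : w = 0
    · left; rw [hw0, mul_zero]
    right
    rw [ord_mul P hz0 hw0]
    omega
  add_mem' := by
    intro z w hz hw P hP
    have h1 : z ∈ P.1 := (mem_iff_ord P z).2 (hz P hP)
    have h2 : w ∈ P.1 := (mem_iff_ord P w).2 (hw P hP)
    exact (mem_iff_ord P _).1 (add_mem h1 h2)
  algebraMap_mem' := by
    intro a P _
    right
    rw [ord_const]

theorem mem_RO {P₀ : Plk k F} {w : F} :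
    w ∈ RO P₀ ↔ ∀ P, P ≠ P₀ → w = 0 ∨ 0 ≤ ord P w := Iff.rfl

/-- the functions with a pole of order at most `n` at `P₀` and no other poles. -/
noncomputable abbrev LP (P₀ : Plk k F) (n : ℕ) : Submodule k F :=
  LL k (Finsupp.single P₀ (n : ℤ))

/-- the data of a function which is locally a product of an `ℓ`-th power, a generator of the
ideal of the `p i` and a unit. -/
structure JT {R : Type*} [CommRing R] (ℓ : ℕ) {ι : Type} [Fintype ι] (p : ι → R) (f : R)
    (a : Fin 2 → R) (r s : ι → Fin 2 → R) : Prop where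
  eq : ∀ i j, p i * a j ^ ℓ = f * r i j
  one : ∑ i, ∑ j, s i j * r i j = 1

/-- `M` pairwise inequivalent functions with divisor divisible by `ℓ`. -/
def NC (ℓ : ℕ) (k F : Type*) [Field k] [Field F] [Algebra k F] [CFF k F] (M : ℕ) : Prop :=
  ∃ z : Fin M → F, (∀ i, z i ≠ 0 ∧ ∀ P : Plk k F, (ℓ : ℤ) ∣ ord P (z i)) ∧
    ∀ i j, i ≠ j → ¬ ∃ h : F, z i = h ^ ℓ * z j

end

end Vale.Agent.P019P
end
end

section

section

/-!
# Rings with a degree basis: filtration
-/

namespace Vale.Agent.P019P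

open Polynomial IntermediateField TensorProduct

section

variable {A R : Type*} [CommRing A] [CommRing R] [Algebra A R] {S : Set ℕ}
  {b : Module.Basis S A R}

theorem repr_el (b : Module.Basis S A R) {D : ℕ} (t : SD S D → A) (d : SD S D) :
    b.repr (el b t) d.ix = t d := by
  rw [el, map_sum, Finsupp.finset_sum_apply, Finset.sum_eq_single d]
  · rw [map_smul, b.repr_self, Finsupp.smul_apply, Finsupp.single_eq_same, smul_eq_mul, mul_one]
  · intro e _ he
    rw [map_smul, b.repr_self, Finsupp.smul_apply, Finsupp.single_eq_of_ne, smul_zero]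
    intro h
    apply he
    apply Subtype.ext
    apply Fin.ext
    exact (congrArg (fun f : S => (f : ℕ)) h).symm
  · intro h
    exact absurd (Finset.mem_univ _) h

theorem el_mem (b : Module.Basis S A R) {D : ℕ} (t : SD S D → A) : el b t ∈ fil b D := by
  refine Submodule.sum_mem _ fun d _ => Submodule.smul_mem _ _ ?_
  intro f hf
  rw [b.repr_self, Finsupp.single_eq_of_ne]
  intro h
  have h1 : (f : ℕ) = (d.1 : ℕ) := congrArg (fun f : S => (f : ℕ)) h
  have h2 := d.1.2
  omega

theorem exists_el {D : ℕ} {z : R} (hz : z ∈ fil b D) : ∃ t : SD S D → A, z = el b t := by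
  refine ⟨fun d => b.repr z d.ix, ?_⟩
  apply b.ext_elem
  intro f
  by_cases hf : (f : ℕ) ≤ D
  · exact (repr_el b (fun d => b.repr z d.ix) ⟨⟨f, by omega⟩, f.2⟩).symm
  · rw [hz f (by omega), el_mem b _ f (by omega)]

/-- base change. -/
theorem IsDB.baseChange (h : IsDB b) (A' : Type*) [CommRing A'] [Algebra A A'] :
    IsDB (b.baseChange A') := by
  have key : ∀ d e f : S, (b.baseChange A').repr ((b.baseChange A') d * (b.baseChange A') e) f =
      algebraMap A A' (b.repr (b d * b e) f) := by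
    intro d e f
    rw [Module.Basis.baseChange_apply, Module.Basis.baseChange_apply,
      Algebra.TensorProduct.tmul_mul_tmul, mul_one, Module.Basis.baseChange_repr_tmul,
      Algebra.smul_def, mul_one]
  refine ⟨?_, ?_, ?_⟩
  · intro d hd
    rw [Module.Basis.baseChange_apply, h.one d hd]
    rfl
  · intro d e f hf
    rw [key]
    exact (h.top d e f hf).map _
  · intro d e f hf
    rw [key, h.low d e f hf, map_zero]

theorem fil_mono (b : Module.Basis S A R) {m n : ℕ} (h : m ≤ n) : fil b m ≤ fil b n :=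
  fun _ hz f hf => hz f (h.trans_lt hf)

theorem fil_mul (h : IsDB b) {m n : ℕ} {z w : R} (hz : z ∈ fil b m) (hw : w ∈ fil b n) :
    z * w ∈ fil b (m + n) := by
  obtain ⟨t, rfl⟩ := exists_el hz
  obtain ⟨u, rfl⟩ := exists_el hw
  rw [el, el, Finset.sum_mul_sum]
  refine Submodule.sum_mem _ fun d _ => Submodule.sum_mem _ fun e _ => ?_
  rw [smul_mul_smul_comm]
  refine Submodule.smul_mem _ _ ?_
  intro f hf
  apply h.low
  have h1 := d.1.2
  have h2 := e.1.2
  change (d.1 : ℕ) + (e.1 : ℕ) < f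
  omega

theorem fil_one (h : IsDB b) (hS : 0 ∈ S) (n : ℕ) : (1 : R) ∈ fil b n := by
  rw [← h.one ⟨0, hS⟩ rfl]
  intro f hf
  rw [b.repr_self, Finsupp.single_eq_of_ne]
  intro h1
  have h2 : (f : ℕ) = 0 := congrArg (fun f : S => (f : ℕ)) h1
  omega

end

end Vale.Agent.P019P
end
end

section

section

/-!
# Rings with a degree basis over a field: degrees
-/

namespace Vale.Agent.P019P

open Polynomial IntermediateField TensorProduct

section

variable {K R : Type*} [Field K] [CommRing R] [Algebra K R] {S : Set ℕ} {g : ℕ}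
  {b : Module.Basis S K R}

theorem mem_fil_iff {n : ℕ} {z : R} : z ∈ fil b n ↔ dgr b z ≤ n := by
  constructor
  · intro hz
    refine Finset.sup_le fun f hf => ?_
    by_contra h
    exact (Finsupp.mem_support_iff.1 hf) (hz f (not_le.1 h))
  · intro h f hf
    by_contra h0
    have h1 : (f : ℕ) ≤ dgr b z :=
      Finset.le_sup (f := fun f : S => (f : ℕ)) (Finsupp.mem_support_iff.2 h0)
    omega

/-- the leading coefficient. -/
theorem exists_lead {z : R} (hz : z ≠ 0) : ∃ d : S, (d : ℕ) = dgr b z ∧ b.repr z d ≠ 0 := by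
  have h1 : (b.repr z).support.Nonempty := by
    rw [Finsupp.support_nonempty_iff]
    intro h
    exact hz (b.repr.map_eq_zero_iff.1 h)
  obtain ⟨d, hd, hd2⟩ := Finset.exists_mem_eq_sup _ h1 (fun f : S => (f : ℕ))
  exact ⟨d, hd2.symm, Finsupp.mem_support_iff.1 hd⟩

theorem h4Ring_basis_mem (b : Module.Basis S K R) (d : S) : b d ∈ fil b d := by
  intro f hf
  rw [b.repr_self, Finsupp.single_apply, if_neg]
  rintro rfl
  exact lt_irrefl _ hf

theorem h4Ring_lt (h : IsDB b) {m n : ℕ} {z w : R} (hz : ∀ f : S, m ≤ f → b.repr z f = 0)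
    (hw : w ∈ fil b n) (f : S) (hf : m + n ≤ f) : b.repr (z * w) f = 0 := by
  rcases Nat.eq_zero_or_pos m with rfl | hm
  · have h0 : z = 0 := by
      apply b.repr.map_eq_zero_iff.1
      ext f
      exact hz f (Nat.zero_le _)
    rw [h0, zero_mul, map_zero]
    rfl
  · have h1 : z ∈ fil b (m - 1) := fun f hf => hz f (by omega)
    exact fil_mul h h1 hw f (by omega)

theorem h4Ring_repr_sub {z : R} (d : S) (hd : z ∈ fil b d) (f : S) (hf : (d : ℕ) ≤ f) :
    b.repr (z - b.repr z d • b d) f = 0 := by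
  rw [map_sub, map_smul, b.repr_self, Finsupp.sub_apply, Finsupp.smul_apply, smul_eq_mul,
    Finsupp.single_apply]
  by_cases h : d = f
  · subst h
    rw [if_pos rfl, mul_one, sub_self]
  · rw [if_neg h, mul_zero, sub_zero]
    refine hd f (lt_of_le_of_ne hf fun h2 => h (Subtype.ext h2))

theorem h4Ring_repr_mul (h : IsDB b) {z w : R} (d e f : S) (hf : (f : ℕ) = d + e)
    (hz : z ∈ fil b d) (hw : w ∈ fil b e) :
    b.repr (z * w) f = b.repr z d * b.repr w e * b.repr (b d * b e) f := by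
  have e1 : z * w = (z - b.repr z d • b d) * w + (w - b.repr w e • b e) * (b.repr z d • b d) +
      (b.repr z d * b.repr w e) • (b d * b e) := by
    simp only [Algebra.smul_def, map_mul]
    ring
  have e2 : b.repr ((z - b.repr z d • b d) * w) f = 0 :=
    h4Ring_lt h (h4Ring_repr_sub d hz) hw f hf.ge
  have e3 : b.repr ((w - b.repr w e • b e) * (b.repr z d • b d)) f = 0 :=
    h4Ring_lt h (h4Ring_repr_sub e hw) (Submodule.smul_mem _ _ (h4Ring_basis_mem b d)) f
      (by omega)
  rw [e1, map_add, map_add, map_smul, Finsupp.add_apply, Finsupp.add_apply, e2, e3,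
    Finsupp.smul_apply, smul_eq_mul, zero_add, zero_add]

theorem dgr_mul (h : IsDB b) (hS : Sgp g S) {z w : R} (hz : z ≠ 0) (hw : w ≠ 0) :
    z * w ≠ 0 ∧ dgr b (z * w) = dgr b z + dgr b w := by
  obtain ⟨d, hd, hd2⟩ := exists_lead (b := b) hz
  obtain ⟨e, he, he2⟩ := exists_lead (b := b) hw
  have hz1 : z ∈ fil b d := mem_fil_iff.2 hd.ge
  have hw1 : w ∈ fil b e := mem_fil_iff.2 he.ge
  have hf := h4Ring_repr_mul h d e ⟨d + e, hS.add d.2 e.2⟩ rfl hz1 hw1
  have hne : b.repr (z * w) ⟨d + e, hS.add d.2 e.2⟩ ≠ 0 := by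
    rw [hf]
    exact mul_ne_zero (mul_ne_zero hd2 he2) (h.top d e _ rfl).ne_zero
  refine ⟨fun h0 => hne (by rw [h0, map_zero]; rfl), le_antisymm ?_ ?_⟩
  · rw [← hd, ← he]
    exact mem_fil_iff.1 (fil_mul h hz1 hw1)
  · rw [← hd, ← he]
    exact Finset.le_sup (f := fun f : S => (f : ℕ)) (Finsupp.mem_support_iff.2 hne)

theorem h4_domain (h : IsDB b) (hS : Sgp g S) : IsDomain R := by
  have : Nontrivial R := by
    refine ⟨⟨b ⟨0, hS.zero⟩, 0, ?_⟩⟩
    exact b.ne_zero _
  have : NoZeroDivisors R := ⟨by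
    intro z w hzw
    by_contra hc
    rw [not_or] at hc
    exact (dgr_mul h hS hc.1 hc.2).1 hzw⟩
  exact NoZeroDivisors.to_isDomain R

theorem h4Ring_algebraMap (h : IsDB b) (hS : Sgp g S) (c : K) :
    algebraMap K R c = c • b ⟨0, hS.zero⟩ := by
  rw [h.one ⟨0, hS.zero⟩ rfl, Algebra.algebraMap_eq_smul_one]

theorem dgr_algebraMap (h : IsDB b) (hS : Sgp g S) (c : K) : dgr b (algebraMap K R c) = 0 := by
  have h1 : algebraMap K R c ∈ fil b 0 := by
    rw [h4Ring_algebraMap h hS]
    exact Submodule.smul_mem _ _ (h4Ring_basis_mem b ⟨0, hS.zero⟩)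
  exact Nat.le_zero.1 (mem_fil_iff.1 h1)

theorem dgr_add_le (b : Module.Basis S K R) (z w : R) :
    dgr b (z + w) ≤ max (dgr b z) (dgr b w) :=
  mem_fil_iff.1 (Submodule.add_mem _ (mem_fil_iff.2 (le_max_left _ _))
    (mem_fil_iff.2 (le_max_right _ _)))

theorem dgr_basis (b : Module.Basis S K R) (d : S) : dgr b (b d) = d := by
  rw [dgr, b.repr_self, Finsupp.support_single_ne_zero _ one_ne_zero, Finset.sup_singleton]

/-- cancellation of the leading terms. -/
theorem exists_dgr_sub {z w : R} (hz : z ≠ 0) (hw : w ≠ 0) (h : dgr b z = dgr b w) :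
    ∃ c : K, c ≠ 0 ∧ (z - c • w = 0 ∨ dgr b (z - c • w) < dgr b z) := by
  obtain ⟨d, hd, hd2⟩ := exists_lead (b := b) hz
  obtain ⟨e, he, he2⟩ := exists_lead (b := b) hw
  have hde : d = e := Subtype.ext (by rw [hd, he, h])
  subst hde
  refine ⟨b.repr z d / b.repr w d, div_ne_zero hd2 he2, ?_⟩
  by_cases h0 : z - (b.repr z d / b.repr w d) • w = 0
  · exact Or.inl h0
  right
  obtain ⟨f, hf, hf2⟩ := exists_lead (b := b) h0
  by_contra hlt
  rw [not_lt] at hlt
  apply hf2
  rw [map_sub, map_smul, Finsupp.sub_apply, Finsupp.smul_apply, smul_eq_mul]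
  by_cases hfd : f = d
  · rw [hfd, div_mul_cancel₀ _ he2, sub_self]
  · have h3 : (d : ℕ) < f := by
      refine lt_of_le_of_ne ?_ fun h4 => hfd (Subtype.ext h4.symm)
      rw [hf, hd]
      exact hlt
    have hz1 : z ∈ fil b d := mem_fil_iff.2 hd.ge
    have hw1 : w ∈ fil b d := mem_fil_iff.2 he.ge
    rw [hz1 f h3, hw1 f h3, mul_zero, sub_zero]

/-- coordinates of the elements of bounded degree. -/
noncomputable def h4Ring_lin (b : Module.Basis S K R) (n : ℕ) : (SD S n → K) →ₗ[K] fil b n where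
  toFun t := ⟨el b t, el_mem b t⟩
  map_add' t u := Subtype.ext (by
    change el b (t + u) = el b t + el b u
    simp only [el, Pi.add_apply, add_smul, Finset.sum_add_distrib])
  map_smul' c t := Subtype.ext (by
    change el b (c • t) = c • el b t
    simp only [el, Pi.smul_apply, smul_eq_mul, mul_smul, Finset.smul_sum])

theorem h4Ring_lin_surj (b : Module.Basis S K R) (n : ℕ) :
    Function.Surjective (h4Ring_lin b n) := by
  rintro ⟨z, hz⟩
  obtain ⟨t, ht⟩ := exists_el hz
  exact ⟨t, Subtype.ext ht.symm⟩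

theorem h4Ring_lin_inj (b : Module.Basis S K R) (n : ℕ) :
    Function.Injective (h4Ring_lin b n) := by
  intro t u htu
  have h1 : el b t = el b u := congrArg Subtype.val htu
  funext d
  rw [← repr_el b t d, ← repr_el b u d, h1]

theorem fil_finite (b : Module.Basis S K R) (n : ℕ) : FiniteDimensional K (fil b n) :=
  Module.Finite.of_surjective (h4Ring_lin b n) (h4Ring_lin_surj b n)

theorem h4Ring_card (hS : Sgp g S) {n : ℕ} (hn : 2 * g ≤ n) :
    Fintype.card (SD S n) + g = n + 1 := by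
  classical
  have h1 : Fintype.card (SD S n) + Fintype.card {d : Fin (n + 1) // ¬ (d : ℕ) ∈ S} = n + 1 := by
    rw [Fintype.card_subtype_compl, Fintype.card_fin]
    have h2 := Fintype.card_subtype_le (fun d : Fin (n + 1) => (d : ℕ) ∈ S)
    rw [Fintype.card_fin] at h2
    have h3 : Fintype.card (SD S n) = Fintype.card {d : Fin (n + 1) // (d : ℕ) ∈ S} :=
      Fintype.card_congr (Equiv.refl _)
    omega
  have h2 : Fintype.card {d : Fin (n + 1) // ¬ (d : ℕ) ∈ S} = g := by
    rw [← hS.gaps, ← Nat.card_coe_set_eq, ← Nat.card_eq_fintype_card]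
    refine Nat.card_congr ⟨fun d => ⟨d.1, d.2⟩, fun d => ⟨⟨d.1, ?_⟩, d.2⟩, ?_, ?_⟩
    · have h3 : ¬ 2 * g ≤ (d : ℕ) := fun h4 => d.2 (hS.large _ h4)
      omega
    · intro d
      rfl
    · intro d
      rfl
  omega

theorem finrank_fil (b : Module.Basis S K R) (hS : Sgp g S) {n : ℕ} (hn : 2 * g ≤ n) :
    Module.finrank K (fil b n) + g = n + 1 := by
  rw [← h4Ring_card hS hn, ← Module.finrank_fintype_fun_eq_card K (η := SD S n)]
  congr 1
  exact (LinearEquiv.ofBijective (h4Ring_lin b n)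
    ⟨h4Ring_lin_inj b n, h4Ring_lin_surj b n⟩).finrank_eq.symm

end

end Vale.Agent.P019P
end
end

section

section

/-!
# The functions of a ring with a degree basis have poles only at infinity
-/

namespace Vale.Agent.P019P

open Polynomial IntermediateField TensorProduct

section

variable {K R : Type*} [Field K] [CommRing R] [Algebra K R] {S : Set ℕ} {g : ℕ}
  {b : Module.Basis S K R}

theorem h4FrC_bound (v : S → ℤ) (N : ℕ) : ∃ M : ℤ, 0 ≤ M ∧ ∀ d : S, (d : ℕ) < N → v d ≤ M := by
  classical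
  have h0 : ∀ n, 0 ≤ (if h : n ∈ S then |v ⟨n, h⟩| else 0) := by
    intro n
    split_ifs
    · exact abs_nonneg _
    · exact le_rfl
  refine ⟨∑ n ∈ Finset.range N, if h : n ∈ S then |v ⟨n, h⟩| else 0,
    Finset.sum_nonneg fun n _ => h0 n, fun d hd => ?_⟩
  have h1 := Finset.single_le_sum (f := fun n => if h : n ∈ S then |v ⟨n, h⟩| else 0)
    (fun n _ => h0 n) (Finset.mem_range.2 hd)
  rw [dif_pos d.2] at h1
  exact (le_abs_self _).trans h1

theorem h4FrC_mem (N : Submodule K R) {z : R} (h : ∀ f : S, b.repr z f ≠ 0 → b f ∈ N) :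
    z ∈ N := by
  rw [← b.linearCombination_repr z, Finsupp.linearCombination_apply, Finsupp.sum]
  exact Submodule.sum_mem _ fun f hf => N.smul_mem _ (h f (Finsupp.mem_support_iff.1 hf))

theorem h4FrC_pow (h : IsDB b) (hS : Sgp g S) {z : R} (hz : z ≠ 0) (n : ℕ) :
    z ^ n ≠ 0 ∧ dgr b (z ^ n) = n * dgr b z := by
  have : IsDomain R := h4_domain h hS
  refine ⟨pow_ne_zero _ hz, ?_⟩
  induction n with
  | zero =>
    rw [pow_zero, zero_mul, ← map_one (algebraMap K R)]
    exact dgr_algebraMap h hS 1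
  | succ n ih =>
    rw [pow_succ, (dgr_mul h hS (pow_ne_zero _ hz) hz).2, ih]
    ring

end

section

variable {K R F : Type*} [Field K] [CommRing R] [Algebra K R] [Field F]
  [Algebra R F] [Algebra K F] [IsScalarTower K R F] {S : Set ℕ} {g : ℕ}
  {b : Module.Basis S K R} [CFF K F]

variable (K R F) in
/-- the functions in the ring. -/
noncomputable def h4FrC_lin : R →ₗ[K] F := (IsScalarTower.toAlgHom K R F).toLinearMap

theorem h4FrC_lin_apply (z : R) : h4FrC_lin K R F z = algebraMap R F z := rfl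

variable (R) in
/-- elements of the ring with bounded pole. -/
noncomputable def h4FrC_N (P : Plk K F) (n : ℤ) : Submodule K R :=
  (Mge P (-n)).comap (h4FrC_lin K R F)

theorem h4FrC_mem_N {P : Plk K F} {n : ℤ} {z : R} :
    z ∈ h4FrC_N R P n ↔ algebraMap R F z ∈ Mge P (-n) := Iff.rfl

theorem h4FrC_N_mono (P : Plk K F) {m n : ℤ} (h : m ≤ n) : h4FrC_N R P m ≤ h4FrC_N R P n :=
  fun _ hz => Mge_mono P (neg_le_neg h) hz

theorem h4FrC_N_mul {P : Plk K F} {m n : ℤ} {z w : R} (hz : z ∈ h4FrC_N R P m)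
    (hw : w ∈ h4FrC_N R P n) : z * w ∈ h4FrC_N R P (m + n) := by
  have h1 := mul_mem_Mge (h4FrC_mem_N.1 hz) (h4FrC_mem_N.1 hw)
  rw [h4FrC_mem_N, map_mul]
  rwa [show -(m + n) = -m + -n by ring]

/-- the growth of the poles of the basis. -/
theorem h4FrC_basis (h : IsDB b) (hS : Sgp g S) (P : Plk K F) {c M : ℤ} (hc : 0 ≤ c)
    (hx : b ⟨2 * g + 1, hS.large _ (by omega)⟩ ∈ h4FrC_N R P c)
    (hM0 : 0 ≤ M)
    (hM : ∀ d : S, (d : ℕ) < 2 * (2 * g + 1) →
      ((2 * g + 1 : ℕ) : ℤ) * -ord P (algebraMap R F (b d)) ≤ M) :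
    ∀ n : ℕ, ∀ e : S, (e : ℕ) = n →
      b e ∈ h4FrC_N R P ((c * e + M) / ((2 * g + 1 : ℕ) : ℤ)) := by
  have hm : (0 : ℤ) < ((2 * g + 1 : ℕ) : ℤ) := by positivity
  intro n
  induction n using Nat.strong_induction_on with
  | _ n ih =>
  intro e he
  by_cases hlt : (e : ℕ) < 2 * (2 * g + 1)
  · right
    have h1 := hM e hlt
    have h2 : -ord P (algebraMap R F (b e)) ≤ (c * e + M) / ((2 * g + 1 : ℕ) : ℤ) := by
      rw [Int.le_ediv_iff_mul_le hm, mul_comm]
      have : 0 ≤ c * (e : ℤ) := mul_nonneg hc (by positivity)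
      linarith
    rw [h4FrC_lin_apply]
    linarith
  · rw [not_lt] at hlt
    set N := h4FrC_N R P ((c * e + M) / ((2 * g + 1 : ℕ) : ℤ)) with hN
    have hf0 : (e : ℕ) - (2 * g + 1) ∈ S := hS.large _ (by omega)
    set f0 : S := ⟨(e : ℕ) - (2 * g + 1), hf0⟩ with hf0def
    have hf0v : (f0 : ℕ) = (e : ℕ) - (2 * g + 1) := rfl
    set x := b ⟨2 * g + 1, hS.large _ (by omega)⟩ with hxdef
    have hsum : (2 * g + 1) + (f0 : ℕ) = e := by omega
    have hy : x * b f0 ∈ N := by
      have h1 := ih f0 (by omega) f0 rfl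
      have h2 := h4FrC_N_mul hx h1
      refine h4FrC_N_mono P ?_ h2
      have h3 : c * (e : ℤ) + M = (c * (f0 : ℤ) + M) + c * ((2 * g + 1 : ℕ) : ℤ) := by
        rw [← hsum]
        push_cast
        ring
      rw [h3, Int.add_mul_ediv_right _ _ hm.ne']
      linarith
    have hyf : x * b f0 ∈ fil b e := by
      have h1 := fil_mul h (h4Ring_basis_mem b ⟨2 * g + 1, hS.large _ (by omega)⟩)
        (h4Ring_basis_mem b f0)
      rwa [show ((⟨2 * g + 1, hS.large _ (by omega)⟩ : S) : ℕ) + (f0 : ℕ) = e from hsum] at h1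
    have hw : x * b f0 - b.repr (x * b f0) e • b e ∈ N := by
      apply h4FrC_mem (b := b)
      intro f hf
      have hfe : (f : ℕ) < e := by
        by_contra hcon
        exact hf (h4Ring_repr_sub e hyf f (not_lt.1 hcon))
      refine h4FrC_N_mono P ?_ (ih f (by omega) f rfl)
      apply Int.ediv_le_ediv hm
      have h1 : c * (f : ℤ) ≤ c * (e : ℤ) :=
        mul_le_mul_of_nonneg_left (by exact_mod_cast hfe.le) hc
      linarith
    have hu : b.repr (x * b f0) e ≠ 0 :=
      (h.top ⟨2 * g + 1, hS.large _ (by omega)⟩ f0 e hsum.symm).ne_zero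
    have h1 : b.repr (x * b f0) e • b e ∈ N := by
      have h2 := N.sub_mem hy hw
      rwa [sub_sub_cancel] at h2
    have h2 := N.smul_mem (b.repr (x * b f0) e)⁻¹ h1
    rwa [smul_smul, inv_mul_cancel₀ hu, one_smul] at h2

/-- the growth of the poles. -/
theorem h4FrC_all (h : IsDB b) (hS : Sgp g S) (P : Plk K F) {c : ℤ} (hc : 0 ≤ c)
    (hx : b ⟨2 * g + 1, hS.large _ (by omega)⟩ ∈ h4FrC_N R P c) :
    ∃ M : ℤ, ∀ z : R, z ∈ h4FrC_N R P ((c * dgr b z + M) / ((2 * g + 1 : ℕ) : ℤ)) := by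
  have hm : (0 : ℤ) < ((2 * g + 1 : ℕ) : ℤ) := by positivity
  obtain ⟨M, hM0, hM⟩ := h4FrC_bound
    (fun d : S => ((2 * g + 1 : ℕ) : ℤ) * -ord P (algebraMap R F (b d))) (2 * (2 * g + 1))
  refine ⟨M, fun z => ?_⟩
  apply h4FrC_mem (b := b)
  intro f hf
  refine h4FrC_N_mono P ?_ (h4FrC_basis h hS P hc hx hM0 hM f f rfl)
  apply Int.ediv_le_ediv hm
  have h0 : (f : ℕ) ≤ dgr b z :=
    Finset.le_sup (f := fun f : S => (f : ℕ)) (Finsupp.mem_support_iff.2 hf)
  have h1 : c * (f : ℤ) ≤ c * (dgr b z : ℤ) :=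
    mul_le_mul_of_nonneg_left (by exact_mod_cast h0) hc
  linarith

/-- the power trick. -/
theorem h4FrC_star (hinj : Function.Injective (algebraMap R F)) (h : IsDB b) (hS : Sgp g S)
    (P : Plk K F) {c : ℤ} (hc : 0 ≤ c)
    (hx : b ⟨2 * g + 1, hS.large _ (by omega)⟩ ∈ h4FrC_N R P c) {z : R} (hz : z ≠ 0) :
    ((2 * g + 1 : ℕ) : ℤ) * -ord P (algebraMap R F z) ≤ c * dgr b z := by
  have hm : (0 : ℤ) < ((2 * g + 1 : ℕ) : ℤ) := by positivity
  obtain ⟨M, hM⟩ := h4FrC_all h hS P hc hx
  by_contra hcon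
  rw [not_le] at hcon
  set A := ((2 * g + 1 : ℕ) : ℤ) * -ord P (algebraMap R F z) with hA
  have key : ∀ n : ℕ, (n : ℤ) * (A - c * dgr b z) ≤ M := by
    intro n
    obtain ⟨h1, h2⟩ := h4FrC_pow h hS hz n
    have h3 := (h4FrC_mem_N.1 (hM (z ^ n))).resolve_left
      ((map_ne_zero_iff _ hinj).2 h1)
    rw [map_pow, ord_pow, h2] at h3
    have h4 : -((n : ℤ) * ord P (algebraMap R F z)) ≤
        (c * ((n * dgr b z : ℕ) : ℤ) + M) / ((2 * g + 1 : ℕ) : ℤ) := by linarith
    rw [Int.le_ediv_iff_mul_le hm] at h4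
    have h5 : (n : ℤ) * (A - c * dgr b z) =
        -((n : ℤ) * ord P (algebraMap R F z)) * ((2 * g + 1 : ℕ) : ℤ) -
          c * ((n * dgr b z : ℕ) : ℤ) := by
      rw [hA]
      push_cast
      ring
    rw [h5]
    linarith
  have h1 := key (M.toNat + 1)
  have h2 : (1 : ℤ) ≤ A - c * dgr b z := by linarith
  have h3 : ((M.toNat + 1 : ℕ) : ℤ) * 1 ≤ ((M.toNat + 1 : ℕ) : ℤ) * (A - c * dgr b z) :=
    mul_le_mul_of_nonneg_left h2 (by positivity)
  have h4 : M ≤ (M.toNat : ℤ) := Int.self_le_toNat M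
  push_cast at h1 h3
  linarith

/-- the exact orders. -/
theorem h4FrC_exact (hinj : Function.Injective (algebraMap R F)) (h : IsDB b) (hS : Sgp g S)
    (P : Plk K F) (hc : ord P (algebraMap R F (b ⟨2 * g + 1, hS.large _ (by omega)⟩)) < 0)
    {z : R} (hz : z ≠ 0) :
    ((2 * g + 1 : ℕ) : ℤ) * ord P (algebraMap R F z) =
      ord P (algebraMap R F (b ⟨2 * g + 1, hS.large _ (by omega)⟩)) * dgr b z := by
  have : IsDomain R := h4_domain h hS
  have hm : (0 : ℤ) < ((2 * g + 1 : ℕ) : ℤ) := by positivity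
  set x := b ⟨2 * g + 1, hS.large _ (by omega)⟩ with hxdef
  have hx0 : x ≠ 0 := b.ne_zero _
  have hxd : dgr b x = 2 * g + 1 := dgr_basis b _
  have hx : x ∈ h4FrC_N R P (-ord P (algebraMap R F x)) := by
    right
    rw [neg_neg, h4FrC_lin_apply]
  obtain ⟨h1, h2⟩ := h4FrC_pow h hS hz (2 * g + 1)
  obtain ⟨h3, h4⟩ := h4FrC_pow h hS hx0 (dgr b z)
  obtain ⟨l, hl0, hl⟩ := exists_dgr_sub (b := b) h1 h3 (by rw [h2, h4, hxd]; ring)
  have hlx : algebraMap R F (l • x ^ dgr b z) ≠ 0 :=
    (map_ne_zero_iff _ hinj).2 (smul_ne_zero hl0 h3)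
  have hord : ord P (algebraMap R F (l • x ^ dgr b z)) =
      dgr b z * ord P (algebraMap R F x) := by
    rw [← h4FrC_lin_apply (K := K), map_smul, h4FrC_lin_apply, Algebra.smul_def,
      ord_mul P (by rwa [Ne, map_eq_zero]) ((map_ne_zero_iff _ hinj).2 h3), ord_const, zero_add,
      map_pow, ord_pow]
  have hzm : ord P (algebraMap R F (z ^ (2 * g + 1))) = dgr b z * ord P (algebraMap R F x) := by
    by_cases hy : z ^ (2 * g + 1) - l • x ^ dgr b z = 0
    · rw [sub_eq_zero.1 hy, hord]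
    · have h5 := hl.resolve_left hy
      rw [h2] at h5
      have h6 := h4FrC_star hinj h hS P (c := -ord P (algebraMap R F x)) (by linarith) hx hy
      have h7 : algebraMap R F (z ^ (2 * g + 1) - l • x ^ dgr b z) ∈
          Mge P (ord P (algebraMap R F (l • x ^ dgr b z)) + 1) := by
        right
        rw [hord]
        have h8 : (dgr b (z ^ (2 * g + 1) - l • x ^ dgr b z) : ℤ) + 1 ≤
            ((2 * g + 1 : ℕ) : ℤ) * dgr b z := by exact_mod_cast h5
        have h9 : (-ord P (algebraMap R F x)) *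
            ((dgr b (z ^ (2 * g + 1) - l • x ^ dgr b z) : ℤ) + 1) ≤
            (-ord P (algebraMap R F x)) * (((2 * g + 1 : ℕ) : ℤ) * dgr b z) :=
          mul_le_mul_of_nonneg_left h8 (by linarith)
        by_contra hcon
        rw [not_le] at hcon
        have h10 : ord P (algebraMap R F (z ^ (2 * g + 1) - l • x ^ dgr b z)) ≤
            dgr b z * ord P (algebraMap R F x) := by omega
        have h11 := mul_le_mul_of_nonneg_left h10 hm.le
        nlinarith
      have h8 := (ord_add_of_lt hlx h7).2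
      rw [← map_add, add_sub_cancel] at h8
      rw [h8, hord]
  rw [map_pow, ord_pow] at hzm
  rw [hzm]
  ring

end

variable {K R F : Type*} [Field K] [IsAlgClosed K] [CommRing R] [Algebra K R] [Field F]
  [Algebra R F] [IsFractionRing R F] [Algebra K F] [IsScalarTower K R F] {S : Set ℕ} {g : ℕ}
  {b : Module.Basis S K R} [CFF K F] {P₀ : Plk K F}

/-- no other poles. -/
theorem h4_RO (h : IsDB b) (hS : Sgp g S)
    (hP₀ : ∀ z : R, z ≠ 0 → ord P₀ (algebraMap R F z) = -(dgr b z : ℤ)) (z : R) :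
    algebraMap R F z ∈ RO P₀ := by
  have : IsDomain R := h4_domain h hS
  have hinj : Function.Injective (algebraMap R F) := IsFractionRing.injective R F
  have hm : (0 : ℤ) < ((2 * g + 1 : ℕ) : ℤ) := by positivity
  intro P hP
  by_cases hz : z = 0
  · left
    rw [hz, map_zero]
  right
  by_cases hc : ord P (algebraMap R F (b ⟨2 * g + 1, hS.large _ (by omega)⟩)) < 0
  · exfalso
    apply hP
    have key : ∀ z : R, z ≠ 0 → ((2 * g + 1 : ℕ) : ℤ) * ord P (algebraMap R F z) =
        -ord P (algebraMap R F (b ⟨2 * g + 1, hS.large _ (by omega)⟩)) *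
          ord P₀ (algebraMap R F z) := by
      intro z hz
      rw [h4FrC_exact hinj h hS P hc hz, hP₀ z hz]
      ring
    have key2 : ∀ w : F, w ≠ 0 → ((2 * g + 1 : ℕ) : ℤ) * ord P w =
        -ord P (algebraMap R F (b ⟨2 * g + 1, hS.large _ (by omega)⟩)) * ord P₀ w := by
      intro w hw
      obtain ⟨u, v, hv, rfl⟩ := IsFractionRing.div_surjective (A := R) w
      have hv0 : v ≠ 0 := nonZeroDivisors.ne_zero hv
      have hv1 : algebraMap R F v ≠ 0 := (map_ne_zero_iff _ hinj).2 hv0
      have hu1 : algebraMap R F u ≠ 0 := fun h1 => hw (by rw [h1, zero_div])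
      have hu0 : u ≠ 0 := (map_ne_zero_iff _ hinj).1 hu1
      rw [div_eq_mul_inv, ord_mul P hu1 (inv_ne_zero hv1), ord_mul P₀ hu1 (inv_ne_zero hv1),
        ord_inv, ord_inv, mul_add, mul_add, mul_neg, mul_neg, key u hu0, key v hv0]
    apply Plk.eq_of_le
    intro w hw
    rw [mem_iff_ord] at hw ⊢
    rcases hw with hw | hw
    · exact Or.inl hw
    by_cases hw0 : w = 0
    · exact Or.inl hw0
    right
    have h1 := key2 w hw0
    have h2 : 0 ≤ ((2 * g + 1 : ℕ) : ℤ) * ord P w := mul_nonneg hm.le hw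
    rw [h1] at h2
    exact nonneg_of_mul_nonneg_right h2 (by linarith)
  · rw [not_lt] at hc
    have hx : b ⟨2 * g + 1, hS.large _ (by omega)⟩ ∈ h4FrC_N R P 0 := by
      right
      rw [neg_zero, h4FrC_lin_apply]
      exact hc
    have h1 := h4FrC_star hinj h hS P le_rfl hx hz
    rw [zero_mul] at h1
    by_contra hcon
    rw [not_le] at hcon
    have h2 : 0 < ((2 * g + 1 : ℕ) : ℤ) * -ord P (algebraMap R F z) :=
      mul_pos hm (by linarith)
    linarith

end Vale.Agent.P019P
end
end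

section

section

/-!
# The function field of a ring with a degree basis
-/

namespace Vale.Agent.P019P

open Polynomial IntermediateField TensorProduct

variable {K R F : Type*} [Field K] [IsAlgClosed K] [CommRing R] [Algebra K R] [Field F]
  [Algebra R F] [IsFractionRing R F] [Algebra K F] [IsScalarTower K R F] {S : Set ℕ} {g : ℕ}
  {b : Module.Basis S K R}

omit [IsAlgClosed K] [IsFractionRing R F] in
theorem h4FrA_smul (c : K) (r : R) : algebraMap R F (c • r) = c • algebraMap R F r := by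
  rw [Algebra.smul_def, map_mul, ← IsScalarTower.algebraMap_apply, ← Algebra.smul_def]

omit [IsAlgClosed K] [IsFractionRing R F] in
/-- the basis elements lie in the span of those of small degree. -/
theorem h4FrA_basis (h : IsDB b) (hS : Sgp g S) {m : ℕ} (hm : m ∈ S) (hm2 : 2 * g < m)
    (L : IntermediateField K F) (hL : algebraMap R F (b ⟨m, hm⟩) ∈ L) (N : Submodule L F)
    (hN : ∀ d : S, (d : ℕ) < 2 * m → algebraMap R F (b d) ∈ N) :
    ∀ e : ℕ, ∀ he : e ∈ S, algebraMap R F (b ⟨e, he⟩) ∈ N := by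
  intro e
  induction e using Nat.strong_induction_on with
  | _ e ih =>
  intro he
  by_cases hlt : e < 2 * m
  · exact hN ⟨e, he⟩ hlt
  rw [not_lt] at hlt
  have he1 : e - m ∈ S := hS.large _ (by omega)
  set z : R := b ⟨m, hm⟩ * b ⟨e - m, he1⟩ with hz
  have hu : IsUnit (b.repr z ⟨e, he⟩) :=
    h.top ⟨m, hm⟩ ⟨e - m, he1⟩ ⟨e, he⟩ (by simp only; omega)
  set u : K := b.repr z ⟨e, he⟩ with hudef
  have hu0 : u ≠ 0 := hu.ne_zero
  have hw : z - u • b ⟨e, he⟩ ∈ fil b (e - 1) := by
    intro f hf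
    rw [map_sub, map_smul, b.repr_self, Finsupp.sub_apply, Finsupp.smul_apply, smul_eq_mul,
      Finsupp.single_apply]
    by_cases hfe : (⟨e, he⟩ : S) = f
    · rw [if_pos hfe, mul_one, ← hfe, ← hudef, sub_self]
    · rw [if_neg hfe, mul_zero, sub_zero]
      refine h.low ⟨m, hm⟩ ⟨e - m, he1⟩ f ?_
      have h1 : e ≠ (f : ℕ) := fun h2 => hfe (Subtype.ext h2)
      simp only
      omega
  obtain ⟨t, ht⟩ := exists_el hw
  have hzN : algebraMap R F z ∈ N := by
    rw [hz, map_mul]
    exact N.smul_mem (⟨_, hL⟩ : L) (ih (e - m) (by omega) he1)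
  have hwN : algebraMap R F (z - u • b ⟨e, he⟩) ∈ N := by
    rw [ht, el, map_sum]
    refine N.sum_mem fun d _ => ?_
    rw [h4FrA_smul]
    refine N.smul_of_tower_mem _ ?_
    have hd : (d.1 : ℕ) < e := by
      have := d.1.2
      omega
    exact ih (d.1 : ℕ) hd d.2
  have hbe : algebraMap R F (b ⟨e, he⟩) = u⁻¹ • (algebraMap R F z -
      algebraMap R F (z - u • b ⟨e, he⟩)) := by
    rw [← map_sub, sub_sub_cancel, h4FrA_smul, smul_smul, inv_mul_cancel₀ hu0, one_smul]
  rw [hbe]
  exact N.smul_of_tower_mem _ (N.sub_mem hzN hwN)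

/-- the fraction field is a function field of one variable. -/
theorem h4_cff (h : IsDB b) (hS : Sgp g S) : CFF K F := by
  have hdom : IsDomain R := h4_domain h hS
  have hinj : Function.Injective (algebraMap R F) := IsFractionRing.injective R F
  set m : ℕ := 2 * g + 1 with hmdef
  have hm : m ∈ S := hS.large _ (by omega)
  set X : F := algebraMap R F (b ⟨m, hm⟩) with hX
  refine ⟨inferInstance, X, ?_, ?_⟩
  · intro halg
    have hint : IsIntegral K X := halg.isIntegral
    obtain ⟨a, ha⟩ := minpoly.mem_range_of_degree_eq_one K X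
      (IsAlgClosed.degree_eq_one_of_irreducible K (minpoly.irreducible hint))
    rw [IsScalarTower.algebraMap_apply K R F] at ha
    have h1 : algebraMap K R a = b ⟨m, hm⟩ := hinj ha
    have h2 := dgr_algebraMap (b := b) h hS a
    rw [h1, dgr_basis] at h2
    simp only at h2
    omega
  · have hXL : X ∈ K⟮X⟯ := mem_adjoin_simple_self K X
    set s : Set F := (fun d : S => algebraMap R F (b d)) '' {d : S | (d : ℕ) < 2 * m} with hs
    have hfin : s.Finite := by
      refine Set.Finite.image _ ?_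
      refine Set.Finite.of_injOn (f := fun d : S => (d : ℕ)) (t := Set.Iio (2 * m)) ?_ ?_
        (Set.finite_Iio _)
      · intro d hd
        exact hd
      · intro d _ e _ hde
        exact Subtype.ext hde
    set N : Submodule K⟮X⟯ F := Submodule.span K⟮X⟯ s with hN
    have hb : ∀ d : S, algebraMap R F (b d) ∈ N := fun d =>
      h4FrA_basis h hS hm (by omega) K⟮X⟯ hXL N
        (fun d hd => Submodule.subset_span ⟨d, hd, rfl⟩) d d.2
    have hR : ∀ a : R, algebraMap R F a ∈ N := by
      intro a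
      have h1 : a = (b.repr a).sum fun d c => c • b d := by
        have := b.linearCombination_repr a
        rw [Finsupp.linearCombination_apply] at this
        exact this.symm
      rw [h1, Finsupp.sum, map_sum]
      refine N.sum_mem fun d _ => ?_
      rw [h4FrA_smul]
      exact N.smul_of_tower_mem _ (hb d)
    have hmul : ∀ (a : R) (v : F), v ∈ N → algebraMap R F a * v ∈ N := by
      intro a v hv
      rw [hN] at hv
      induction hv using Submodule.span_induction with
      | mem x hx =>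
        obtain ⟨d, _, rfl⟩ := hx
        simp only
        rw [← map_mul]
        exact hR _
      | zero => rw [mul_zero]; exact N.zero_mem
      | add x y _ _ hx hy => rw [mul_add]; exact N.add_mem hx hy
      | smul c x _ hx => rw [mul_smul_comm]; exact N.smul_mem c hx
    have hfd : FiniteDimensional K⟮X⟯ N := FiniteDimensional.span_of_finite _ hfin
    have hinv : ∀ c : R, c ≠ 0 → (algebraMap R F c)⁻¹ ∈ N := by
      intro c hc
      have hc0 : algebraMap R F c ≠ 0 := by
        rw [Ne, map_eq_zero_iff _ hinj]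
        exact hc
      let T : N →ₗ[K⟮X⟯] N :=
        { toFun := fun v => ⟨algebraMap R F c * v, hmul c v v.2⟩
          map_add' := fun v w => Subtype.ext (by
            simp only [Submodule.coe_add, mul_add])
          map_smul' := fun r v => Subtype.ext (by
            simp only [Submodule.coe_smul, RingHom.id_apply, mul_smul_comm]) }
      have hT : Function.Injective T := by
        intro v w hvw
        have h1 : algebraMap R F c * (v : F) = algebraMap R F c * (w : F) :=
          congrArg Subtype.val hvw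
        exact Subtype.ext (mul_left_cancel₀ hc0 h1)
      have hT2 : Function.Surjective T := LinearMap.injective_iff_surjective.1 hT
      have h1N : (1 : F) ∈ N := by
        have := hR 1
        rwa [map_one] at this
      obtain ⟨v, hv⟩ := hT2 ⟨1, h1N⟩
      have h1 : algebraMap R F c * (v : F) = 1 := congrArg Subtype.val hv
      have h2 : (algebraMap R F c)⁻¹ = v := by
        rw [inv_eq_iff_eq_inv, ← mul_eq_one_iff_eq_inv₀]
        · exact h1
        · intro h3
          rw [h3, mul_zero] at h1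
          exact zero_ne_one h1
      rw [h2]
      exact v.2
    have htop : N = ⊤ := by
      rw [eq_top_iff]
      intro y _
      obtain ⟨a, c, hc, rfl⟩ := IsFractionRing.div_surjective (A := R) y
      rw [div_eq_mul_inv]
      exact hmul a _ (hinv c (nonZeroDivisors.ne_zero hc))
    have : Module.Finite K⟮X⟯ F := ⟨by
      rw [← htop, hN]
      exact Submodule.fg_span hfin⟩
    exact this

end Vale.Agent.P019P
end
end

section

section

/-!
# The place at infinity of a ring with a degree basis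
-/

namespace Vale.Agent.P019P

open Polynomial IntermediateField TensorProduct

section

variable {K R F : Type*} [Field K] [CommRing R] [Algebra K R] [Field F]
  [Algebra R F] [IsFractionRing R F] {S : Set ℕ} {g : ℕ}
  {b : Module.Basis S K R}

theorem h4FrB_dgr_one (h : IsDB b) (hS : Sgp g S) : dgr b (1 : R) = 0 := by
  have h1 := dgr_algebraMap h hS 1
  rwa [map_one] at h1

theorem h4FrB_wd (h : IsDB b) (hS : Sgp g S) {a c a' c' : R} (ha : a ≠ 0) (hc : c ≠ 0)
    (ha' : a' ≠ 0) (hc' : c' ≠ 0)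
    (e : algebraMap R F a / algebraMap R F c = algebraMap R F a' / algebraMap R F c') :
    (dgr b c : ℤ) - dgr b a = dgr b c' - dgr b a' := by
  have hinj := IsFractionRing.injective R F
  have hc1 : algebraMap R F c ≠ 0 := fun h0 => hc (hinj (by rw [h0, map_zero]))
  have hc1' : algebraMap R F c' ≠ 0 := fun h0 => hc' (hinj (by rw [h0, map_zero]))
  rw [div_eq_div_iff hc1 hc1', ← map_mul, ← map_mul] at e
  have e1 := hinj e
  have h1 := (dgr_mul h hS ha hc').2
  have h2 := (dgr_mul h hS ha' hc).2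
  rw [e1, h2] at h1
  omega

theorem h4FrB_frac (h : IsDB b) (hS : Sgp g S) (w : F) :
    ∃ a c : R, c ≠ 0 ∧ w = algebraMap R F a / algebraMap R F c := by
  have := h4_domain h hS
  obtain ⟨a, c, hc, hw⟩ := IsFractionRing.div_surjective (A := R) w
  exact ⟨a, c, nonZeroDivisors.ne_zero hc, hw.symm⟩

open Classical in
/-- the valuation at infinity. -/
noncomputable def h4FrB_v (h : IsDB b) (hS : Sgp g S) (w : F) : ℤ :=
  if w = 0 then 0 else (dgr b (h4FrB_frac h hS w).choose_spec.choose : ℤ) -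
    dgr b (h4FrB_frac h hS w).choose

theorem h4FrB_v_zero (h : IsDB b) (hS : Sgp g S) : h4FrB_v h hS (0 : F) = 0 := by
  unfold h4FrB_v
  rw [if_pos rfl]

theorem h4FrB_v_div (h : IsDB b) (hS : Sgp g S) {a c : R} (ha : a ≠ 0) (hc : c ≠ 0) :
    h4FrB_v h hS (algebraMap R F a / algebraMap R F c) = (dgr b c : ℤ) - dgr b a := by
  have hinj := IsFractionRing.injective R F
  have ha1 : algebraMap R F a ≠ 0 := fun h0 => ha (hinj (by rw [h0, map_zero]))
  have hc1 : algebraMap R F c ≠ 0 := fun h0 => hc (hinj (by rw [h0, map_zero]))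
  have hw0 : algebraMap R F a / algebraMap R F c ≠ 0 := div_ne_zero ha1 hc1
  unfold h4FrB_v
  rw [if_neg hw0]
  obtain ⟨hc', hw⟩ := (h4FrB_frac h hS
    (algebraMap R F a / algebraMap R F c)).choose_spec.choose_spec
  refine h4FrB_wd (F := F) h hS ?_ hc' ha hc hw.symm
  intro h0
  exact hw0 (hw.trans (div_eq_zero_iff.2 (Or.inl ((congrArg _ h0).trans (map_zero _)))))

theorem h4FrB_v_map (h : IsDB b) (hS : Sgp g S) {a : R} (ha : a ≠ 0) :
    h4FrB_v h hS (algebraMap R F a) = -(dgr b a : ℤ) := by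
  have hd := h4_domain h hS
  have h1 := h4FrB_v_div (F := F) h hS ha one_ne_zero
  rw [map_one, div_one, h4FrB_dgr_one h hS] at h1
  rw [h1]
  push_cast
  ring

theorem h4FrB_frac' (h : IsDB b) (hS : Sgp g S) {w : F} (hw : w ≠ 0) :
    ∃ a c : R, a ≠ 0 ∧ c ≠ 0 ∧ w = algebraMap R F a / algebraMap R F c := by
  obtain ⟨a, c, hc, e⟩ := h4FrB_frac h hS w
  refine ⟨a, c, ?_, hc, e⟩
  rintro rfl
  rw [map_zero, zero_div] at e
  exact hw e

theorem h4FrB_v_mul (h : IsDB b) (hS : Sgp g S) {w w' : F} (hw : w ≠ 0) (hw' : w' ≠ 0) :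
    h4FrB_v h hS (w * w') = h4FrB_v h hS w + h4FrB_v h hS w' := by
  obtain ⟨a, c, ha, hc, rfl⟩ := h4FrB_frac' h hS hw
  obtain ⟨a', c', ha', hc', rfl⟩ := h4FrB_frac' h hS hw'
  have h1 := dgr_mul h hS ha ha'
  have h2 := dgr_mul h hS hc hc'
  have e : algebraMap R F a / algebraMap R F c * (algebraMap R F a' / algebraMap R F c') =
      algebraMap R F (a * a') / algebraMap R F (c * c') := by
    rw [map_mul, map_mul, div_mul_div_comm]
  rw [e, h4FrB_v_div h hS h1.1 h2.1, h4FrB_v_div h hS ha hc, h4FrB_v_div h hS ha' hc', h1.2, h2.2]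
  push_cast
  ring

theorem h4FrB_v_add (h : IsDB b) (hS : Sgp g S) {w w' : F} (hw : w ≠ 0) (hw' : w' ≠ 0)
    (hs : w + w' ≠ 0) :
    min (h4FrB_v h hS w) (h4FrB_v h hS w') ≤ h4FrB_v h hS (w + w') := by
  obtain ⟨a, c, ha, hc, rfl⟩ := h4FrB_frac' h hS hw
  obtain ⟨a', c', ha', hc', rfl⟩ := h4FrB_frac' h hS hw'
  have hinj := IsFractionRing.injective R F
  have hc1 : algebraMap R F c ≠ 0 := fun h0 => hc (hinj (by rw [h0, map_zero]))
  have hc1' : algebraMap R F c' ≠ 0 := fun h0 => hc' (hinj (by rw [h0, map_zero]))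
  have e : algebraMap R F a / algebraMap R F c + algebraMap R F a' / algebraMap R F c' =
      algebraMap R F (a * c' + c * a') / algebraMap R F (c * c') := by
    rw [map_add, map_mul, map_mul, map_mul, div_add_div _ _ hc1 hc1']
  rw [e] at hs
  have hn : a * c' + c * a' ≠ 0 := by
    intro h0
    rw [h0, map_zero, zero_div] at hs
    exact hs rfl
  have h1 := dgr_mul h hS hc hc'
  have h2 := dgr_mul h hS ha hc'
  have h3 := dgr_mul h hS hc ha'
  have h4 := dgr_add_le b (a * c') (c * a')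
  rw [e, h4FrB_v_div h hS hn h1.1, h4FrB_v_div h hS ha hc, h4FrB_v_div h hS ha' hc', h1.2]
  rw [h2.2, h3.2] at h4
  omega

theorem h4FrB_v_one (h : IsDB b) (hS : Sgp g S) : h4FrB_v h hS (1 : F) = 0 := by
  have h1 := h4FrB_v_mul (F := F) h hS one_ne_zero one_ne_zero
  rw [mul_one] at h1
  omega

theorem h4FrB_v_inv (h : IsDB b) (hS : Sgp g S) {w : F} (hw : w ≠ 0) :
    h4FrB_v h hS w⁻¹ = - h4FrB_v h hS w := by
  have h1 := h4FrB_v_mul (F := F) h hS hw (inv_ne_zero hw)
  rw [mul_inv_cancel₀ hw, h4FrB_v_one h hS] at h1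
  omega

theorem h4FrB_v_neg (h : IsDB b) (hS : Sgp g S) {w : F} (hw : w ≠ 0) :
    h4FrB_v h hS (-w) = h4FrB_v h hS w := by
  have hn : (-1 : F) ≠ 0 := neg_ne_zero.2 one_ne_zero
  have h1 := h4FrB_v_mul (F := F) h hS hn hn
  rw [neg_mul_neg, mul_one, h4FrB_v_one h hS] at h1
  have h2 := h4FrB_v_mul (F := F) h hS hn hw
  rw [neg_one_mul] at h2
  omega

/-- the valuation ring at infinity. -/
noncomputable def h4FrB_O (h : IsDB b) (hS : Sgp g S) : ValuationSubring F where
  carrier := {w | w = 0 ∨ 0 ≤ h4FrB_v h hS w}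
  mul_mem' := by
    rintro w w' hw hw'
    by_cases h1 : w = 0
    · left; rw [h1, zero_mul]
    by_cases h2 : w' = 0
    · left; rw [h2, mul_zero]
    right
    rw [h4FrB_v_mul h hS h1 h2]
    have h3 := hw.resolve_left h1
    have h4 := hw'.resolve_left h2
    omega
  one_mem' := Or.inr (h4FrB_v_one h hS).ge
  add_mem' := by
    rintro w w' hw hw'
    by_cases h1 : w = 0
    · rw [h1, zero_add]; exact hw'
    by_cases h2 : w' = 0
    · rw [h2, add_zero]; exact hw
    by_cases h5 : w + w' = 0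
    · exact Or.inl h5
    right
    have h3 := hw.resolve_left h1
    have h4 := hw'.resolve_left h2
    exact (le_min h3 h4).trans (h4FrB_v_add h hS h1 h2 h5)
  zero_mem' := Or.inl rfl
  neg_mem' := by
    rintro w hw
    by_cases h1 : w = 0
    · left; rw [h1, neg_zero]
    right
    rw [h4FrB_v_neg h hS h1]
    exact hw.resolve_left h1
  mem_or_inv_mem' := by
    intro w
    by_cases h1 : w = 0
    · exact Or.inl (Or.inl h1)
    · rcases le_or_gt 0 (h4FrB_v h hS w) with h2 | h2
      · exact Or.inl (Or.inr h2)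
      · right
        right
        rw [h4FrB_v_inv h hS h1]
        omega

theorem h4FrB_mem (h : IsDB b) (hS : Sgp g S) (w : F) :
    w ∈ h4FrB_O h hS ↔ w = 0 ∨ 0 ≤ h4FrB_v h hS w := Iff.rfl

theorem h4FrB_isOrd (h : IsDB b) (hS : Sgp g S) :
    IsOrd (h4FrB_O (F := F) h hS) (h4FrB_v h hS) where
  zero := h4FrB_v_zero h hS
  mul := fun _ _ hx hy => h4FrB_v_mul h hS hx hy
  add := fun _ _ hx hy hxy => h4FrB_v_add h hS hx hy hxy
  mem := fun _ => Iff.rfl
  one := by
    refine ⟨algebraMap R F (b ⟨2 * g, hS.large _ le_rfl⟩) /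
      algebraMap R F (b ⟨2 * g + 1, hS.large _ (by omega)⟩), ?_⟩
    rw [h4FrB_v_div h hS (b.ne_zero _) (b.ne_zero _), dgr_basis, dgr_basis]
    push_cast
    ring

end

variable {K R F : Type*} [Field K] [IsAlgClosed K] [CommRing R] [Algebra K R] [Field F]
  [Algebra R F] [IsFractionRing R F] [Algebra K F] [IsScalarTower K R F] {S : Set ℕ} {g : ℕ}
  {b : Module.Basis S K R} [CFF K F]

/-- the place at infinity. -/
theorem h4_place (h : IsDB b) (hS : Sgp g S) : ∃ P₀ : Plk K F,
    ∀ z : R, z ≠ 0 → ord P₀ (algebraMap R F z) = -(dgr b z : ℤ) := by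
  have hcst : ∀ a : K, algebraMap K F a ∈ h4FrB_O (F := F) h hS := by
    intro a
    rw [h4FrB_mem, IsScalarTower.algebraMap_apply K R F]
    by_cases h0 : algebraMap K R a = 0
    · left; rw [h0, map_zero]
    · right
      rw [h4FrB_v_map h hS h0, dgr_algebraMap h hS]
      simp
  have htop : h4FrB_O (F := F) h hS ≠ ⊤ := by
    intro ht
    have h1 : algebraMap R F (b ⟨2 * g + 1, hS.large _ (by omega)⟩) ∈ h4FrB_O (F := F) h hS := by
      rw [ht]
      trivial
    rw [h4FrB_mem, h4FrB_v_map h hS (b.ne_zero _), dgr_basis] at h1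
    rcases h1 with h1 | h1
    · exact b.ne_zero _ (IsFractionRing.injective R F (by rw [h1, map_zero]))
    · push_cast at h1
      omega
  let P₀ : Plk K F := ⟨h4FrB_O h hS, hcst, htop⟩
  have hord : ord P₀ = h4FrB_v h hS := IsOrd.unique (ord_spec P₀) (h4FrB_isOrd h hS)
  exact ⟨P₀, fun z hz => by rw [hord, h4FrB_v_map h hS hz]⟩

end Vale.Agent.P019P
end
end

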