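import Vale.Agent.P025.R2.H816.J06

/-! Carved out of `Vale.Agent.P019.Bd4` (function fields of one variable); generated file. -/

set_option linter.all false

attribute [local instance] O19.fr O19.tf O19.pj O19.fl

section

section

/-!
# Specialisation to closures of finite fields
-/

universe u

namespace Vale.Agent.P019P

theorem h4SysE_int : IsJacobsonRing ℤ := by
  rw [isJacobsonRing_iff_prime_eq]
  intro P hP
  by_cases h0 : P = ⊥
  · subst h0
    rw [eq_bot_iff]
    intro x hx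
    rw [Ideal.mem_jacobson_bot] at hx
    have h1 := hx x
    rw [Int.isUnit_iff] at h1
    have h2 : 0 ≤ x * x := mul_self_nonneg x
    have h3 : x * x = 0 := by omega
    have h4 : x = 0 := by simpa using h3
    simp [h4]
  · have : P.IsMaximal := IsPrime.to_maximal_ideal h0
    exact Ideal.jacobson_eq_self_of_isMaximal

theorem h4SysE_finite (L : Type u) [Field L] [Algebra.FiniteType ℤ L] : Finite L := by
  have := h4SysE_int
  have : Module.Finite ℤ L := finite_of_finite_type_of_isJacobsonRing ℤ L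
  obtain ⟨p, hp⟩ := CharP.exists L
  have hp0 : p ≠ 0 := by
    rintro rfl
    have : CharZero L := CharP.charP_to_charZero L
    have hi : Function.Injective (algebraMap ℤ L) := (algebraMap ℤ L).injective_int
    have := isField_of_isIntegral_of_isField (R := ℤ) (S := L) hi (Field.toIsField L)
    exact Int.not_isField this
  have : NeZero p := ⟨hp0⟩
  let _ : Algebra (ZMod p) L := ZMod.algebra L p
  have : IsScalarTower ℤ (ZMod p) L := by
    refine IsScalarTower.of_algebraMap_eq ?_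
    intro x
    simp
  have : Module.Finite (ZMod p) L := Module.Finite.of_restrictScalars_finite ℤ (ZMod p) L
  exact Module.finite_of_finite (ZMod p)

theorem h4SysE_quot (B L : Type u) [CommRing B] [Field L] [Algebra.FiniteType ℤ B] (g : B →+* L)
    (hg : Function.Surjective g) : Finite L := by
  have hg' : Function.Surjective g.toIntAlgHom := hg
  have : Algebra.FiniteType ℤ L := Algebra.FiniteType.of_surjective _ hg'
  exact h4SysE_finite L

theorem h4SysE_loc (A B L : Type u) [CommRing A] [Algebra.FiniteType ℤ A] [CommRing B]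
    [Algebra A B] [Field L] (δ : A) [IsLocalization.Away δ B] (g : B →+* L)
    (hg : Function.Surjective g) : Finite L := by
  have : Algebra.FinitePresentation A B := IsLocalization.Away.finitePresentation δ
  have : Algebra.FiniteType ℤ B := Algebra.FiniteType.trans (S := A) inferInstance inferInstance
  exact h4SysE_quot B L g hg

theorem h4SysE_tors (L : Type u) [Field L] [Finite L] (a : AlgebraicClosure L) (ha : a ≠ 0) :
    ∃ n : ℕ, 0 < n ∧ a ^ n = 1 := by
  have hint : IsIntegral L a := Algebra.IsIntegral.isIntegral a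
  have : FiniteDimensional L (IntermediateField.adjoin L {a}) :=
    IntermediateField.adjoin.finiteDimensional hint
  have : Finite (IntermediateField.adjoin L {a}) := Module.finite_of_finite L
  have := Fintype.ofFinite (IntermediateField.adjoin L {a})
  let b : IntermediateField.adjoin L {a} := IntermediateField.AdjoinSimple.gen L a
  have hb : b ≠ 0 := by
    intro h
    apply ha
    have := congrArg (fun z : IntermediateField.adjoin L {a} => (z : AlgebraicClosure L)) h
    simpa [b] using this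
  refine ⟨Fintype.card (IntermediateField.adjoin L {a}) - 1, ?_, ?_⟩
  · have := Fintype.one_lt_card (α := IntermediateField.adjoin L {a})
    omega
  · have h := FiniteField.pow_card_sub_one_eq_one b hb
    have := congrArg (fun z : IntermediateField.adjoin L {a} => (z : AlgebraicClosure L)) h
    simpa [b] using this

/-- specialisation to the algebraic closure of a finite field. -/
theorem exists_spec {A : Type u} [CommRing A] [IsDomain A] [Algebra.FiniteType ℤ A] {δ : A}
    (hδ : δ ≠ 0) : ∃ (κ : Type u) (_ : Field κ) (_ : Algebra A κ), IsAlgClosed κ ∧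
      (∀ a : κ, a ≠ 0 → ∃ n : ℕ, 0 < n ∧ a ^ n = 1) ∧ algebraMap A κ δ ≠ 0 := by
  have hle : Submonoid.powers δ ≤ nonZeroDivisors A := powers_le_nonZeroDivisors_of_noZeroDivisors hδ
  have : IsDomain (Localization.Away δ) := IsLocalization.isDomain_localization hle
  obtain ⟨M, hM⟩ := Ideal.exists_maximal (Localization.Away δ)
  have := hM
  let _ : Field (Localization.Away δ ⧸ M) := Ideal.Quotient.field M
  have : Finite (Localization.Away δ ⧸ M) :=
    h4SysE_loc A (Localization.Away δ) _ δ (Ideal.Quotient.mk M) Ideal.Quotient.mk_surjective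
  let f : A →+* AlgebraicClosure (Localization.Away δ ⧸ M) :=
    (algebraMap (Localization.Away δ ⧸ M) _).comp
      ((Ideal.Quotient.mk M).comp (algebraMap A (Localization.Away δ)))
  refine ⟨AlgebraicClosure (Localization.Away δ ⧸ M), inferInstance, f.toAlgebra, inferInstance,
    fun a ha => h4SysE_tors _ a ha, ?_⟩
  have hu : IsUnit (algebraMap A (Localization.Away δ) δ) :=
    IsLocalization.Away.algebraMap_isUnit δ
  have hu2 : IsUnit (f δ) := by
    have := (hu.map (Ideal.Quotient.mk M)).map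
      (algebraMap (Localization.Away δ ⧸ M) (AlgebraicClosure (Localization.Away δ ⧸ M)))
    exact this
  exact hu2.ne_zero

end Vale.Agent.P019P
end
end

section

section

/-!
# Finite systems of polynomial equations over a ring
-/

universe u

namespace Vale.Agent.P019P

section

variable {A₀ : Type u} [CommRing A₀] {ι : Type}

/-- predicates given by polynomial equations with coefficients in `A₀`. -/
def IsSys (Q : ∀ (A : Type u) [CommRing A] [Algebra A₀ A], (ι → A) → Prop) : Prop :=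
  ∃ E : Set (MvPolynomial ι A₀), ∀ (A : Type u) [CommRing A] [Algebra A₀ A] (t : ι → A),
    Q A t ↔ ∀ e ∈ E, MvPolynomial.aeval t e = 0

theorem IsSys.and {Q Q' : ∀ (A : Type u) [CommRing A] [Algebra A₀ A], (ι → A) → Prop}
    (h : IsSys Q) (h' : IsSys Q') :
    IsSys fun (A : Type u) [CommRing A] [Algebra A₀ A] (t : ι → A) => Q A t ∧ Q' A t := by
  obtain ⟨E, hE⟩ := h
  obtain ⟨E', hE'⟩ := h'
  refine ⟨E ∪ E', fun A _ _ t => ?_⟩
  beta_reduce
  rw [hE, hE']
  constructor
  · rintro ⟨h1, h2⟩ e (he | he)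
    · exact h1 e he
    · exact h2 e he
  · intro h
    exact ⟨fun e he => h e (Or.inl he), fun e he => h e (Or.inr he)⟩

theorem IsSys.all {J : Type*}
    {Q : J → ∀ (A : Type u) [CommRing A] [Algebra A₀ A], (ι → A) → Prop}
    (h : ∀ j, IsSys (Q j)) :
    IsSys fun (A : Type u) [CommRing A] [Algebra A₀ A] (t : ι → A) => ∀ j, Q j A t := by
  choose E hE using h
  refine ⟨⋃ j, E j, fun A _ _ t => ?_⟩
  constructor
  · intro h1 e he
    obtain ⟨j, hj⟩ := Set.mem_iUnion.mp he
    exact (hE j A t).mp (h1 j) e hj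
  · intro h1 j
    exact (hE j A t).mpr fun e he => h1 e (Set.mem_iUnion.mpr ⟨j, he⟩)

/-- natural functions are polynomial. -/
theorem isSys_scalar (G : ∀ (A : Type u) [CommRing A] [Algebra A₀ A], (ι → A) → A)
    (nat : ∀ (A A' : Type u) [CommRing A] [Algebra A₀ A] [CommRing A'] [Algebra A₀ A']
      (φ : A →ₐ[A₀] A') (t : ι → A), φ (G A t) = G A' fun i => φ (t i)) :
    IsSys fun (A : Type u) [CommRing A] [Algebra A₀ A] (t : ι → A) => G A t = 0 := by
  refine ⟨{G (MvPolynomial ι A₀) MvPolynomial.X}, fun A _ _ t => ?_⟩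
  have h := nat (MvPolynomial ι A₀) A (MvPolynomial.aeval t) MvPolynomial.X
  simp only [MvPolynomial.aeval_X] at h
  simp [h]

end

end Vale.Agent.P019P
end
end

section

section

/-!
# The systems of equations
-/

namespace Vale.Agent.P019P

open Polynomial IntermediateField TensorProduct

section

variable {A R : Type*} [CommRing A] [CommRing R] [Algebra A R] {S : Set ℕ}

/-! ### Inequivalent classes -/

/-- the unknowns of the linear criterion. -/
abbrev LU (S : Set ℕ) (n D : ℕ) : Type := SD S n ⊕ (Fin 2 × Fin 2 × SD S D)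

/-- the equations of the linear criterion. -/
abbrev LV (S : Set ℕ) (D : ℕ) : Type := Fin 2 × Fin 2 × SD S D

/-- the matrix of the linear criterion. -/
noncomputable def Lam (b : Module.Basis S A R) (ℓ n D E : ℕ) (f f' : R) (a a' : Fin 2 → R) :
    LU S n D → LV S E → A
  | Sum.inl d, e => b.repr (b d.ix * a' e.2.1 * a e.1 ^ (ℓ - 1)) e.2.2.ix
  | Sum.inr d, e => if d.1 = e.1 ∧ d.2.1 = e.2.1 then -b.repr (f * f' * b d.2.2.ix) e.2.2.ix
      else 0

/-- the index set for `N` inequivalent classes. -/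
abbrev IT (S : Set ℕ) (N n D E E' : ℕ) : Type :=
  (Fin N × Fin 4 × Fin 2 × SD S D) ⊕ (Fin N × Fin N × LU S n E × LV S E')

/-- an unknown function. -/
noncomputable def uT (b : Module.Basis S A R) {N n D E E' : ℕ} (t : IT S N n D E E' → A)
    (i : Fin N) (m : Fin 4) (j : Fin 2) : R :=
  el b fun d => t (Sum.inl (i, m, j, d))

/-- the equations for `N` inequivalent classes: the functions `uT t i 0 0` have degree `n`, they
have the data `uT t i m j`, `m = 1, 2, 3`, and the matrices of the linear criterion have left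
inverses. -/
structure QT (b : Module.Basis S A R) (ℓ N n D E E' : ℕ) (t : IT S N n D E E' → A) : Prop where
  deg : ∀ (i : Fin N) (d : SD S D), n ≤ (d.1 : ℕ) →
    t (Sum.inl (i, 0, 0, d)) = if (d.1 : ℕ) = n then 1 else 0
  jt : ∀ i : Fin N, JT ℓ (fun _ : Unit => (1 : R)) (uT b t i 0 0) (fun j => uT b t i 1 j)
    (fun _ j => uT b t i 2 j) fun _ j => uT b t i 3 j
  inv : ∀ i i' : Fin N, i ≠ i' → ∀ c c' : LU S n E,
    ∑ e : LV S E', t (Sum.inr (i, i', c, e)) * Lam b ℓ n E E' (uT b t i 0 0) (uT b t i' 0 0)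
      (fun j => uT b t i 1 j) (fun j => uT b t i' 1 j) c' e = if c = c' then 1 else 0

/-! ### Divisibility -/

/-- the index set for divisibility. -/
abbrev ID (S : Set ℕ) (D : ℕ) : Type := (Fin 4 × Fin 2 × Fin 2 × SD S D) ⊕ SD S D

/-- an unknown function. -/
noncomputable def uD (b : Module.Basis S A R) {D : ℕ} (t : ID S D → A) (m : Fin 4)
    (i j : Fin 2) : R :=
  el b fun d => t (Sum.inl (m, i, j, d))

/-- the equations for divisibility: the function `uD t 0 0 0` is nonzero and has the data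
`uD t m i j`, `m = 1, 2, 3`. -/
structure QD (b : Module.Basis S A R) (ℓ : ℕ) {D : ℕ} (p : Fin 2 → R) (t : ID S D → A) :
    Prop where
  jt : JT ℓ p (uD b t 0 0 0) (fun j => uD b t 1 0 j) (fun i j => uD b t 2 i j)
    fun i j => uD b t 3 i j
  one : ∑ d : SD S D, t (Sum.inr d) * t (Sum.inl (0, 0, 0, d)) = 1

/-! ### Missing functions -/

/-- the index set for missing functions. -/
abbrev IN (S : Set ℕ) (g D : ℕ) : Type := (Fin (g + 3) × SD S D) ⊕ SD S (2 * D)

/-- an unknown function. -/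
noncomputable def uN (b : Module.Basis S A R) {g D : ℕ} (t : IN S g D → A)
    (m : Fin (g + 3)) : R :=
  el b fun d => t (Sum.inl (m, d))

/-- the equations for missing functions: `a = uN t (g + 1)` and `q = uN t (g + 2)` satisfy a
homogeneous monic equation, and a functional kills the multiples of `q` but not `a`. -/
structure QN (b : Module.Basis S A R) {g D : ℕ} (t : IN S g D → A) : Prop where
  eq : uN b t ⟨g + 1, by omega⟩ ^ (g + 1) + ∑ m : Fin (g + 1), uN b t ⟨m, by omega⟩ *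
    uN b t ⟨g + 1, by omega⟩ ^ (m : ℕ) * uN b t ⟨g + 2, by omega⟩ ^ (g + 1 - (m : ℕ)) = 0
  ann : ∀ e : SD S D, ∑ d : SD S (2 * D), t (Sum.inr d) *
    b.repr (uN b t ⟨g + 2, by omega⟩ * b e.ix) d.ix = 0
  one : ∑ d : SD S (2 * D), t (Sum.inr d) * b.repr (uN b t ⟨g + 1, by omega⟩) d.ix = 1

end

end Vale.Agent.P019P
end
end

section

section

/-!
# Generic non-solvability
-/

universe u

namespace Vale.Agent.P019P

attribute [local instance] MvPolynomial.algebraMvPolynomial

theorem h4SysG_lift {K L k : Type*} [Field K] [Field L] [Field k] [IsAlgClosed k] [Algebra K L]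
    [Algebra K k] [Module.Finite K L] : Nonempty (L →ₐ[K] k) := ⟨IsAlgClosed.lift⟩

section

variable {A₀ : Type u} [CommRing A₀] {ι : Type} [Finite ι] [IsDomain A₀] {k : Type u} [Field k]
  [IsAlgClosed k] [Algebra A₀ k]
  {Q : ∀ (A : Type u) [CommRing A] [Algebra A₀ A], (ι → A) → Prop}

/-- no solution over an algebraically closed field: no generic solution. -/
theorem IsSys.gen (hQ : IsSys Q) (hinj : Function.Injective (algebraMap A₀ k))
    (h : ¬ ∃ t, Q k t) : ∃ δ : A₀, δ ≠ 0 ∧ ∀ (K : Type u) [Field K] [Algebra A₀ K],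
      algebraMap A₀ K δ ≠ 0 → ¬ ∃ t, Q K t := by
  obtain ⟨E, hE⟩ := hQ
  let K₀ := FractionRing A₀
  haveI : FaithfulSMul A₀ k := (faithfulSMul_iff_algebraMap_injective A₀ k).2 hinj
  letI : Algebra K₀ k := FractionRing.liftAlgebra A₀ k
  haveI : IsScalarTower A₀ K₀ k := FractionRing.isScalarTower_liftAlgebra A₀ k
  let I : Ideal (MvPolynomial ι A₀) := Ideal.span E
  let J : Ideal (MvPolynomial ι K₀) := I.map (algebraMap (MvPolynomial ι A₀) (MvPolynomial ι K₀))
  have hJ : J = ⊤ := by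
    by_contra hJ
    obtain ⟨M, hM, hJM⟩ := Ideal.exists_le_maximal J hJ
    letI : Field (MvPolynomial ι K₀ ⧸ M) := Ideal.Quotient.field M
    haveI : Module.Finite K₀ (MvPolynomial ι K₀ ⧸ M) :=
      finite_of_finite_type_of_isJacobsonRing K₀ (MvPolynomial ι K₀ ⧸ M)
    obtain ⟨φ⟩ : Nonempty ((MvPolynomial ι K₀ ⧸ M) →ₐ[K₀] k) := h4SysG_lift
    let ψ : MvPolynomial ι K₀ →ₐ[K₀] k := φ.comp (Ideal.Quotient.mkₐ K₀ M)
    apply h
    refine ⟨fun i => ψ (MvPolynomial.X i), ?_⟩
    rw [hE]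
    intro e he
    have h1 : ψ (algebraMap (MvPolynomial ι A₀) (MvPolynomial ι K₀) e) = 0 := by
      have h2 : algebraMap (MvPolynomial ι A₀) (MvPolynomial ι K₀) e ∈ M :=
        hJM (Ideal.mem_map_of_mem _ (Ideal.subset_span he))
      change φ (Ideal.Quotient.mk M _) = 0
      rw [Ideal.Quotient.eq_zero_iff_mem.2 h2, map_zero]
    rw [← h1]
    change MvPolynomial.aeval (fun i => ψ (MvPolynomial.X i)) e =
      ψ (MvPolynomial.map (algebraMap A₀ K₀) e)
    rw [← MvPolynomial.aeval_map_algebraMap K₀]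
    have h3 : MvPolynomial.aeval (fun i => ψ (MvPolynomial.X i)) = ψ := by
      rw [← MvPolynomial.comp_aeval, MvPolynomial.aeval_X_left, AlgHom.comp_id]
    rw [h3]
  have h1 : (1 : MvPolynomial ι K₀) ∈ J := by
    rw [hJ]
    trivial
  rw [IsLocalization.mem_map_algebraMap_iff
    ((nonZeroDivisors A₀).map (MvPolynomial.C (σ := ι)))] at h1
  obtain ⟨⟨⟨p, hp⟩, ⟨_, δ, hδ, rfl⟩⟩, hpδ⟩ := h1
  refine ⟨δ, nonZeroDivisors.ne_zero hδ, ?_⟩
  intro K _ _ hδK ⟨t, ht⟩
  apply hδK
  rw [hE] at ht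
  have h2 : I ≤ RingHom.ker (MvPolynomial.aeval t : MvPolynomial ι A₀ →ₐ[A₀] K) := by
    rw [Ideal.span_le]
    intro e he
    exact ht e he
  have h3 : p = MvPolynomial.C δ := by
    rw [one_mul] at hpδ
    exact (MvPolynomial.map_injective _ (IsFractionRing.injective A₀ K₀) hpδ).symm
  have h4 := h2 hp
  rw [h3, RingHom.mem_ker, MvPolynomial.aeval_C] at h4
  exact h4

end

end Vale.Agent.P019P
end
end

section

section

/-!
# Systems of equations in the base changes of a ring
-/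

universe u

namespace Vale.Agent.P019P

open Polynomial IntermediateField TensorProduct

section

variable {A₀ : Type u} [CommRing A₀] {R₀ : Type u} [CommRing R₀] [Algebra A₀ R₀]

/-- the map of the base changes. -/
noncomputable def bc (R₀ : Type u) [CommRing R₀] [Algebra A₀ R₀] {A A' : Type u} [CommRing A]
    [Algebra A₀ A] [CommRing A'] [Algebra A₀ A'] (φ : A →ₐ[A₀] A') :
    A ⊗[A₀] R₀ →+* A' ⊗[A₀] R₀ :=
  (Algebra.TensorProduct.map φ (AlgHom.id A₀ R₀) : A ⊗[A₀] R₀ →ₐ[A₀] A' ⊗[A₀] R₀)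

variable {A A' : Type u} [CommRing A] [Algebra A₀ A] [CommRing A'] [Algebra A₀ A']
  (φ : A →ₐ[A₀] A') {S : Set ℕ} (b : Module.Basis S A₀ R₀)

theorem bc_tmul (a : A) (r : R₀) : bc R₀ φ (a ⊗ₜ r) = φ a ⊗ₜ r := by
  change Algebra.TensorProduct.map φ (AlgHom.id A₀ R₀) (a ⊗ₜ r) = _
  rw [Algebra.TensorProduct.map_tmul, AlgHom.id_apply]

theorem bc_smul (a : A) (z : A ⊗[A₀] R₀) : bc R₀ φ (a • z) = φ a • bc R₀ φ z := by
  induction z using TensorProduct.induction_on with
  | zero => rw [smul_zero, map_zero, smul_zero]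
  | tmul x r =>
    rw [TensorProduct.smul_tmul', bc_tmul, bc_tmul, TensorProduct.smul_tmul', smul_eq_mul,
      map_mul, smul_eq_mul]
  | add x y hx hy => rw [smul_add, map_add, hx, hy, map_add, smul_add]

theorem bc_basis (d : S) : bc R₀ φ (b.baseChange A d) = b.baseChange A' d := by
  rw [Module.Basis.baseChange_apply, Module.Basis.baseChange_apply, bc_tmul, map_one]

theorem bc_el {D : ℕ} (t : SD S D → A) :
    bc R₀ φ (el (b.baseChange A) t) = el (b.baseChange A') fun d => φ (t d) := by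
  unfold el
  rw [map_sum]
  refine Finset.sum_congr rfl fun d _ => ?_
  rw [bc_smul, bc_basis]

theorem bc_repr (z : A ⊗[A₀] R₀) (d : S) :
    (b.baseChange A').repr (bc R₀ φ z) d = φ ((b.baseChange A).repr z d) := by
  induction z using TensorProduct.induction_on with
  | zero => rw [map_zero, map_zero, map_zero, Finsupp.zero_apply, Finsupp.zero_apply, map_zero]
  | tmul x r =>
    rw [bc_tmul, Module.Basis.baseChange_repr_tmul, Module.Basis.baseChange_repr_tmul, map_smul]
  | add x y hx hy =>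
    rw [map_add, map_add, map_add, Finsupp.add_apply, Finsupp.add_apply, hx, hy, map_add]

end

section

variable {A₀ : Type u} [CommRing A₀] {R₀ : Type u} [CommRing R₀] [Algebra A₀ R₀] {S : Set ℕ}
  {ι : Type}

/-- equations between natural scalars are systems. -/
theorem isSys_eq (G H : ∀ (A : Type u) [CommRing A] [Algebra A₀ A], (ι → A) → A)
    (nat : ∀ (A A' : Type u) [CommRing A] [Algebra A₀ A] [CommRing A'] [Algebra A₀ A']
      (φ : A →ₐ[A₀] A') (t : ι → A), φ (G A t) = G A' fun i => φ (t i))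
    (nat' : ∀ (A A' : Type u) [CommRing A] [Algebra A₀ A] [CommRing A'] [Algebra A₀ A']
      (φ : A →ₐ[A₀] A') (t : ι → A), φ (H A t) = H A' fun i => φ (t i)) :
    IsSys fun (A : Type u) [CommRing A] [Algebra A₀ A] (t : ι → A) => G A t = H A t := by
  obtain ⟨E, hE⟩ := isSys_scalar (A₀ := A₀) (ι := ι) (fun A _ _ t => G A t - H A t)
    (fun A A' _ _ _ _ φ t => by rw [map_sub, nat A A' φ t, nat' A A' φ t])
  exact ⟨E, fun A _ _ t => sub_eq_zero.symm.trans (hE A t)⟩

/-- equations between natural elements of the base changes are systems. -/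
theorem isSys_ring (b : Module.Basis S A₀ R₀)
    (X Y : ∀ (A : Type u) [CommRing A] [Algebra A₀ A], (ι → A) → A ⊗[A₀] R₀)
    (nat : ∀ (A A' : Type u) [CommRing A] [Algebra A₀ A] [CommRing A'] [Algebra A₀ A']
      (φ : A →ₐ[A₀] A') (t : ι → A), bc R₀ φ (X A t) = X A' fun i => φ (t i))
    (nat' : ∀ (A A' : Type u) [CommRing A] [Algebra A₀ A] [CommRing A'] [Algebra A₀ A']
      (φ : A →ₐ[A₀] A') (t : ι → A), bc R₀ φ (Y A t) = Y A' fun i => φ (t i)) :
    IsSys fun (A : Type u) [CommRing A] [Algebra A₀ A] (t : ι → A) => X A t = Y A t := by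
  obtain ⟨E, hE⟩ := IsSys.all (A₀ := A₀) (ι := ι) (J := S)
    (Q := fun d A _ _ t =>
      (b.baseChange A).repr (X A t) d = (b.baseChange A).repr (Y A t) d)
    (fun d => isSys_eq
      (fun A _ _ t => (b.baseChange A).repr (X A t) d)
      (fun A _ _ t => (b.baseChange A).repr (Y A t) d)
      (fun A A' _ _ _ _ φ t => by rw [← nat A A' φ t, bc_repr])
      (fun A A' _ _ _ _ φ t => by rw [← nat' A A' φ t, bc_repr]))
  refine ⟨E, fun A _ _ t => Iff.trans ?_ (hE A t)⟩
  constructor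
  · intro h d
    rw [h]
  · intro h
    exact (b.baseChange A).repr.injective (Finsupp.ext h)

end

end Vale.Agent.P019P
end
end

section

section

/-!
# The equations for divisibility and for missing functions are systems
-/

universe u

namespace Vale.Agent.P019P

open Polynomial IntermediateField TensorProduct

variable {A₀ : Type u} [CommRing A₀] {R₀ : Type u} [CommRing R₀] [Algebra A₀ R₀] {S : Set ℕ}

theorem h4DSys_congr {ι : Type}
    {Q Q' : ∀ (A : Type u) [CommRing A] [Algebra A₀ A], (ι → A) → Prop} (h : IsSys Q)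
    (hQ : ∀ (A : Type u) [CommRing A] [Algebra A₀ A] (t : ι → A), Q' A t ↔ Q A t) :
    IsSys Q' := by
  obtain ⟨E, hE⟩ := h
  exact ⟨E, fun A _ _ t => (hQ A t).trans (hE A t)⟩

theorem h4DSys_uD {A A' : Type u} [CommRing A] [Algebra A₀ A] [CommRing A'] [Algebra A₀ A']
    (φ : A →ₐ[A₀] A') (b : Module.Basis S A₀ R₀) {D : ℕ} (t : ID S D → A) (m : Fin 4)
    (i j : Fin 2) :
    bc R₀ φ (uD (b.baseChange A) t m i j) = uD (b.baseChange A') (fun x => φ (t x)) m i j :=
  bc_el φ b fun d => t (Sum.inl (m, i, j, d))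

theorem h4DSys_uN {A A' : Type u} [CommRing A] [Algebra A₀ A] [CommRing A'] [Algebra A₀ A']
    (φ : A →ₐ[A₀] A') (b : Module.Basis S A₀ R₀) {g D : ℕ} (t : IN S g D → A)
    (m : Fin (g + 3)) :
    bc R₀ φ (uN (b.baseChange A) t m) = uN (b.baseChange A') (fun x => φ (t x)) m :=
  bc_el φ b fun d => t (Sum.inl (m, d))

theorem isSys_QD (b : Module.Basis S A₀ R₀) (ℓ D : ℕ) (p : Fin 2 → R₀) :
    IsSys fun (A : Type u) [CommRing A] [Algebra A₀ A] (t : ID S D → A) =>
      QD (b.baseChange A) ℓ (fun i => (1 : A) ⊗ₜ[A₀] p i) t := by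
  have h1 : ∀ ij : Fin 2 × Fin 2,
      IsSys fun (A : Type u) [CommRing A] [Algebra A₀ A] (t : ID S D → A) =>
        ((1 : A) ⊗ₜ[A₀] p ij.1) * uD (b.baseChange A) t 1 0 ij.2 ^ ℓ =
          uD (b.baseChange A) t 0 0 0 * uD (b.baseChange A) t 2 ij.1 ij.2 := fun ij =>
    isSys_ring b
      (fun A _ _ t => ((1 : A) ⊗ₜ[A₀] p ij.1) * uD (b.baseChange A) t 1 0 ij.2 ^ ℓ)
      (fun A _ _ t => uD (b.baseChange A) t 0 0 0 * uD (b.baseChange A) t 2 ij.1 ij.2)
      (fun A A' _ _ _ _ φ t => by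
        rw [map_mul, map_pow, bc_tmul, map_one, h4DSys_uD])
      (fun A A' _ _ _ _ φ t => by
        rw [map_mul, h4DSys_uD, h4DSys_uD])
  have h2 : IsSys fun (A : Type u) [CommRing A] [Algebra A₀ A] (t : ID S D → A) =>
      ∑ i : Fin 2, ∑ j : Fin 2, uD (b.baseChange A) t 3 i j * uD (b.baseChange A) t 2 i j = 1 :=
    isSys_ring b
      (fun A _ _ t =>
        ∑ i : Fin 2, ∑ j : Fin 2, uD (b.baseChange A) t 3 i j * uD (b.baseChange A) t 2 i j)
      (fun A _ _ t => 1)
      (fun A A' _ _ _ _ φ t => by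
        simp only [map_sum, map_mul, h4DSys_uD])
      (fun A A' _ _ _ _ φ t => by rw [map_one])
  have h3 : IsSys fun (A : Type u) [CommRing A] [Algebra A₀ A] (t : ID S D → A) =>
      ∑ d : SD S D, t (Sum.inr d) * t (Sum.inl (0, 0, 0, d)) = 1 :=
    isSys_eq
      (fun A _ _ t => ∑ d : SD S D, t (Sum.inr d) * t (Sum.inl (0, 0, 0, d)))
      (fun A _ _ t => 1)
      (fun A A' _ _ _ _ φ t => by simp only [map_sum, map_mul])
      (fun A A' _ _ _ _ φ t => by rw [map_one])
  refine h4DSys_congr ((IsSys.all h1).and (h2.and h3)) fun A _ _ t => ?_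
  constructor
  · rintro ⟨⟨ha, hb⟩, hc⟩
    exact ⟨fun ij => ha ij.1 ij.2, hb, hc⟩
  · rintro ⟨ha, hb, hc⟩
    exact ⟨⟨fun i j => ha (i, j), hb⟩, hc⟩

theorem h4DSys_QN1 (b : Module.Basis S A₀ R₀) (g D : ℕ) :
    IsSys fun (A : Type u) [CommRing A] [Algebra A₀ A] (t : IN S g D → A) =>
      uN (b.baseChange A) t ⟨g + 1, by omega⟩ ^ (g + 1) +
        ∑ m : Fin (g + 1), uN (b.baseChange A) t ⟨m, by omega⟩ *
          uN (b.baseChange A) t ⟨g + 1, by omega⟩ ^ (m : ℕ) *
          uN (b.baseChange A) t ⟨g + 2, by omega⟩ ^ (g + 1 - (m : ℕ)) = 0 :=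
  isSys_ring b
    (fun A _ _ t => uN (b.baseChange A) t ⟨g + 1, by omega⟩ ^ (g + 1) +
      ∑ m : Fin (g + 1), uN (b.baseChange A) t ⟨m, by omega⟩ *
        uN (b.baseChange A) t ⟨g + 1, by omega⟩ ^ (m : ℕ) *
        uN (b.baseChange A) t ⟨g + 2, by omega⟩ ^ (g + 1 - (m : ℕ)))
    (fun A _ _ t => 0)
    (fun A A' _ _ _ _ φ t => by
      rw [map_add, map_pow, map_sum, h4DSys_uN]
      congr 1
      refine Finset.sum_congr rfl fun m _ => ?_
      rw [map_mul, map_mul, map_pow, map_pow, h4DSys_uN, h4DSys_uN, h4DSys_uN])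
    (fun A A' _ _ _ _ φ t => by rw [map_zero])

/-- the equations `ann`. -/
noncomputable def h4DSys_G2 (b : Module.Basis S A₀ R₀) (g D : ℕ) (e : SD S D) (A : Type u)
    [CommRing A] [Algebra A₀ A] (t : IN S g D → A) : A :=
  ∑ d : SD S (2 * D), t (Sum.inr d) *
    (b.baseChange A).repr (uN (b.baseChange A) t ⟨g + 2, by omega⟩ *
      (b.baseChange A) e.ix) d.ix

/-- the equation `one`. -/
noncomputable def h4DSys_G3 (b : Module.Basis S A₀ R₀) (g D : ℕ) (A : Type u)
    [CommRing A] [Algebra A₀ A] (t : IN S g D → A) : A :=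
  ∑ d : SD S (2 * D), t (Sum.inr d) *
    (b.baseChange A).repr (uN (b.baseChange A) t ⟨g + 1, by omega⟩) d.ix

theorem h4DSys_G2_nat (b : Module.Basis S A₀ R₀) (g D : ℕ) (e : SD S D) (A A' : Type u)
    [CommRing A] [Algebra A₀ A] [CommRing A'] [Algebra A₀ A'] (φ : A →ₐ[A₀] A')
    (t : IN S g D → A) :
    φ (h4DSys_G2 b g D e A t) = h4DSys_G2 b g D e A' fun i => φ (t i) := by
  unfold h4DSys_G2
  rw [map_sum]
  refine Finset.sum_congr rfl fun d _ => ?_
  rw [map_mul, ← bc_repr, map_mul, h4DSys_uN, bc_basis]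

theorem h4DSys_G3_nat (b : Module.Basis S A₀ R₀) (g D : ℕ) (A A' : Type u)
    [CommRing A] [Algebra A₀ A] [CommRing A'] [Algebra A₀ A'] (φ : A →ₐ[A₀] A')
    (t : IN S g D → A) :
    φ (h4DSys_G3 b g D A t) = h4DSys_G3 b g D A' fun i => φ (t i) := by
  unfold h4DSys_G3
  rw [map_sum]
  refine Finset.sum_congr rfl fun d _ => ?_
  rw [map_mul, ← bc_repr, h4DSys_uN]

theorem h4DSys_QN2 (b : Module.Basis S A₀ R₀) (g D : ℕ) (e : SD S D) :
    IsSys fun (A : Type u) [CommRing A] [Algebra A₀ A] (t : IN S g D → A) =>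
      h4DSys_G2 b g D e A t = 0 :=
  isSys_scalar (h4DSys_G2 b g D e)
    (fun A A' _ _ _ _ φ t => h4DSys_G2_nat b g D e A A' φ t)

theorem h4DSys_QN3 (b : Module.Basis S A₀ R₀) (g D : ℕ) :
    IsSys fun (A : Type u) [CommRing A] [Algebra A₀ A] (t : IN S g D → A) =>
      h4DSys_G3 b g D A t = 1 :=
  isSys_eq (h4DSys_G3 b g D) (fun A _ _ t => 1)
    (fun A A' _ _ _ _ φ t => h4DSys_G3_nat b g D A A' φ t)
    (fun A A' _ _ _ _ φ t => by rw [map_one])

theorem isSys_QN (b : Module.Basis S A₀ R₀) (g D : ℕ) :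
    IsSys fun (A : Type u) [CommRing A] [Algebra A₀ A] (t : IN S g D → A) =>
      QN (b.baseChange A) t := by
  refine h4DSys_congr ((h4DSys_QN1 b g D).and
    ((IsSys.all (h4DSys_QN2 b g D)).and (h4DSys_QN3 b g D))) fun A _ _ t => ?_
  constructor
  · rintro ⟨ha, hb, hc⟩
    exact ⟨ha, hb, hc⟩
  · rintro ⟨ha, hb, hc⟩
    exact ⟨ha, hb, hc⟩

end Vale.Agent.P019P
end
end

section

section

/-!
# Transfer of the solvability of finite systems of polynomial equations
-/

universe u

namespace Vale.Agent.P019P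

section

variable {A₀ : Type u} [CommRing A₀] {ι : Type} [Finite ι] [IsDomain A₀] {k : Type u} [Field k]
  [IsAlgClosed k] [Algebra A₀ k]
  {Q : ∀ (A : Type u) [CommRing A] [Algebra A₀ A], (ι → A) → Prop} [Algebra.FiniteType ℤ A₀]

/-- from closures of finite fields to `k`. -/
theorem IsSys.low (hQ : IsSys Q) (hinj : Function.Injective (algebraMap A₀ k)) {δ : A₀}
    (hδ : δ ≠ 0) (h : ∀ (κ : Type u) [Field κ] [IsAlgClosed κ] [Algebra A₀ κ],
      (∀ a : κ, a ≠ 0 → ∃ n : ℕ, 0 < n ∧ a ^ n = 1) → algebraMap A₀ κ δ ≠ 0 → ∃ t, Q κ t) :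
    ∃ t, Q k t := by
  by_contra hcon
  obtain ⟨δ', hδ', h'⟩ := hQ.gen hinj hcon
  obtain ⟨κ, _, _, _, h1, h2⟩ := exists_spec (A := A₀) (mul_ne_zero hδ hδ')
  rw [map_mul] at h2
  exact h' κ (right_ne_zero_of_mul h2) (h κ h1 (left_ne_zero_of_mul h2))

omit [IsDomain A₀] [IsAlgClosed k] in
/-- from `k` to the closure of a finite field. -/
theorem IsSys.up (hQ : IsSys Q) (hinj : Function.Injective (algebraMap A₀ k)) {δ : A₀}
    (hδ : δ ≠ 0) (h : ∃ t, Q k t) : ∃ (κ : Type u) (_ : Field κ) (_ : Algebra A₀ κ),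
      IsAlgClosed κ ∧ (∀ a : κ, a ≠ 0 → ∃ n : ℕ, 0 < n ∧ a ^ n = 1) ∧
        algebraMap A₀ κ δ ≠ 0 ∧ ∃ t, Q κ t := by
  obtain ⟨E, hE⟩ := hQ
  obtain ⟨t, ht⟩ := h
  let C : Subalgebra A₀ k := Algebra.adjoin A₀ (Set.range t)
  have : Algebra.FiniteType A₀ C :=
    (Subalgebra.fg_iff_finiteType _).mp ⟨(Set.finite_range t).toFinset, by simp [C]⟩
  have : Algebra.FiniteType ℤ C := Algebra.FiniteType.trans (S := A₀) inferInstance inferInstance
  have hδ' : algebraMap A₀ C δ ≠ 0 := by
    intro h0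
    apply hδ
    apply hinj
    rw [map_zero]
    have := congrArg (algebraMap C k) h0
    rwa [← IsScalarTower.algebraMap_apply, map_zero] at this
  obtain ⟨κ, _, _, h1, h2, h3⟩ := exists_spec (A := C) hδ'
  let _ : Algebra A₀ κ := ((algebraMap C κ).comp (algebraMap A₀ C)).toAlgebra
  have : IsScalarTower A₀ C κ := IsScalarTower.of_algebraMap_eq fun _ => rfl
  refine ⟨κ, inferInstance, inferInstance, h1, h2, ?_, ?_⟩
  · rw [IsScalarTower.algebraMap_apply A₀ C κ]
    exact h3
  · let t' : ι → C := fun i => ⟨t i, Algebra.subset_adjoin ⟨i, rfl⟩⟩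
    refine ⟨fun i => algebraMap C κ (t' i), (hE κ _).mpr fun e he => ?_⟩
    have h4 : MvPolynomial.aeval t' e = 0 := by
      have h6 : (algebraMap C k) (MvPolynomial.aeval t' e) = 0 := by
        rw [← MvPolynomial.aeval_algebraMap_apply]
        exact (hE k t).mp ht e he
      exact (FaithfulSMul.algebraMap_injective C k) (by rw [h6, map_zero])
    have h5 := MvPolynomial.aeval_algebraMap_apply (A := C) (B := κ) t' e
    rw [h4, map_zero] at h5
    exact h5

end

end Vale.Agent.P019P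
end
end

section

section

/-!
# The equations for inequivalent classes are a system
-/

universe u

namespace Vale.Agent.P019P

open Polynomial IntermediateField TensorProduct

variable {A₀ : Type u} [CommRing A₀] {R₀ : Type u} [CommRing R₀] [Algebra A₀ R₀] {S : Set ℕ}

theorem h4TSys_congr {ι : Type}
    {Q Q' : ∀ (A : Type u) [CommRing A] [Algebra A₀ A], (ι → A) → Prop} (h : IsSys Q)
    (hQ : ∀ (A : Type u) [CommRing A] [Algebra A₀ A] (t : ι → A), Q' A t ↔ Q A t) :
    IsSys Q' := by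
  obtain ⟨E, hE⟩ := h
  exact ⟨E, fun A _ _ t => (hQ A t).trans (hE A t)⟩

theorem h4TSys_uT {A A' : Type u} [CommRing A] [Algebra A₀ A] [CommRing A'] [Algebra A₀ A']
    (φ : A →ₐ[A₀] A') (b : Module.Basis S A₀ R₀) {N n D E E' : ℕ} (t : IT S N n D E E' → A)
    (i : Fin N) (m : Fin 4) (j : Fin 2) :
    bc R₀ φ (uT (b.baseChange A) t i m j) = uT (b.baseChange A') (fun x => φ (t x)) i m j :=
  bc_el φ b fun d => t (Sum.inl (i, m, j, d))

theorem h4TSys_Lam {A A' : Type u} [CommRing A] [Algebra A₀ A] [CommRing A'] [Algebra A₀ A']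
    (φ : A →ₐ[A₀] A') (b : Module.Basis S A₀ R₀) (ℓ n D E : ℕ) (f f' : A ⊗[A₀] R₀)
    (a a' : Fin 2 → A ⊗[A₀] R₀) (c : LU S n D) (e : LV S E) :
    φ (Lam (b.baseChange A) ℓ n D E f f' a a' c e) =
      Lam (b.baseChange A') ℓ n D E (bc R₀ φ f) (bc R₀ φ f') (fun j => bc R₀ φ (a j))
        (fun j => bc R₀ φ (a' j)) c e := by
  rcases c with d | d
  · simp only [Lam]
    rw [← bc_repr, RingHom.map_mul, RingHom.map_mul, RingHom.map_pow, bc_basis]
  · simp only [Lam]
    split_ifs with h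
    · rw [map_neg, ← bc_repr, RingHom.map_mul, RingHom.map_mul, bc_basis]
    · rw [map_zero]

/-- the left side of the equation `inv`. -/
noncomputable def h4TSys_G (b : Module.Basis S A₀ R₀) (ℓ N n D E E' : ℕ) (i i' : Fin N)
    (c c' : LU S n E) (A : Type u) [CommRing A] [Algebra A₀ A] (t : IT S N n D E E' → A) : A :=
  ∑ e : LV S E', t (Sum.inr (i, i', c, e)) * Lam (b.baseChange A) ℓ n E E'
    (uT (b.baseChange A) t i 0 0) (uT (b.baseChange A) t i' 0 0)
      (fun j => uT (b.baseChange A) t i 1 j) (fun j => uT (b.baseChange A) t i' 1 j) c' e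

theorem h4TSys_G_nat (b : Module.Basis S A₀ R₀) (ℓ N n D E E' : ℕ) (i i' : Fin N)
    (c c' : LU S n E) (A A' : Type u) [CommRing A] [Algebra A₀ A] [CommRing A'] [Algebra A₀ A']
    (φ : A →ₐ[A₀] A') (t : IT S N n D E E' → A) :
    φ (h4TSys_G b ℓ N n D E E' i i' c c' A t) =
      h4TSys_G b ℓ N n D E E' i i' c c' A' fun x => φ (t x) := by
  unfold h4TSys_G
  rw [map_sum]
  refine Finset.sum_congr rfl fun e _ => ?_
  rw [map_mul, h4TSys_Lam]
  simp only [h4TSys_uT]

theorem h4TSys_deg (N n D E E' : ℕ) (i : Fin N) (d : SD S D) :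
    IsSys fun (A : Type u) [CommRing A] [Algebra A₀ A] (t : IT S N n D E E' → A) =>
      t (Sum.inl (i, 0, 0, d)) = if (d.1 : ℕ) = n then 1 else 0 :=
  isSys_eq (fun A _ _ t => t (Sum.inl (i, 0, 0, d)))
    (fun A _ _ _ => if (d.1 : ℕ) = n then 1 else 0)
    (fun A A' _ _ _ _ φ t => rfl)
    (fun A A' _ _ _ _ φ t => by
      split_ifs
      · rw [map_one]
      · rw [map_zero])

theorem h4TSys_eq (b : Module.Basis S A₀ R₀) (ℓ N n D E E' : ℕ) (i : Fin N) (j : Fin 2) :
    IsSys fun (A : Type u) [CommRing A] [Algebra A₀ A] (t : IT S N n D E E' → A) =>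
      (1 : A ⊗[A₀] R₀) * uT (b.baseChange A) t i 1 j ^ ℓ =
        uT (b.baseChange A) t i 0 0 * uT (b.baseChange A) t i 2 j :=
  isSys_ring b
    (fun A _ _ t => (1 : A ⊗[A₀] R₀) * uT (b.baseChange A) t i 1 j ^ ℓ)
    (fun A _ _ t => uT (b.baseChange A) t i 0 0 * uT (b.baseChange A) t i 2 j)
    (fun A A' _ _ _ _ φ t => by rw [map_mul, map_pow, map_one, h4TSys_uT])
    (fun A A' _ _ _ _ φ t => by rw [map_mul, h4TSys_uT, h4TSys_uT])

theorem h4TSys_one (b : Module.Basis S A₀ R₀) (N n D E E' : ℕ) (i : Fin N) :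
    IsSys fun (A : Type u) [CommRing A] [Algebra A₀ A] (t : IT S N n D E E' → A) =>
      ∑ _ : Unit, ∑ j : Fin 2,
        uT (b.baseChange A) t i 3 j * uT (b.baseChange A) t i 2 j = 1 :=
  isSys_ring b
    (fun A _ _ t => ∑ _ : Unit, ∑ j : Fin 2,
      uT (b.baseChange A) t i 3 j * uT (b.baseChange A) t i 2 j)
    (fun A _ _ t => 1)
    (fun A A' _ _ _ _ φ t => by simp only [map_sum, map_mul, h4TSys_uT])
    (fun A A' _ _ _ _ φ t => by rw [map_one])

theorem h4TSys_inv (b : Module.Basis S A₀ R₀) (ℓ N n D E E' : ℕ) (i i' : Fin N)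
    (c c' : LU S n E) :
    IsSys fun (A : Type u) [CommRing A] [Algebra A₀ A] (t : IT S N n D E E' → A) =>
      h4TSys_G b ℓ N n D E E' i i' c c' A t = if c = c' then 1 else 0 :=
  isSys_eq (h4TSys_G b ℓ N n D E E' i i' c c') (fun A _ _ _ => if c = c' then 1 else 0)
    (fun A A' _ _ _ _ φ t => h4TSys_G_nat b ℓ N n D E E' i i' c c' A A' φ t)
    (fun A A' _ _ _ _ φ t => by
      split_ifs
      · rw [map_one]
      · rw [map_zero])

theorem isSys_QT (b : Module.Basis S A₀ R₀) (ℓ N n D E E' : ℕ) :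
    IsSys fun (A : Type u) [CommRing A] [Algebra A₀ A] (t : IT S N n D E E' → A) =>
      QT (b.baseChange A) ℓ N n D E E' t := by
  have h1 : IsSys fun (A : Type u) [CommRing A] [Algebra A₀ A] (t : IT S N n D E E' → A) =>
      ∀ x : {x : Fin N × SD S D // n ≤ (x.2.1 : ℕ)},
        t (Sum.inl (x.1.1, 0, 0, x.1.2)) = if (x.1.2.1 : ℕ) = n then 1 else 0 :=
    IsSys.all fun x => h4TSys_deg N n D E E' x.1.1 x.1.2
  have h2 : IsSys fun (A : Type u) [CommRing A] [Algebra A₀ A] (t : IT S N n D E E' → A) =>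
      ∀ x : Fin N × Fin 2, (1 : A ⊗[A₀] R₀) * uT (b.baseChange A) t x.1 1 x.2 ^ ℓ =
        uT (b.baseChange A) t x.1 0 0 * uT (b.baseChange A) t x.1 2 x.2 :=
    IsSys.all fun x => h4TSys_eq b ℓ N n D E E' x.1 x.2
  have h3 : IsSys fun (A : Type u) [CommRing A] [Algebra A₀ A] (t : IT S N n D E E' → A) =>
      ∀ i : Fin N, ∑ _ : Unit, ∑ j : Fin 2,
        uT (b.baseChange A) t i 3 j * uT (b.baseChange A) t i 2 j = 1 :=
    IsSys.all fun i => h4TSys_one b N n D E E' i
  have h4 : IsSys fun (A : Type u) [CommRing A] [Algebra A₀ A] (t : IT S N n D E E' → A) =>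
      ∀ x : {x : Fin N × Fin N × LU S n E × LU S n E // x.1 ≠ x.2.1},
        h4TSys_G b ℓ N n D E E' x.1.1 x.1.2.1 x.1.2.2.1 x.1.2.2.2 A t =
          if x.1.2.2.1 = x.1.2.2.2 then 1 else 0 :=
    IsSys.all fun x => h4TSys_inv b ℓ N n D E E' x.1.1 x.1.2.1 x.1.2.2.1 x.1.2.2.2
  refine h4TSys_congr (h1.and (h2.and (h3.and h4))) fun A _ _ t => ?_
  constructor
  · rintro ⟨ha, hb, hc⟩
    refine ⟨fun x => ha x.1.1 x.1.2 x.2, fun x => (hb x.1).eq () x.2, fun i => (hb i).one,
      fun x => hc x.1.1 x.1.2.1 x.2 x.1.2.2.1 x.1.2.2.2⟩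
  · rintro ⟨ha, hb, hc, hd⟩
    exact ⟨fun i d hd => ha ⟨(i, d), hd⟩, fun i => ⟨fun _ j => hb (i, j), hc i⟩,
      fun i i' hi c c' => hd ⟨(i, i', c, c'), hi⟩⟩

end Vale.Agent.P019P
end
end

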