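import Vale.Agent.P025.R2.H816.J07
import Vale.Agent.P025.R2.H816.J09

/-! Carved out of `Vale.Agent.P019.Bd4` (function fields of one variable); generated file. -/

set_option linter.all false

attribute [local instance] O19.fr O19.tf O19.pj O19.fl

section

section

/-!
# Consequences of the data
-/

namespace Vale.Agent.P019P

open Polynomial IntermediateField

variable {k F : Type*} [Field k] [Field F] [Algebra k F] [CFF k F]

theorem h4RRE_nonneg {P₀ P : Plk k F} (hP : P ≠ P₀) {z : F} (hz : z ∈ RO P₀) : 0 ≤ ord P z := by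
  rcases hz P hP with h | h
  · rw [h, ord_zero]
  · exact h

theorem h4RRE_le {ℓ : ℕ} {P₀ : Plk k F} {ι : Type} [Fintype ι] {p : ι → F} {f : F}
    (hf : f ≠ 0) {a : Fin 2 → F} {r s : ι → Fin 2 → F}
    (hr : ∀ i j, r i j ∈ RO P₀) (h : JT ℓ p f a r s) {P : Plk k F}
    (hP : P ≠ P₀) (i : ι) (j : Fin 2) (hi : p i ≠ 0) (hj : a j ≠ 0) :
    ord P f ≤ ord P (p i) + ℓ * ord P (a j) := by
  have h1 := h.eq i j
  have h2 : p i * a j ^ ℓ ≠ 0 := mul_ne_zero hi (pow_ne_zero _ hj)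
  have h3 : r i j ≠ 0 := by
    intro h0
    rw [h0, mul_zero] at h1
    exact h2 h1
  have h4 := congrArg (ord P) h1
  rw [ord_mul P hi (pow_ne_zero _ hj), ord_pow, ord_mul P hf h3] at h4
  have h5 := h4RRE_nonneg hP (hr i j)
  omega

theorem h4_conv {ℓ : ℕ} {P₀ : Plk k F} {ι : Type} [Fintype ι] {p : ι → F} {f : F}
    (hf : f ≠ 0) {a : Fin 2 → F} {r s : ι → Fin 2 → F} (hℓ : ℓ ≠ 0)
    (hr : ∀ i j, r i j ∈ RO P₀) (hs : ∀ i j, s i j ∈ RO P₀) (h : JT ℓ p f a r s) {P : Plk k F}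
    (hP : P ≠ P₀) :
    (∀ i j, p i ≠ 0 → a j ≠ 0 → ord P f ≤ ord P (p i) + ℓ * ord P (a j)) ∧
    ∃ i j, p i ≠ 0 ∧ a j ≠ 0 ∧ ord P f = ord P (p i) + ℓ * ord P (a j) ∧
      ∀ i', p i' ≠ 0 → ord P (p i) ≤ ord P (p i') := by
  have hle := h4RRE_le hf hr h hP
  refine ⟨hle, ?_⟩
  have hex : ∃ i j, s i j * r i j ∉ Mge P 1 := by
    by_contra hcon
    push Not at hcon
    have h1 : (1 : F) ∈ Mge P 1 := by
      rw [← h.one]
      exact Submodule.sum_mem _ fun i _ => Submodule.sum_mem _ fun j _ => hcon i j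
    rcases h1 with h1 | h1
    · exact one_ne_zero h1
    · rw [ord_one] at h1
      omega
  obtain ⟨i, j, hij⟩ := hex
  rw [mem_Mge, not_or, not_le] at hij
  obtain ⟨h0, h1⟩ := hij
  have hs0 : s i j ≠ 0 := left_ne_zero_of_mul h0
  have hr0 : r i j ≠ 0 := right_ne_zero_of_mul h0
  rw [ord_mul P hs0 hr0] at h1
  have h2 := h4RRE_nonneg hP (hs i j)
  have h3 := h4RRE_nonneg hP (hr i j)
  have h4 : ord P (r i j) = 0 := by omega
  have h5 := h.eq i j
  have h6 : p i * a j ^ ℓ ≠ 0 := by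
    rw [h5]
    exact mul_ne_zero hf hr0
  have hp0 : p i ≠ 0 := left_ne_zero_of_mul h6
  have ha0 : a j ≠ 0 := fun h7 => right_ne_zero_of_mul h6 (by rw [h7, zero_pow hℓ])
  have h7 := congrArg (ord P) h5
  rw [ord_mul P hp0 (pow_ne_zero _ ha0), ord_pow, ord_mul P hf hr0, h4, add_zero] at h7
  refine ⟨i, j, hp0, ha0, h7.symm, fun i' hi' => ?_⟩
  have h8 := hle i' j hi' ha0
  omega

theorem h4RRE_conv {ℓ : ℕ} {P₀ : Plk k F} {f : F} (hf : f ≠ 0) {a : Fin 2 → F}
    {r s : Unit → Fin 2 → F} (hℓ : ℓ ≠ 0) (hr : ∀ i j, r i j ∈ RO P₀)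
    (hs : ∀ i j, s i j ∈ RO P₀) (h : JT ℓ (fun _ : Unit => (1 : F)) f a r s) {P : Plk k F}
    (hP : P ≠ P₀) : ∃ j, a j ≠ 0 ∧ ord P f = ℓ * ord P (a j) := by
  obtain ⟨-, -, j, -, h1, h2, -⟩ := h4_conv hf hℓ hr hs h hP
  rw [ord_one, zero_add] at h2
  exact ⟨j, h1, h2⟩

/-- all orders are divisible by `ℓ`. -/
theorem h4_dvd {ℓ : ℕ} {P₀ : Plk k F} {f : F} (hf : f ≠ 0) {a : Fin 2 → F}
    {r s : Unit → Fin 2 → F} (hℓ : ℓ ≠ 0) (hr : ∀ i j, r i j ∈ RO P₀)
    (hs : ∀ i j, s i j ∈ RO P₀) (h : JT ℓ (fun _ : Unit => (1 : F)) f a r s) (P : Plk k F) :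
    (ℓ : ℤ) ∣ ord P f := by
  classical
  have key : ∀ Q : Plk k F, Q ≠ P₀ → (ℓ : ℤ) ∣ ord Q f := by
    intro Q hQ
    obtain ⟨j, -, hj⟩ := h4RRE_conv hf hℓ hr hs h hQ
    rw [hj]
    exact dvd_mul_right _ _
  by_cases hP : P = P₀
  · subst hP
    have h1 : dg (dv k f) = ∑ Q ∈ insert P (dv k f).support, dv k f Q :=
      dg_eq_sum fun Q hQ => Finsupp.notMem_support_iff.1 fun h2 =>
        hQ (Finset.mem_insert_of_mem h2)
    rw [dg_dv, ← Finset.add_sum_erase _ _ (Finset.mem_insert_self P _), dv_apply] at h1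
    have h2 : (ℓ : ℤ) ∣ ∑ Q ∈ (insert P (dv k f).support).erase P, dv k f Q := by
      refine Finset.dvd_sum fun Q hQ => ?_
      rw [dv_apply]
      exact key Q (Finset.ne_of_mem_erase hQ)
    rw [← dvd_add_left h2, ← h1]
    exact dvd_zero _
  · exact key P hP

/-- the linear criterion for inequivalence: no solutions. -/
theorem h4_inj {ℓ : ℕ} (hℓ : 2 ≤ ℓ) {P₀ : Plk k F} {f f' : F} (hf : f ≠ 0) (hf' : f' ≠ 0)
    (h0 : ord P₀ f = ord P₀ f') {a a' : Fin 2 → F} {r s r' s' : Unit → Fin 2 → F}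
    (hr : ∀ i j, r i j ∈ RO P₀) (hs : ∀ i j, s i j ∈ RO P₀) (hr' : ∀ i j, r' i j ∈ RO P₀)
    (hs' : ∀ i j, s' i j ∈ RO P₀) (hd : JT ℓ (fun _ : Unit => (1 : F)) f a r s)
    (hd' : JT ℓ (fun _ : Unit => (1 : F)) f' a' r' s')
    (hne : ¬ ∃ h : F, f = h ^ ℓ * f') {v : F} (hv0 : ord P₀ f' ≤ ord P₀ v)
    {w : Fin 2 → Fin 2 → F} (hw : ∀ i j, w i j ∈ RO P₀)
    (heq : ∀ i j, v * a' j * a i ^ (ℓ - 1) = f * f' * w i j) : v = 0 := by
  by_contra hv
  apply hne
  have hℓ0 : ℓ ≠ 0 := by omega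
  obtain ⟨m, rfl⟩ : ∃ m, ℓ = m + 1 := ⟨ℓ - 1, by omega⟩
  rw [Nat.add_sub_cancel] at heq
  have hm : 0 < (m : ℤ) + 1 := by positivity
  have hu0 : (v / f') ^ (m + 1) * f' / f ≠ 0 :=
    div_ne_zero (mul_ne_zero (pow_ne_zero _ (div_ne_zero hv hf')) hf') hf
  have hord : ∀ P : Plk k F, ord P ((v / f') ^ (m + 1) * f' / f) =
      (m + 1) * (ord P v - ord P f') + ord P f' - ord P f := by
    intro P
    rw [div_eq_mul_inv, ord_mul P (mul_ne_zero (pow_ne_zero _ (div_ne_zero hv hf')) hf')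
      (inv_ne_zero hf), ord_mul P (pow_ne_zero _ (div_ne_zero hv hf')) hf', ord_pow,
      div_eq_mul_inv, ord_mul P hv (inv_ne_zero hf'), ord_inv, ord_inv]
    push_cast
    ring
  have hu : (v / f') ^ (m + 1) * f' / f ∈ LL k (0 : Plk k F →₀ ℤ) := by
    right
    intro P
    rw [Finsupp.zero_apply, neg_zero, hord P]
    by_cases hP : P = P₀
    · subst hP
      rw [h0]
      have : 0 ≤ ((m : ℤ) + 1) * (ord P v - ord P f') := mul_nonneg hm.le (by omega)
      omega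
    · obtain ⟨i, hi0, hi⟩ := h4RRE_conv hf hℓ0 hr hs hd hP
      obtain ⟨j, hj0, hj⟩ := h4RRE_conv hf' hℓ0 hr' hs' hd' hP
      have h1 := heq i j
      have h2 : v * a' j * a i ^ m ≠ 0 := mul_ne_zero (mul_ne_zero hv hj0) (pow_ne_zero _ hi0)
      have h3 : w i j ≠ 0 := by
        intro h4
        rw [h4, mul_zero] at h1
        exact h2 h1
      have h4 := congrArg (ord P) h1
      rw [ord_mul P (mul_ne_zero hv hj0) (pow_ne_zero _ hi0), ord_mul P hv hj0, ord_pow,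
        ord_mul P (mul_ne_zero hf hf') h3, ord_mul P hf hf'] at h4
      have h5 := h4RRE_nonneg hP (hw i j)
      push_cast at hi hj
      have h6 : 0 ≤ ((m : ℤ) + 1) * (ord P v + ord P (a' j) + m * ord P (a i) - ord P f -
        ord P f') := mul_nonneg hm.le (by omega)
      have h7 : ((m : ℤ) + 1) * (ord P v + ord P (a' j) + m * ord P (a i) - ord P f -
        ord P f') = (m + 1) * (ord P v - ord P f') + ord P f' - ord P f := by
        rw [hi, hj]
        ring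
      rw [← h7]
      exact h6
  obtain ⟨c, hc⟩ := LL_zero_le hu
  have hac : IsAlgClosed k := CFF.ac F
  obtain ⟨d, hd1⟩ := IsAlgClosed.exists_pow_nat_eq c (Nat.succ_pos m)
  have hc0 : algebraMap k F c ≠ 0 := by rw [← hc]; exact hu0
  rw [← hd1, map_pow] at hc hc0
  have hd0 : algebraMap k F d ≠ 0 := fun h1 => hc0 (by rw [h1, zero_pow (Nat.succ_ne_zero m)])
  refine ⟨v / f' / algebraMap k F d, ?_⟩
  rw [div_eq_iff hf] at hc
  rw [div_pow, div_mul_eq_mul_div, hc, Nat.succ_eq_add_one,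
    mul_div_cancel_left₀ _ (pow_ne_zero _ hd0)]

/-- the linear criterion for inequivalence: solutions for equivalent functions. -/
theorem h4_equiv {ℓ : ℕ} (hℓ : 2 ≤ ℓ) {P₀ : Plk k F} {f f' : F} (hf : f ≠ 0) (hf' : f' ≠ 0)
    (hfR : f ∈ RO P₀) (hfR' : f' ∈ RO P₀) {n : ℕ} (h0 : ord P₀ f = -(n : ℤ))
    (h0' : ord P₀ f' = -(n : ℤ)) {a a' : Fin 2 → F} {r s r' s' : Unit → Fin 2 → F}
    (hr : ∀ i j, r i j ∈ RO P₀) (hr' : ∀ i j, r' i j ∈ RO P₀)
    (hd : JT ℓ (fun _ : Unit => (1 : F)) f a r s)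
    (hd' : JT ℓ (fun _ : Unit => (1 : F)) f' a' r' s') {D : ℕ} (ha : ∀ j, a j ∈ LP P₀ D)
    (ha' : ∀ j, a' j ∈ LP P₀ D) {h : F} (hh : f = h ^ ℓ * f') :
    ∃ v : F, v ∈ LP P₀ n ∧ v ≠ 0 ∧ ∃ w : Fin 2 → Fin 2 → F,
      (∀ i j, w i j ∈ LP P₀ (n + ℓ * D)) ∧
      ∀ i j, v * a' j * a i ^ (ℓ - 1) = f * f' * w i j := by
  obtain ⟨m, rfl⟩ : ∃ m, ℓ = m + 1 := ⟨ℓ - 1, by omega⟩
  rw [Nat.add_sub_cancel]
  have hm0 : m ≠ 0 := by omega
  have hm : 0 < (m : ℤ) + 1 := by positivity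
  have hh0 : h ≠ 0 := by
    rintro rfl
    rw [zero_pow (Nat.succ_ne_zero m), zero_mul] at hh
    exact hf hh
  have hord : ∀ P : Plk k F, ord P f = (m + 1) * ord P h + ord P f' := by
    intro P
    have h1 := congrArg (ord P) hh
    rw [ord_mul P (pow_ne_zero _ hh0) hf', ord_pow] at h1
    push_cast at h1
    exact h1
  have hhP : ord P₀ h = 0 := by
    have h1 := hord P₀
    rw [h0, h0'] at h1
    have h2 : ((m : ℤ) + 1) * ord P₀ h = 0 := by omega
    rcases mul_eq_zero.1 h2 with h3 | h3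
    · omega
    · exact h3
  have hpos : ∀ x : ℤ, 0 ≤ ((m : ℤ) + 1) * x → 0 ≤ x := fun x hx =>
    nonneg_of_mul_nonneg_right hx hm
  refine ⟨h * f', ?_, mul_ne_zero hh0 hf', fun i j => h * a' j * a i ^ m / f, ?_, ?_⟩
  · rw [mem_LP]
    refine ⟨fun P hP => Or.inr ?_, Or.inr ?_⟩
    · have h1 := h4RRE_nonneg hP hfR
      have h2 := h4RRE_nonneg hP hfR'
      rw [ord_mul P hh0 hf']
      apply hpos
      have h3 : ((m : ℤ) + 1) * (ord P h + ord P f') = ord P f + m * ord P f' := by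
        rw [hord P]
        ring
      rw [h3]
      positivity
    · rw [ord_mul P₀ hh0 hf', hhP, h0', zero_add]
  · intro i j
    change h * a' j * a i ^ m / f ∈ LP P₀ (n + (m + 1) * D)
    by_cases hi : a i = 0
    · rw [hi, zero_pow hm0, mul_zero, zero_div]
      exact zero_mem _
    by_cases hj : a' j = 0
    · rw [hj, mul_zero, zero_mul, zero_div]
      exact zero_mem _
    have how : ∀ P : Plk k F, ord P (h * a' j * a i ^ m / f) =
        ord P h + ord P (a' j) + m * ord P (a i) - ord P f := by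
      intro P
      rw [div_eq_mul_inv, ord_mul P (mul_ne_zero (mul_ne_zero hh0 hj) (pow_ne_zero _ hi))
        (inv_ne_zero hf), ord_mul P (mul_ne_zero hh0 hj) (pow_ne_zero _ hi),
        ord_mul P hh0 hj, ord_pow, ord_inv]
      ring
    rw [mem_LP]
    refine ⟨fun P hP => Or.inr ?_, Or.inr ?_⟩
    · have h1 := h4RRE_le hf hr hd hP () i one_ne_zero hi
      have h2 := h4RRE_le hf' hr' hd' hP () j one_ne_zero hj
      rw [ord_one, zero_add] at h1 h2
      push_cast at h1 h2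
      rw [how P]
      apply hpos
      have h3 : ((m : ℤ) + 1) * (ord P h + ord P (a' j) + m * ord P (a i) - ord P f) =
          ((m + 1) * ord P (a' j) - ord P f') + m * ((m + 1) * ord P (a i) - ord P f) := by
        have h4 := hord P
        linear_combination (-1 : ℤ) * h4
      rw [h3]
      have h5 : 0 ≤ (m : ℤ) * ((m + 1) * ord P (a i) - ord P f) :=
        mul_nonneg (by positivity) (by omega)
      omega
    · have h1 := ((mem_LP.1 (ha i)).2).resolve_left hi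
      have h2 := ((mem_LP.1 (ha' j)).2).resolve_left hj
      rw [how P₀, hhP, h0]
      have h3 : (m : ℤ) * (-(D : ℤ)) ≤ m * ord P₀ (a i) :=
        mul_le_mul_of_nonneg_left h1 (by positivity)
      push_cast
      have h4 : ((m : ℤ) + 1) * D = m * D + D := by ring
      rw [h4]
      rw [mul_neg] at h3
      omega
  · intro i j
    field_simp

end Vale.Agent.P019P
end
end

section

section

/-!
# Solutions give inequivalent classes
-/

namespace Vale.Agent.P019P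

open Polynomial IntermediateField TensorProduct

/-- transport of the data. -/
theorem h4TB_JT {R F : Type*} [CommRing R] [Field F] [Algebra R F] {ℓ : ℕ} {f : R}
    {a : Fin 2 → R} {r s : Unit → Fin 2 → R} (hd : JT ℓ (fun _ : Unit => (1 : R)) f a r s) :
    JT ℓ (fun _ : Unit => (1 : F)) (algebraMap R F f) (fun j => algebraMap R F (a j))
      (fun i j => algebraMap R F (r i j)) fun i j => algebraMap R F (s i j) where
  eq i j := by
    have h1 := congrArg (algebraMap R F) (hd.eq i j)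
    simpa only [map_mul, map_pow, map_one] using h1
  one := by
    have h1 := congrArg (algebraMap R F) hd.one
    simpa only [map_sum, map_mul, map_one] using h1

/-- the equations of the linear criterion. -/
theorem h4TB_lam {A R : Type*} [CommRing A] [CommRing R] [Algebra A R] {S : Set ℕ}
    (b : Module.Basis S A R) (ℓ n E E' : ℕ) (f f' : R) (a a' : Fin 2 → R) (tv : SD S n → A)
    (tw : Fin 2 → Fin 2 → SD S E → A)
    (h : ∀ i j, el b tv * a' j * a i ^ (ℓ - 1) = f * f' * el b (tw i j)) (e : LV S E') :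
    ∑ c : LU S n E, (Sum.elim tv fun q => tw q.1 q.2.1 q.2.2 : LU S n E → A) c *
      Lam b ℓ n E E' f f' a a' c e = 0 := by
  have h1 : ∑ d : SD S n, tv d * b.repr (b d.ix * a' e.2.1 * a e.1 ^ (ℓ - 1)) e.2.2.ix =
      b.repr (el b tv * a' e.2.1 * a e.1 ^ (ℓ - 1)) e.2.2.ix := by
    simp only [el, Finset.sum_mul, map_sum, Finsupp.finsetSum_apply, smul_mul_assoc, map_smul,
      Finsupp.smul_apply, smul_eq_mul]
  have h2 : ∑ q : Fin 2 × Fin 2 × SD S E, tw q.1 q.2.1 q.2.2 *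
      (if q.1 = e.1 ∧ q.2.1 = e.2.1 then -b.repr (f * f' * b q.2.2.ix) e.2.2.ix else 0) =
      -b.repr (f * f' * el b (tw e.1 e.2.1)) e.2.2.ix := by
    have h3 : ∀ q : Fin 2 × Fin 2 × SD S E, tw q.1 q.2.1 q.2.2 *
        (if q.1 = e.1 ∧ q.2.1 = e.2.1 then -b.repr (f * f' * b q.2.2.ix) e.2.2.ix else 0) =
        if q.1 = e.1 then (if q.2.1 = e.2.1 then
          tw q.1 q.2.1 q.2.2 * -b.repr (f * f' * b q.2.2.ix) e.2.2.ix else 0) else 0 := by
      intro q
      by_cases h4 : q.1 = e.1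
      · by_cases h5 : q.2.1 = e.2.1
        · rw [if_pos ⟨h4, h5⟩, if_pos h4, if_pos h5]
        · rw [if_neg fun h6 => h5 h6.2, if_pos h4, if_neg h5, mul_zero]
      · rw [if_neg fun h6 => h4 h6.1, if_neg h4, mul_zero]
    rw [Finset.sum_congr rfl fun q _ => h3 q, Fintype.sum_prod_type]
    simp only [Fintype.sum_prod_type]
    rw [Finset.sum_eq_single e.1]
    · rw [Finset.sum_eq_single e.2.1]
      · simp only [if_true, el, Finset.mul_sum, map_sum, Finsupp.finsetSum_apply,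
          mul_smul_comm, map_smul, Finsupp.smul_apply, smul_eq_mul, ← Finset.sum_neg_distrib,
          mul_neg]
      · intro j _ hj
        simp only [if_true, if_neg hj, Finset.sum_const_zero]
      · intro hj
        exact absurd (Finset.mem_univ _) hj
    · intro i _ hi
      simp only [if_neg hi, Finset.sum_const_zero]
    · intro hi
      exact absurd (Finset.mem_univ _) hi
  rw [Fintype.sum_sum_type]
  simp only [Sum.elim_inl, Sum.elim_inr, Lam]
  rw [h1, h2, h e.1 e.2.1, add_neg_cancel]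

variable {K R F : Type*} [Field K] [IsAlgClosed K] [CommRing R] [Algebra K R] [Field F]
  [Algebra R F] [IsFractionRing R F] [Algebra K F] [IsScalarTower K R F] {S : Set ℕ} {g : ℕ}
  {b : Module.Basis S K R} [CFF K F] {P₀ : Plk K F}

omit [IsAlgClosed K] in
/-- the degree. -/
theorem h4TB_dgr {n D : ℕ} (hnS : n ∈ S) (hnD : n ≤ D) {t : SD S D → K}
    (ht : ∀ d : SD S D, n ≤ (d.1 : ℕ) → t d = if (d.1 : ℕ) = n then 1 else 0) :
    el b t ≠ 0 ∧ dgr b (el b t) = n := by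
  have h1 : b.repr (el b t) ⟨n, hnS⟩ = 1 := by
    have h2 := repr_el b t ⟨⟨n, Nat.lt_succ_of_le hnD⟩, hnS⟩
    rw [ht _ le_rfl, if_pos rfl] at h2
    exact h2
  have h3 : el b t ≠ 0 := by
    intro h0
    rw [h0, map_zero, Finsupp.zero_apply] at h1
    exact zero_ne_one h1
  refine ⟨h3, le_antisymm ?_ ?_⟩
  · refine mem_fil_iff.1 fun f hf => ?_
    by_cases hfD : (f : ℕ) ≤ D
    · have h2 := repr_el b t ⟨⟨(f : ℕ), Nat.lt_succ_of_le hfD⟩, f.2⟩
      rw [ht _ hf.le, if_neg (Nat.ne_of_gt hf)] at h2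
      exact h2
    · exact el_mem b t f (not_le.1 hfD)
  · have h4 : (⟨n, hnS⟩ : S) ∈ (b.repr (el b t)).support := by
      rw [Finsupp.mem_support_iff, h1]
      exact one_ne_zero
    exact Finset.le_sup (f := fun f : S => (f : ℕ)) h4

theorem NC_of_QT (h : HM b g P₀) {ℓ : ℕ} (hℓ : 2 ≤ ℓ) {N n D E E' : ℕ} (hn : n = 2 * g * ℓ)
    (hD : D = 2 * n + 2 * g) (hE : E = n + ℓ * D) (hE' : E' = 2 * n + E)
    {t : IT S N n D E E' → K} (ht : QT b ℓ N n D E E' t) : NC ℓ K F N := by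
  have hdom : IsDomain R := h4_domain h.db h.sg
  have hinj : Function.Injective (algebraMap R F) := IsFractionRing.injective R F
  have hnS : n ∈ S := h.sg.large n (by
    rw [hn]
    exact Nat.le_mul_of_pos_right _ (by omega))
  have hnD : n ≤ D := by omega
  have hdeg : ∀ i, uT b t i 0 0 ≠ 0 ∧ dgr b (uT b t i 0 0) = n := fun i =>
    h4TB_dgr hnS hnD (ht.deg i)
  have hz : ∀ i, algebraMap R F (uT b t i 0 0) ≠ 0 := fun i h0 =>
    (hdeg i).1 (hinj (by rw [h0, map_zero]))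
  have hord : ∀ i, ord P₀ (algebraMap R F (uT b t i 0 0)) = -(n : ℤ) := fun i => by
    rw [h.ord _ (hdeg i).1, (hdeg i).2]
  have hLP : ∀ i m j, algebraMap R F (uT b t i m j) ∈ LP P₀ D := fun i m j =>
    h.mem_LP (el_mem b _)
  refine ⟨fun i => algebraMap R F (uT b t i 0 0), fun i => ⟨hz i, fun P => ?_⟩, ?_⟩
  · exact h4_dvd (P₀ := P₀) (hz i) (by omega) (fun i' j => h.mem_RO _) (fun i' j => h.mem_RO _)
      (h4TB_JT (ht.jt i)) P
  · rintro i i' hii ⟨u, hu⟩
    obtain ⟨v, hv, hv0, w, hw, hvw⟩ := h4_equiv (P₀ := P₀) hℓ (hz i) (hz i') (h.mem_RO _)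
      (h.mem_RO _) (hord i) (hord i') (fun i' j => h.mem_RO _) (fun i' j => h.mem_RO _)
      (h4TB_JT (ht.jt i)) (h4TB_JT (ht.jt i')) (D := D) (fun j => hLP i 1 j)
      (fun j => hLP i' 1 j) hu
    obtain ⟨zv, hzv, rfl⟩ := (h.mem_LP_iff _).1 hv
    obtain ⟨tv, rfl⟩ := exists_el hzv
    have hw' : ∀ i j, ∃ tw : SD S E → K, algebraMap R F (el b tw) = w i j := by
      intro i j
      obtain ⟨zw, hzw, hzw'⟩ := (h.mem_LP_iff _).1 (hw i j)
      rw [← hE] at hzw
      obtain ⟨tw, rfl⟩ := exists_el hzw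
      exact ⟨tw, hzw'⟩
    choose tw htw using hw'
    have key : ∀ i₁ j₁, el b tv * uT b t i' 1 j₁ * uT b t i 1 i₁ ^ (ℓ - 1) =
        uT b t i 0 0 * uT b t i' 0 0 * el b (tw i₁ j₁) := by
      intro i₁ j₁
      apply hinj
      rw [map_mul, map_mul, map_pow, map_mul, map_mul, htw]
      exact hvw i₁ j₁
    have h1 := h4_eq_zero (v := Lam b ℓ n E E' (uT b t i 0 0) (uT b t i' 0 0)
      (fun j => uT b t i 1 j) fun j => uT b t i' 1 j) (ht.inv i i' hii)
      (h4TB_lam b ℓ n E E' (uT b t i 0 0) (uT b t i' 0 0) (fun j => uT b t i 1 j)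
        (fun j => uT b t i' 1 j) tv tw key)
    have h2 : tv = fun _ => 0 := funext fun d => h1 (Sum.inl d)
    apply hv0
    rw [h2, el, Finset.sum_eq_zero fun d _ => zero_smul K (b d.ix), map_zero]

end Vale.Agent.P019P
end
end

section

section

/-!
# Divisibility
-/

namespace Vale.Agent.P019P

open Polynomial IntermediateField TensorProduct

variable {K R F : Type*} [Field K] [IsAlgClosed K] [CommRing R] [Algebra K R] [Field F]
  [Algebra R F] [IsFractionRing R F] [Algebra K F] [IsScalarTower K R F] {S : Set ℕ} {g : ℕ}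
  {b : Module.Basis S K R} [CFF K F] {P₀ : Plk K F}

/-- coordinates of functions of bounded degree. -/
theorem h4DA_exists (h : HM b g P₀) {n D : ℕ} (hn : n ≤ D) {w : F} (hw : w ∈ LP P₀ n) :
    ∃ t : SD S D → K, algebraMap R F (el b t) = w := by
  obtain ⟨z, hz, hzw⟩ := (h.mem_LP_iff w).1 (LP_mono P₀ hn hw)
  obtain ⟨t, ht⟩ := exists_el hz
  exact ⟨t, by rw [← ht, hzw]⟩

/-- divisible class groups give solutions. -/
theorem QD_of (h : HM b g P₀) {ℓ : ℕ} (hℓ : ℓ ≠ 0)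
    (hdiv : ∀ D : Plk K F →₀ ℤ, dg D = 0 → ∃ E : Plk K F →₀ ℤ, dg E = 0 ∧ D - ℓ • E ∈ prn K F)
    {M D : ℕ} {p : Fin 2 → R} (hp : ∀ i, p i ∈ fil b M) (hp0 : ∃ i, p i ≠ 0)
    (hD : D = M + ℓ * (4 * g) + 2 * g) : ∃ t : ID S D → K, QD b ℓ p t := by
  classical
  have hg := h.gen_eq
  have hinj : Function.Injective (algebraMap R F) := IsFractionRing.injective R F
  have hp' : ∀ i, algebraMap R F (p i) ∈ LP P₀ M := fun i => h.mem_LP (hp i)
  have hp0' : ∃ i, algebraMap R F (p i) ≠ 0 := by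
    obtain ⟨i, hi⟩ := hp0
    exact ⟨i, fun h0 => hi (hinj (by rw [h0, map_zero]))⟩
  obtain ⟨f, E, hf, hfL, hE, hE0, hEd, h1, h2⟩ := h4_div hℓ hdiv P₀ hp' hp0'
  obtain ⟨a, r, s, hJ, ha, hr, hs⟩ := h4_data hℓ P₀ hp' hf (mem_LP.1 hfL).1 hE hE0
    (e := 2 * g) (by rw [hEd, hg]; push_cast; exact le_rfl) h1 h2
  have hl1 : 1 * (4 * g) ≤ ℓ * (4 * g) := Nat.mul_le_mul_right _ (Nat.one_le_iff_ne_zero.2 hℓ)
  have hn1 : M + 2 * gen K F * ℓ ≤ D := by
    rw [hg, hD]
    have : 2 * g * ℓ ≤ ℓ * (4 * g) := by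
      rw [mul_comm]
      exact Nat.mul_le_mul_left _ (by omega)
    omega
  have hn2 : 2 * g + 2 * gen K F ≤ D := by rw [hg, hD]; omega
  have hn3 : M + ℓ * (2 * g + 2 * gen K F) ≤ D := by
    rw [hg, hD, show 2 * g + 2 * g = 4 * g by ring]; omega
  have hn4 : M + ℓ * (2 * g + 2 * gen K F) + 2 * gen K F ≤ D := by
    rw [hg, hD, show 2 * g + 2 * g = 4 * g by ring]
  obtain ⟨tf, htf⟩ := h4DA_exists h hn1 hfL
  choose ta hta using fun j => h4DA_exists h hn2 (ha j)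
  choose tr htr using fun i j => h4DA_exists h hn3 (hr i j)
  choose ts hts using fun i j => h4DA_exists h hn4 (hs i j)
  have hd0 : ∃ d, tf d ≠ 0 := by
    by_contra hcon
    push Not at hcon
    apply hf
    rw [← htf]
    have : el b tf = 0 := by
      unfold el
      exact Finset.sum_eq_zero fun d _ => by rw [hcon d, zero_smul]
    rw [this, map_zero]
  obtain ⟨d₀, hd₀⟩ := hd0
  refine ⟨Sum.elim (fun x => if x.1 = 0 then tf x.2.2.2 else if x.1 = 1 then ta x.2.2.1 x.2.2.2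
    else if x.1 = 2 then tr x.2.1 x.2.2.1 x.2.2.2 else ts x.2.1 x.2.2.1 x.2.2.2)
    (fun d => if d = d₀ then (tf d₀)⁻¹ else 0), ⟨⟨fun i j => hinj ?_, hinj ?_⟩, ?_⟩⟩
  · rw [map_mul, map_mul, map_pow]
    change algebraMap R F (p i) * algebraMap R F (el b (ta j)) ^ ℓ =
      algebraMap R F (el b tf) * algebraMap R F (el b (tr i j))
    rw [hta, htf, htr]
    exact hJ.eq i j
  · rw [map_one, map_sum, ← hJ.one]
    refine Finset.sum_congr rfl fun i _ => ?_
    rw [map_sum]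
    refine Finset.sum_congr rfl fun j _ => ?_
    rw [map_mul]
    change algebraMap R F (el b (ts i j)) * algebraMap R F (el b (tr i j)) = _
    rw [hts, htr]
  · rw [Finset.sum_eq_single d₀]
    · change (if d₀ = d₀ then (tf d₀)⁻¹ else 0) * tf d₀ = 1
      rw [if_pos rfl, inv_mul_cancel₀ hd₀]
    · intro d _ hd
      change (if d = d₀ then (tf d₀)⁻¹ else 0) * tf d = 0
      rw [if_neg hd, zero_mul]
    · intro hd
      exact absurd (Finset.mem_univ _) hd

/-- solutions give functions. -/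
theorem of_QD (h : HM b g P₀) {ℓ : ℕ} (hℓ : ℓ ≠ 0) {D : ℕ} {p : Fin 2 → R} {t : ID S D → K}
    (ht : QD b ℓ p t) : ∃ f : F, f ≠ 0 ∧ ∀ P : Plk K F, P ≠ P₀ → ∃ i, p i ≠ 0 ∧
      (∀ i', p i' ≠ 0 → ord P (algebraMap R F (p i)) ≤ ord P (algebraMap R F (p i'))) ∧
      (ℓ : ℤ) ∣ ord P f - ord P (algebraMap R F (p i)) := by
  have hinj : Function.Injective (algebraMap R F) := IsFractionRing.injective R F
  have hmap : ∀ z : R, z ≠ 0 ↔ algebraMap R F z ≠ 0 := fun z =>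
    not_congr (map_eq_zero_iff _ hinj).symm
  have hf : algebraMap R F (uD b t 0 0 0) ≠ 0 := by
    rw [← hmap]
    intro h0
    have h1 := ht.one
    rw [Finset.sum_eq_zero] at h1
    · exact zero_ne_one h1
    · intro d _
      have h2 := repr_el b (fun d => t (Sum.inl (0, 0, 0, d))) d
      change b.repr (uD b t 0 0 0) d.ix = _ at h2
      rw [h0, map_zero] at h2
      rw [← h2]
      exact mul_zero _
  refine ⟨_, hf, fun P hP => ?_⟩
  have hJ : JT ℓ (fun i => algebraMap R F (p i)) (algebraMap R F (uD b t 0 0 0))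
      (fun j => algebraMap R F (uD b t 1 0 j)) (fun i j => algebraMap R F (uD b t 2 i j))
      (fun i j => algebraMap R F (uD b t 3 i j)) := by
    refine ⟨fun i j => ?_, ?_⟩
    · rw [← map_pow, ← map_mul, ← map_mul]
      exact congrArg _ (ht.jt.eq i j)
    · have h1 := congrArg (algebraMap R F) ht.jt.one
      rw [map_one, map_sum] at h1
      rw [← h1]
      refine Finset.sum_congr rfl fun i _ => ?_
      rw [map_sum]
      exact Finset.sum_congr rfl fun j _ => (map_mul _ _ _).symm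
  obtain ⟨-, i, j, hi, hj, h1, h2⟩ := h4_conv hf hℓ (fun i j => h.mem_RO _)
    (fun i j => h.mem_RO _) hJ hP
  refine ⟨i, (hmap _).2 hi, fun i' hi' => h2 i' ((hmap _).1 hi'), ?_⟩
  rw [h1, add_sub_cancel_left]
  exact Dvd.intro _ rfl

end Vale.Agent.P019P
end
end

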