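import Vale.Agent.P025.R2.H816.J10

/-! Carved out of `Vale.Agent.P019.Bd4` (function fields of one variable); generated file. -/

set_option linter.all false

attribute [local instance] O19.fr O19.tf O19.pj O19.fl

section

section

/-!
# Inequivalent classes give solutions
-/

namespace Vale.Agent.P019P

open Polynomial IntermediateField TensorProduct

theorem h4TA_el {A R : Type*} [CommRing A] [CommRing R] [Algebra A R] {S : Set ℕ}
    {b : Module.Basis S A R} {D : ℕ} {z : R} (hz : z ∈ fil b D) :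
    el b (fun d : SD S D => b.repr z d.ix) = z := by
  obtain ⟨t, rfl⟩ := exists_el hz
  congr 1
  funext d
  exact repr_el b t d

/-- elements of bounded degree all of whose bounded coordinates vanish. -/
theorem h4TA_zero {A R : Type*} [CommRing A] [CommRing R] [Algebra A R] {S : Set ℕ}
    {b : Module.Basis S A R} {D : ℕ} {z : R} (hz : z ∈ fil b D)
    (h : ∀ d : SD S D, b.repr z d.ix = 0) : z = 0 := by
  rw [← h4TA_el hz, el]
  refine Finset.sum_eq_zero fun d _ => ?_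
  rw [h d, zero_smul]

theorem h4TA_pow {A R : Type*} [CommRing A] [CommRing R] [Algebra A R] {S : Set ℕ}
    {b : Module.Basis S A R} (h : IsDB b) (hS : 0 ∈ S) {m : ℕ} {z : R} (hz : z ∈ fil b m)
    (n : ℕ) : z ^ n ∈ fil b (n * m) := by
  induction n with
  | zero =>
    rw [pow_zero]
    exact fil_one h hS _
  | succ n ih =>
    rw [pow_succ, Nat.succ_mul]
    exact fil_mul h ih hz

/-- the divisor of a function with divisor divisible by `ℓ`. -/
theorem h4TA_div {k F : Type*} [Field k] [Field F] [Algebra k F] [CFF k F] {ℓ : ℕ} (hℓ : ℓ ≠ 0)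
    (P₀ : Plk k F) {f : F} (hfR : f ∈ RO P₀) (hf : f ≠ 0) {m : ℕ}
    (h0 : ord P₀ f = -((m * ℓ : ℕ) : ℤ)) (hd : ∀ P : Plk k F, (ℓ : ℤ) ∣ ord P f) :
    ∃ E : Plk k F →₀ ℤ, 0 ≤ E ∧ E P₀ = 0 ∧ dg E ≤ m ∧ ∀ P, P ≠ P₀ → ord P f = ℓ * E P := by
  classical
  have hℓ' : (0 : ℤ) < ℓ := by exact_mod_cast Nat.pos_of_ne_zero hℓ
  set E : Plk k F →₀ ℤ := ((dv k f).mapRange (fun a => a / (ℓ : ℤ)) (by simp)).erase P₀ with hE
  have h1 : ∀ P, P ≠ P₀ → ord P f = ℓ * E P := by
    intro P hP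
    rw [hE, Finsupp.erase_ne hP, Finsupp.mapRange_apply, dv_apply]
    exact (Int.mul_ediv_cancel' (hd P)).symm
  have h2 : E P₀ = 0 := by rw [hE, Finsupp.erase_same]
  have h3 : 0 ≤ E := by
    intro P
    by_cases hP : P = P₀
    · rw [hP, h2, Finsupp.zero_apply]
    · rw [Finsupp.zero_apply]
      have h4 := (mem_RO.1 hfR P hP).resolve_left hf
      rw [h1 P hP] at h4
      exact nonneg_of_mul_nonneg_right h4 hℓ'
  refine ⟨E, h3, h2, ?_, h1⟩
  have e1 : ℓ • E = dv k f + Finsupp.single P₀ ((m * ℓ : ℕ) : ℤ) := by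
    ext P
    rw [Finsupp.smul_apply, nsmul_eq_mul, Finsupp.add_apply, dv_apply]
    by_cases hP : P = P₀
    · rw [hP, h2, h0, Finsupp.single_eq_same]
      simp
    · rw [Finsupp.single_eq_of_ne hP, add_zero, h1 P hP]
  have e2 : (ℓ : ℤ) * dg E = (m * ℓ : ℕ) := by
    have e3 : dg (ℓ • E) = dg (dv k f + Finsupp.single P₀ ((m * ℓ : ℕ) : ℤ)) := by rw [e1]
    rw [map_nsmul, map_add, dg_dv, dg_sgl, nsmul_eq_mul, zero_add] at e3
    exact e3
  push_cast at e2
  have e4 : (ℓ : ℤ) * dg E = ℓ * m := by rw [e2]; ring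
  exact (mul_left_cancel₀ hℓ'.ne' e4).le

variable {K R F : Type*} [Field K] [IsAlgClosed K] [CommRing R] [Algebra K R] [Field F]
  [Algebra R F] [IsFractionRing R F] [Algebra K F] [IsScalarTower K R F] {S : Set ℕ} {g : ℕ}
  {b : Module.Basis S K R} [CFF K F] {P₀ : Plk K F}

/-- data in the model. -/
theorem h4TA_lift (h : HM b g P₀) {m n : ℕ} (hmn : m ≤ n) {w : F} (hw : w ∈ LP P₀ m) :
    ∃ z : R, z ∈ fil b n ∧ algebraMap R F z = w := by
  obtain ⟨z, hz, hzw⟩ := (h.mem_LP_iff w).1 hw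
  exact ⟨z, fil_mono b hmn hz, hzw⟩

theorem h4TA_data (h : HM b g P₀) {ℓ : ℕ} (hℓ : 2 ≤ ℓ) {n D : ℕ} (hn : n = 2 * g * ℓ)
    (hD : D = 2 * n + 2 * g) {z : F} (hz : z ≠ 0) (hd : ∀ P : Plk K F, (ℓ : ℤ) ∣ ord P z) :
    ∃ (f : R) (a r s : Fin 2 → R), f ≠ 0 ∧ dgr b f = n ∧
      (∀ d : S, (d : ℕ) = n → b.repr f d = 1) ∧
      JT ℓ (fun _ : Unit => (1 : R)) f a (fun _ => r) (fun _ => s) ∧ (∀ j, a j ∈ fil b D) ∧
      (∀ j, r j ∈ fil b D) ∧ (∀ j, s j ∈ fil b D) ∧
      ∃ y : F, y ≠ 0 ∧ algebraMap R F f = y ^ ℓ * z := by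
  have hℓ0 : ℓ ≠ 0 := by omega
  have hg := h.gen_eq
  have hinj : Function.Injective (algebraMap R F) := IsFractionRing.injective R F
  obtain ⟨x, hx0, hxR, hxo⟩ := h4_rep hℓ0 P₀ hz hd
  rw [hg, ← hn] at hxo
  obtain ⟨f0, hf0⟩ := h.full _ hxR
  have hf00 : f0 ≠ 0 := by
    rintro rfl
    rw [map_zero] at hf0
    exact mul_ne_zero hz (pow_ne_zero _ hx0) hf0.symm
  have hdg0 : dgr b f0 = n := by
    have h1 := h.ord f0 hf00
    rw [hf0, hxo] at h1
    omega
  obtain ⟨d, hd1, hd2⟩ := exists_lead (b := b) hf00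
  obtain ⟨e, he⟩ := IsAlgClosed.exists_pow_nat_eq (b.repr f0 d)⁻¹ (Nat.pos_of_ne_zero hℓ0)
  have he0 : e ≠ 0 := by
    rintro rfl
    rw [zero_pow hℓ0] at he
    exact inv_ne_zero hd2 he.symm
  set f : R := (b.repr f0 d)⁻¹ • f0 with hf
  have hfF : algebraMap R F f = (algebraMap K F e * x) ^ ℓ * z := by
    rw [hf, h4FrA_smul, hf0, ← he, Algebra.smul_def, mul_pow, map_pow]
    ring
  have hfn : f ∈ fil b n := Submodule.smul_mem _ _ (mem_fil_iff.2 hdg0.le)
  have hc : ∀ d' : S, (d' : ℕ) = n → b.repr f d' = 1 := by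
    intro d' hd'
    have h1 : d' = d := Subtype.ext (by rw [hd', hd1, hdg0])
    rw [h1, hf, map_smul, Finsupp.smul_apply, smul_eq_mul, inv_mul_cancel₀ hd2]
  have hfne : f ≠ 0 := by
    intro h1
    have h2 := hc d (by rw [hd1, hdg0])
    rw [h1, map_zero] at h2
    exact zero_ne_one h2
  have hdg : dgr b f = n := by
    refine le_antisymm (mem_fil_iff.1 hfn) ?_
    have h1 : b.repr f d ≠ 0 := by
      rw [hc d (by rw [hd1, hdg0])]
      exact one_ne_zero
    have h2 := Finset.le_sup (f := fun f : S => (f : ℕ)) (Finsupp.mem_support_iff.2 h1)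
    have h3 : (d : ℕ) ≤ dgr b f := h2
    omega
  have hy0 : algebraMap K F e * x ≠ 0 :=
    mul_ne_zero (fun h1 => he0 ((map_eq_zero _).1 h1)) hx0
  have hFne : algebraMap R F f ≠ 0 := fun h1 => hfne (hinj (by rw [h1, map_zero]))
  have hford : ord P₀ (algebraMap R F f) = -((2 * g * ℓ : ℕ) : ℤ) := by
    rw [h.ord f hfne, hdg, hn]
  have hdvd : ∀ P : Plk K F, (ℓ : ℤ) ∣ ord P (algebraMap R F f) := by
    intro P
    rw [hfF, ord_mul P (pow_ne_zero _ hy0) hz, ord_pow]
    exact dvd_add (dvd_mul_right _ _) (hd P)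
  obtain ⟨E, hE, hE0, hEd, hEo⟩ := h4TA_div hℓ0 P₀ (h.mem_RO f) hFne hford hdvd
  obtain ⟨a, r, s, hJ, ha, hr, hs⟩ := h4_data hℓ0 P₀ (ι := Unit) (p := fun _ => (1 : F)) (D := 0)
    (fun _ => LP_one P₀ 0) hFne (h.mem_RO f) hE hE0 hEd
    (fun P hP _ _ => by rw [ord_one, zero_add, hEo P hP])
    (fun P hP => ⟨(), one_ne_zero, by rw [ord_one, zero_add, hEo P hP]⟩)
  rw [hg] at ha hr hs
  have hDD : D = ℓ * (2 * g + 2 * g) + 2 * g := by
    rw [hD, hn]; ring
  have hle : 2 * g + 2 * g ≤ ℓ * (2 * g + 2 * g) := Nat.le_mul_of_pos_left _ (by omega)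
  choose a' ha' haF using fun j => h4TA_lift h (n := D) (by omega) (ha j)
  choose r' hr' hrF using fun j => h4TA_lift h (n := D) (by omega) (hr () j)
  choose s' hs' hsF using fun j => h4TA_lift h (n := D) (by omega) (hs () j)
  refine ⟨f, a', r', s', hfne, hdg, hc, ⟨?_, ?_⟩, ha', hr', hs', _, hy0, hfF⟩
  · intro i j
    apply hinj
    rw [map_mul, map_mul, map_pow, map_one, haF, hrF]
    exact hJ.eq i j
  · apply hinj
    rw [map_sum, map_one, ← hJ.one]
    refine Finset.sum_congr rfl fun i _ => ?_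
    rw [map_sum]
    refine Finset.sum_congr rfl fun j _ => ?_
    rw [map_mul, hsF, hrF]

omit [IsAlgClosed K] [IsFractionRing R F] [IsScalarTower K R F] [CFF K F] [Algebra R F]
  [Algebra K F] [Field F] in
theorem h4TA_rel {ℓ n E E' : ℕ} {f f' : R} {a a' : Fin 2 → R} {x : LU S n E → K}
    (hx : ∑ c, x c • (Lam b ℓ n E E' f f' a a' c : LV S E' → K) = 0) (i j : Fin 2)
    (d : SD S E') :
    b.repr (el b (fun e => x (Sum.inl e)) * a' j * a i ^ (ℓ - 1) -
      f * f' * el b (fun e => x (Sum.inr (i, j, e)))) d.ix = 0 := by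
  have h1 := congrFun hx (i, j, d)
  rw [Finset.sum_apply, Fintype.sum_sum_type, Pi.zero_apply] at h1
  simp only [Pi.smul_apply, smul_eq_mul, Lam] at h1
  rw [map_sub, Finsupp.sub_apply, sub_eq_zero]
  have e1 : b.repr (el b (fun e => x (Sum.inl e)) * a' j * a i ^ (ℓ - 1)) d.ix =
      ∑ e : SD S n, x (Sum.inl e) * b.repr (b e.ix * a' j * a i ^ (ℓ - 1)) d.ix := by
    rw [el, Finset.sum_mul, Finset.sum_mul, map_sum, Finsupp.finsetSum_apply]
    refine Finset.sum_congr rfl fun e _ => ?_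
    rw [smul_mul_assoc, smul_mul_assoc, map_smul, Finsupp.smul_apply, smul_eq_mul]
  have e2 : b.repr (f * f' * el b (fun e => x (Sum.inr (i, j, e)))) d.ix =
      ∑ e : SD S E, x (Sum.inr (i, j, e)) * b.repr (f * f' * b e.ix) d.ix := by
    rw [el, Finset.mul_sum, map_sum, Finsupp.finsetSum_apply]
    refine Finset.sum_congr rfl fun e _ => ?_
    rw [mul_smul_comm, map_smul, Finsupp.smul_apply, smul_eq_mul]
  have e3 : ∑ c : Fin 2 × Fin 2 × SD S E, x (Sum.inr c) *
      (if c.1 = i ∧ c.2.1 = j then -b.repr (f * f' * b c.2.2.ix) d.ix else 0) =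
      -∑ e : SD S E, x (Sum.inr (i, j, e)) * b.repr (f * f' * b e.ix) d.ix := by
    rw [Fintype.sum_prod_type, Finset.sum_eq_single i, Fintype.sum_prod_type,
      Finset.sum_eq_single j, ← Finset.sum_neg_distrib]
    · refine Finset.sum_congr rfl fun e _ => ?_
      rw [if_pos ⟨rfl, rfl⟩, mul_neg]
    · intro j' _ hj'
      refine Finset.sum_eq_zero fun e _ => ?_
      rw [if_neg (fun h => hj' h.2), mul_zero]
    · intro h
      exact absurd (Finset.mem_univ _) h
    · intro i' _ hi'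
      refine Finset.sum_eq_zero fun e _ => ?_
      rw [if_neg (fun h => hi' h.1), mul_zero]
    · intro h
      exact absurd (Finset.mem_univ _) h
  rw [e1, e2]
  rw [e3] at h1
  exact add_neg_eq_zero.1 h1

/-- the linear criterion. -/
theorem h4TA_indep (h : HM b g P₀) {ℓ : ℕ} (hℓ : 2 ≤ ℓ) {n D E E' : ℕ}
    (hE : E = n + ℓ * D) (hE' : E' = 2 * n + E) {f f' : R} (hf : f ≠ 0) (hf' : f' ≠ 0)
    (hd : dgr b f = n) (hd' : dgr b f' = n) {a a' r r' s s' : Fin 2 → R}
    (ha : ∀ j, a j ∈ fil b D) (ha' : ∀ j, a' j ∈ fil b D)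
    (hJ : JT ℓ (fun _ : Unit => (1 : R)) f a (fun _ => r) (fun _ => s))
    (hJ' : JT ℓ (fun _ : Unit => (1 : R)) f' a' (fun _ => r') (fun _ => s'))
    (hne : ¬ ∃ x : F, algebraMap R F f = x ^ ℓ * algebraMap R F f') :
    LinearIndependent K (Lam b ℓ n E E' f f' a a' : LU S n E → LV S E' → K) := by
  classical
  have hdom := h4_domain h.db h.sg
  have hinj : Function.Injective (algebraMap R F) := IsFractionRing.injective R F
  rw [Fintype.linearIndependent_iff]
  intro x hx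
  have hfn : f ∈ fil b n := mem_fil_iff.2 hd.le
  have hfn' : f' ∈ fil b n := mem_fil_iff.2 hd'.le
  have hvn : el b (fun e => x (Sum.inl e)) ∈ fil b n := el_mem _ _
  have heq : ∀ i j, el b (fun e => x (Sum.inl e)) * a' j * a i ^ (ℓ - 1) =
      f * f' * el b (fun e => x (Sum.inr (i, j, e))) := by
    intro i j
    rw [← sub_eq_zero]
    refine h4TA_zero (b := b) (D := E') (Submodule.sub_mem _ ?_ ?_) (h4TA_rel hx i j)
    · have h1 := fil_mul h.db (fil_mul h.db hvn (ha' j)) (h4TA_pow h.db h.sg.zero (ha i) (ℓ - 1))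
      refine fil_mono b ?_ h1
      have h2 : ℓ * D = D + (ℓ - 1) * D := by
        obtain ⟨m, rfl⟩ : ∃ m, ℓ = m + 1 := ⟨ℓ - 1, by omega⟩
        rw [Nat.add_sub_cancel]
        ring
      omega
    · have h1 := fil_mul h.db (fil_mul h.db hfn hfn') (el_mem b fun e => x (Sum.inr (i, j, e)))
      refine fil_mono b ?_ h1
      omega
  have hJF : ∀ {f : R} {a r s : Fin 2 → R},
      JT ℓ (fun _ : Unit => (1 : R)) f a (fun _ => r) (fun _ => s) →
      JT ℓ (fun _ : Unit => (1 : F)) (algebraMap R F f) (fun j => algebraMap R F (a j))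
        (fun _ j => algebraMap R F (r j)) (fun _ j => algebraMap R F (s j)) := by
    intro f a r s hJ
    refine ⟨fun i j => ?_, ?_⟩
    · have h1 := congrArg (algebraMap R F) (hJ.eq i j)
      rw [map_mul, map_mul, map_pow, map_one] at h1
      exact h1
    · have h1 := congrArg (algebraMap R F) hJ.one
      rw [map_sum, map_one] at h1
      rw [← h1]
      refine Finset.sum_congr rfl fun i _ => ?_
      rw [map_sum]
      refine Finset.sum_congr rfl fun j _ => ?_
      rw [map_mul]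
  have hne0 : ∀ {z : R}, z ≠ 0 → algebraMap R F z ≠ 0 := fun hz h1 =>
    hz (hinj (by rw [h1, map_zero]))
  have hv0 : ord P₀ (algebraMap R F f') ≤
      ord P₀ (algebraMap R F (el b (fun e => x (Sum.inl e)))) := by
    rw [h.ord f' hf', hd']
    rcases (mem_LP.1 (h.mem_LP hvn)).2 with h1 | h1
    · rw [h1, ord_zero]
      omega
    · exact h1
  have hv := h4_inj hℓ (hne0 hf) (hne0 hf') (by rw [h.ord f hf, h.ord f' hf', hd, hd'])
    (fun _ _ => h.mem_RO _) (fun _ _ => h.mem_RO _) (fun _ _ => h.mem_RO _)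
    (fun _ _ => h.mem_RO _) (hJF hJ) (hJF hJ') hne hv0
    (w := fun i j => algebraMap R F (el b (fun e => x (Sum.inr (i, j, e)))))
    (fun _ _ => h.mem_RO _) (fun i j => by
      have h1 := congrArg (algebraMap R F) (heq i j)
      rw [map_mul, map_mul, map_mul, map_mul, map_pow] at h1
      exact h1)
  have hv' : el b (fun e => x (Sum.inl e)) = 0 := hinj (by rw [hv, map_zero])
  have hw : ∀ i j, el b (fun e => x (Sum.inr (i, j, e))) = 0 := by
    intro i j
    have h1 := heq i j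
    rw [hv', zero_mul, zero_mul] at h1
    exact (mul_eq_zero.1 h1.symm).resolve_left (mul_ne_zero hf hf')
  rintro (d | ⟨i, j, d⟩)
  · have h1 := repr_el b (fun e => x (Sum.inl e)) d
    rw [hv', map_zero] at h1
    exact h1.symm
  · have h1 := repr_el b (fun e => x (Sum.inr (i, j, e))) d
    rw [hw, map_zero] at h1
    exact h1.symm

theorem QT_of_NC (h : HM b g P₀) {ℓ : ℕ} (hℓ : 2 ≤ ℓ) {N n D E E' : ℕ} (hn : n = 2 * g * ℓ)
    (hD : D = 2 * n + 2 * g) (hE : E = n + ℓ * D) (hE' : E' = 2 * n + E) (hN : NC ℓ K F N) :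
    ∃ t : IT S N n D E E' → K, QT b ℓ N n D E E' t := by
  classical
  obtain ⟨z, hz, hzz⟩ := hN
  choose f a r s hf hdg hc hJ ha hr hs y hy hfy using
    fun i => h4TA_data h hℓ hn hD (hz i).1 (hz i).2
  have hne : ∀ i i', i ≠ i' → ¬ ∃ x : F, algebraMap R F (f i) = x ^ ℓ * algebraMap R F (f i') := by
    rintro i i' hi ⟨x, hx⟩
    refine hzz i i' hi ⟨x * y i' / y i, ?_⟩
    rw [hfy, hfy] at hx
    rw [div_pow, mul_pow, div_mul_eq_mul_div, eq_div_iff (pow_ne_zero _ (hy i))]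
    linear_combination hx
  have hW : ∀ i i', ∃ W : LU S n E → LV S E' → K, i ≠ i' → ∀ c c' : LU S n E,
      ∑ e : LV S E', W c e * Lam b ℓ n E E' (f i) (f i') (a i) (a i') c' e =
        if c = c' then 1 else 0 := by
    intro i i'
    by_cases hi : i = i'
    · exact ⟨0, fun h1 => absurd hi h1⟩
    · obtain ⟨W, hW⟩ := h4_leftinv (h4TA_indep h hℓ hE hE' (hf i) (hf i') (hdg i) (hdg i')
        (ha i) (ha i') (hJ i) (hJ i') (hne i i' hi))
      exact ⟨W, fun _ => hW⟩
  choose W hW using hW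
  set G : Fin N → Fin 4 → Fin 2 → R := fun i m j => ![f i, a i j, r i j, s i j] m with hG
  have hGm : ∀ i m j, G i m j ∈ fil b D := by
    intro i m j
    have h0 : f i ∈ fil b D := fil_mono b (by omega) (mem_fil_iff.2 (hdg i).le)
    fin_cases m
    · exact h0
    · exact ha i j
    · exact hr i j
    · exact hs i j
  set t : IT S N n D E E' → K := Sum.elim (fun q => b.repr (G q.1 q.2.1 q.2.2.1) q.2.2.2.ix)
    (fun q => W q.1 q.2.1 q.2.2.1 q.2.2.2) with ht
  have hu : ∀ i m j, uT b t i m j = G i m j := fun i m j => (h4TA_el (hGm i m j) :)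
  have hu0 : ∀ i, uT b t i 0 0 = f i := fun i => hu i 0 0
  have hu1 : ∀ i, (fun j => uT b t i 1 j) = a i := fun i => funext fun j => hu i 1 j
  have hu2 : ∀ i, (fun j => uT b t i 2 j) = r i := fun i => funext fun j => hu i 2 j
  have hu3 : ∀ i, (fun j => uT b t i 3 j) = s i := fun i => funext fun j => hu i 3 j
  refine ⟨t, ⟨?_, ?_, ?_⟩⟩
  · intro i d hd
    change b.repr (f i) d.ix = _
    by_cases hdn : (d.1 : ℕ) = n
    · rw [if_pos hdn]
      exact hc i d.ix hdn
    · rw [if_neg hdn]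
      exact mem_fil.1 (mem_fil_iff.2 (hdg i).le) d.ix (lt_of_le_of_ne hd (Ne.symm hdn))
  · intro i
    rw [hu0, hu1, hu2, hu3]
    exact hJ i
  · intro i i' hi c c'
    rw [hu0, hu0, hu1, hu1]
    exact hW i i' hi c c'

end Vale.Agent.P019P
end
end

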