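import Vale.Agent.P025.R2.H816.J05

/-! Carved out of `Vale.Agent.P019.Bd4` (function fields of one variable); generated file. -/

set_option linter.all false

attribute [local instance] O19.fr O19.tf O19.pj O19.fl

section

section

/-!
# Lang's lemma: a nonzero fixed vector of a semilinear map
-/

namespace Vale.Agent.P019P

namespace AuxFLang1

open Polynomial

variable {k : Type*} [Field k]

/-- The coefficient polynomials: `f 0 = c 0 X^Q`, `f (i+1) = (f i)^Q + c (i+1) X^Q`. -/
noncomputable def f (Q : ℕ) (c : ℕ → k) : ℕ → k[X]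
  | 0 => C (c 0) * X ^ Q
  | i + 1 => f Q c i ^ Q + C (c (i + 1)) * X ^ Q

theorem dvd_f {Q : ℕ} (hQ : 2 ≤ Q) (c : ℕ → k) (i : ℕ) : (X : k[X]) ^ 2 ∣ f Q c i := by
  have h2 : (X : k[X]) ^ 2 ∣ X ^ Q := pow_dvd_pow _ hQ
  induction i with
  | zero => exact Dvd.dvd.mul_left h2 _
  | succ i ih => exact dvd_add (dvd_pow ih (by omega)) (Dvd.dvd.mul_left h2 _)

theorem natDegree_f {Q : ℕ} (hQ : 2 ≤ Q) {c : ℕ → k} (hc : c 0 ≠ 0) (i : ℕ) :
    2 ≤ (f Q c i).natDegree := by
  induction i with
  | zero =>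
    rw [f, natDegree_C_mul_X_pow _ _ hc]
    exact hQ
  | succ i ih =>
    have h1 : (C (c (i + 1)) * X ^ Q : k[X]).natDegree < (f Q c i ^ Q).natDegree := by
      refine lt_of_le_of_lt (natDegree_C_mul_X_pow_le _ _) ?_
      rw [natDegree_pow]
      nlinarith
    rw [f, natDegree_add_eq_left_of_natDegree_lt h1, natDegree_pow]
    nlinarith

theorem exists_fix [IsAlgClosed k] {Q : ℕ} (hQ : 2 ≤ Q) {c : ℕ → k} (hc : c 0 ≠ 0) (i : ℕ) :
    ∃ x : k, x ≠ 0 ∧ (f Q c i).eval x = x := by
  obtain ⟨h, hh⟩ := dvd_f hQ c i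
  have hh0 : h ≠ 0 := by
    rintro rfl
    have := natDegree_f hQ hc i
    rw [hh, mul_zero, natDegree_zero] at this
    omega
  have hd : (X * h - 1 : k[X]).degree ≠ 0 := by
    have h1 : (1 : k[X]).degree < (X * h).degree := by
      rw [degree_one, degree_mul, degree_X, degree_eq_natDegree hh0]
      exact_mod_cast (by omega : 0 < 1 + h.natDegree)
    rw [degree_sub_eq_left_of_degree_lt h1]
    rw [degree_one] at h1
    exact h1.ne'
  obtain ⟨x, hx⟩ := IsAlgClosed.exists_root _ hd
  rw [IsRoot.def, eval_sub, eval_mul, eval_X, eval_one, sub_eq_zero] at hx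
  refine ⟨x, ?_, ?_⟩
  · rintro rfl
    simp at hx
  · rw [hh, eval_mul, eval_pow, eval_X, sq, mul_assoc, hx, mul_one]

end AuxFLang1

section lang

variable {k V : Type*} [Field k] [IsAlgClosed k] [AddCommGroup V] [Module k V]

open AuxFLang1 in
/-- a nonzero fixed vector. -/
theorem lang_exists {p n : ℕ} [Fact p.Prime] [CharP k p] (hn : 0 < n) [FiniteDimensional k V]
    (φ : V →+ V) (hinj : Function.Injective φ)
    (hφ : ∀ (a : k) (v : V), φ (a • v) = a ^ (p ^ n) • φ v) [Nontrivial V] :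
    ∃ v : V, v ≠ 0 ∧ φ v = v := by
  classical
  set Q := p ^ n with hQdef
  have hQ : 2 ≤ Q := le_trans (Fact.out : p.Prime).two_le (Nat.le_self_pow (by omega) p)
  obtain ⟨v, hv⟩ := exists_ne (0 : V)
  set e : ℕ → V := fun i => φ^[i] v with he
  have hs : ∀ i, φ (e i) = e (i + 1) := fun i => (Function.iterate_succ_apply' φ i v).symm
  have hex : ∃ r : ℕ, ¬ LinearIndependent k (fun i : Fin r => e i) := by
    refine ⟨Module.finrank k V + 1, fun h => ?_⟩
    have := h.fintype_card_le_finrank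
    simp at this
  have hr := Nat.find_spec hex
  have hmin := fun m => Nat.find_min hex (m := m)
  set r := Nat.find hex with hrdef
  obtain ⟨s, hs1⟩ : ∃ s, r = s + 1 := by
    refine ⟨r - 1, ?_⟩
    have : r ≠ 0 := by
      intro h0
      rw [h0] at hr
      exact hr linearIndependent_empty_type
    omega
  have hLI : LinearIndependent k (fun i : Fin s => e i) := not_not.1 (hmin s (by omega))
  have hspan : e s ∈ Submodule.span k (Set.range fun i : Fin s => e i) := by
    by_contra hcon
    rw [hs1] at hr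
    apply hr
    rw [linearIndependent_finSucc']
    refine ⟨?_, ?_⟩
    · exact hLI
    · have e1 : (Fin.init fun i : Fin (s + 1) => e i) = fun i : Fin s => e i := by
        funext i
        simp [Fin.init]
      rw [e1]
      simpa using hcon
  obtain ⟨m, rfl⟩ : ∃ m, s = m + 1 := by
    refine ⟨s - 1, ?_⟩
    have : s ≠ 0 := by
      rintro rfl
      have h1 : (Set.range fun i : Fin 0 => e i) = ∅ := Set.range_eq_empty _
      rw [h1, Submodule.span_empty, Submodule.mem_bot] at hspan
      exact hv hspan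
    omega
  obtain ⟨c₀, hc₀⟩ := (Submodule.mem_span_range_iff_exists_fun k).1 hspan
  set c : ℕ → k := fun i => if h : i < m + 1 then c₀ ⟨i, h⟩ else 0 with hcdef
  have hc : e (m + 1) = ∑ i ∈ Finset.range (m + 1), c i • e i := by
    rw [← hc₀, ← Fin.sum_univ_eq_sum_range (fun i => c i • e i) (m + 1)]
    refine Finset.sum_congr rfl fun i _ => ?_
    simp only [hcdef, i.2, dif_pos]
  -- the powers of `φ` on combinations
  have hsum : ∀ (x : ℕ → k) (N : ℕ), φ (∑ i ∈ Finset.range N, x i • e i) =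
      ∑ i ∈ Finset.range N, x i ^ Q • e (i + 1) := by
    intro x N
    rw [map_sum]
    exact Finset.sum_congr rfl fun i _ => by rw [hφ, hs]
  have hc0 : c 0 ≠ 0 := by
    intro h0
    have hroot : ∀ a : k, ∃ d : k, d ^ Q = a := fun a =>
      IsAlgClosed.exists_pow_nat_eq a (by omega)
    choose ρ hρ using hroot
    have h1 : φ (e m) = φ (∑ i ∈ Finset.range m, ρ (c (i + 1)) • e i) := by
      rw [hs, hc, Finset.sum_range_succ', h0, zero_smul, add_zero,
        hsum (fun i => ρ (c (i + 1)))]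
      exact Finset.sum_congr rfl fun i _ => by rw [hρ]
    have h2 := hinj h1
    have h3 := (linearIndependent_finSucc'.1 hLI).2
    apply h3
    have e1 : (Fin.init fun i : Fin (m + 1) => e i) = fun i : Fin m => e i := by
      funext i
      simp [Fin.init]
    rw [e1, Fin.val_last, h2]
    refine Submodule.sum_mem _ fun i hi => Submodule.smul_mem _ _ (Submodule.subset_span ?_)
    exact ⟨⟨i, Finset.mem_range.1 hi⟩, rfl⟩
  obtain ⟨x₀, hx₀, hfix⟩ := exists_fix hQ hc0 m
  set x : ℕ → k := fun i => (f Q c i).eval x₀ with hx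
  have hxm : x m = x₀ := hfix
  have hx0 : x 0 = c 0 * x₀ ^ Q := by simp [hx, f]
  have hxs : ∀ i, x (i + 1) = x i ^ Q + c (i + 1) * x₀ ^ Q := by
    intro i
    simp [hx, f]
  refine ⟨∑ i ∈ Finset.range (m + 1), x i • e i, ?_, ?_⟩
  · intro h0
    rw [← Fin.sum_univ_eq_sum_range (fun i => x i • e i) (m + 1)] at h0
    have h1 := Fintype.linearIndependent_iff.1 hLI (fun i => x i) h0 (Fin.last m)
    simp only [Fin.val_last] at h1
    exact hx₀ (hxm ▸ h1)
  · rw [hsum, Finset.sum_range_succ, hxm, hc, Finset.smul_sum, Finset.sum_range_succ',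
      Finset.sum_range_succ' (fun i => x i • e i), hx0]
    simp only [hxs, smul_smul]
    rw [← add_assoc, ← Finset.sum_add_distrib]
    congr 1
    · refine Finset.sum_congr rfl fun i _ => ?_
      rw [add_smul, mul_comm (c (i + 1))]
    · rw [mul_comm]

end lang

end Vale.Agent.P019P
end
end

section

section

/-!
# Lang's lemma: fixed vectors of semilinear maps
-/

namespace Vale.Agent.P019P

namespace AuxFLang

open Polynomial

/-- the fixed field has `p ^ n` elements. -/
theorem card_fixed {k : Type*} [Field k] [IsAlgClosed k] {p n : ℕ} [Fact p.Prime] [CharP k p]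
    (hn : 0 < n) : Nat.card {a : k // a ^ (p ^ n) = a} = p ^ n := by
  classical
  have hp : 1 < p := (Fact.out : p.Prime).one_lt
  have hdeg : (X ^ (p ^ n) - X : k[X]).natDegree = p ^ n :=
    FiniteField.X_pow_card_pow_sub_X_natDegree_eq k hn.ne' hp
  have hne : (X ^ (p ^ n) - X : k[X]) ≠ 0 :=
    FiniteField.X_pow_card_pow_sub_X_ne_zero k hn.ne' hp
  have hsep : (X ^ (p ^ n) - X : k[X]).Separable :=
    galois_poly_separable p (p ^ n) (dvd_pow_self p hn.ne')
  have h1 := card_rootSet_eq_natDegree (K := k) hsep (IsAlgClosed.splits _)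
  rw [hdeg, ← Nat.card_eq_fintype_card] at h1
  refine (Nat.card_congr (Equiv.subtypeEquivRight fun a => ?_)).trans h1
  rw [mem_rootSet_of_ne hne]
  simp [sub_eq_zero]

theorem exists_pow_sub {k : Type*} [Field k] [IsAlgClosed k] {Q : ℕ} (hQ : 1 < Q) (b : k) :
    ∃ a : k, a ^ Q - a = b := by
  have hdeg : (X ^ Q - X - C b : k[X]).degree ≠ 0 := by
    have h1 : (X ^ Q - X - C b : k[X]).natDegree = Q := by
      have h2 : (X ^ Q - X - C b : k[X]) = X ^ Q - (X + C b) := by ring
      rw [h2, natDegree_sub_eq_left_of_natDegree_lt]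
      · simp
      · rw [natDegree_X_add_C, natDegree_X_pow]; exact hQ
    intro h
    have h3 : (X ^ Q - X - C b : k[X]).natDegree = 0 :=
      natDegree_eq_zero_iff_degree_le_zero.2 h.le
    omega
  obtain ⟨a, ha⟩ := IsAlgClosed.exists_root _ hdeg
  refine ⟨a, ?_⟩
  simp only [IsRoot.def, eval_sub, eval_pow, eval_X, eval_C] at ha
  exact sub_eq_zero.1 ha

end AuxFLang

section lang

variable {k V : Type*} [Field k] [IsAlgClosed k] [AddCommGroup V] [Module k V]

/-- the number of fixed vectors. -/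
theorem lang_card {p n : ℕ} [Fact p.Prime] [CharP k p] (hn : 0 < n) [FiniteDimensional k V]
    (φ : V →+ V) (hinj : Function.Injective φ)
    (hφ : ∀ (a : k) (v : V), φ (a • v) = a ^ (p ^ n) • φ v) :
    Nat.card {v : V // φ v = v} = (p ^ n) ^ Module.finrank k V := by
  obtain ⟨d, hd⟩ : ∃ d, d = Module.finrank k V := ⟨_, rfl⟩
  induction d generalizing V with
  | zero =>
    have hsub : Subsingleton V := Module.finrank_zero_iff.1 hd.symm
    rw [← hd, pow_zero, Nat.card_eq_one_iff_unique]
    exact ⟨inferInstance, ⟨⟨0, map_zero φ⟩⟩⟩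
  | succ d ih =>
    have hQ : 1 < p ^ n := Nat.one_lt_pow hn.ne' (Fact.out : p.Prime).one_lt
    have hnt : Nontrivial V := Module.nontrivial_of_finrank_pos (R := k) (by omega)
    obtain ⟨v, hv0, hv⟩ := lang_exists hn φ hinj hφ
    set S : Submodule k V := Submodule.span k {v} with hS
    have hφS : ∀ w ∈ S, φ w ∈ S := by
      intro w hw
      obtain ⟨a, rfl⟩ := Submodule.mem_span_singleton.1 hw
      rw [hφ, hv]
      exact Submodule.smul_mem _ _ (Submodule.mem_span_singleton_self v)
    let ψ : (V ⧸ S) →+ (V ⧸ S) := QuotientAddGroup.lift S.toAddSubgroup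
      ((S.mkQ.toAddMonoidHom).comp φ) (by
        intro w hw
        have h1 : φ w ∈ S := hφS w hw
        change S.mkQ (φ w) = 0
        rw [Submodule.mkQ_apply, Submodule.Quotient.mk_eq_zero]
        exact h1)
    have hψ : ∀ w, ψ (S.mkQ w) = S.mkQ (φ w) := fun w => rfl
    have hψs : ∀ (a : k) (x : V ⧸ S), ψ (a • x) = a ^ (p ^ n) • ψ x := by
      intro a x
      obtain ⟨w, rfl⟩ := S.mkQ_surjective x
      rw [← map_smul, hψ, hψ, hφ, map_smul]
    have hψi : Function.Injective ψ := by
      rw [injective_iff_map_eq_zero]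
      intro x hx
      obtain ⟨w, rfl⟩ := S.mkQ_surjective x
      rw [hψ, Submodule.mkQ_apply, Submodule.Quotient.mk_eq_zero] at hx
      rw [Submodule.mkQ_apply, Submodule.Quotient.mk_eq_zero]
      obtain ⟨a, ha⟩ := Submodule.mem_span_singleton.1 hx
      obtain ⟨b, hb⟩ := IsAlgClosed.exists_pow_nat_eq a (n := p ^ n) (by omega)
      have h1 : φ (b • v) = φ w := by rw [hφ, hv, hb, ha]
      rw [← hinj h1]
      exact Submodule.smul_mem _ _ (Submodule.mem_span_singleton_self v)
    have hfr : Module.finrank k (V ⧸ S) = d := by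
      have h1 := S.finrank_quotient_add_finrank
      have h2 : Module.finrank k S = 1 := finrank_span_singleton hv0
      omega
    have key := ih ψ hψi hψs hfr.symm
    rw [hfr] at key
    -- surjectivity on fixed vectors
    have hsurj : ∀ x : {x : V ⧸ S // ψ x = x}, ∃ w : V, φ w = w ∧ S.mkQ w = x.1 := by
      rintro ⟨x, hx⟩
      obtain ⟨w, rfl⟩ := S.mkQ_surjective x
      rw [hψ, ← sub_eq_zero, ← map_sub, Submodule.mkQ_apply, Submodule.Quotient.mk_eq_zero] at hx
      obtain ⟨b, hb⟩ := Submodule.mem_span_singleton.1 hx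
      obtain ⟨a, ha⟩ := AuxFLang.exists_pow_sub hQ (-b)
      refine ⟨w + a • v, ?_, ?_⟩
      · have h1 : φ w = w + b • v := by rw [hb]; abel
        rw [map_add, hφ, hv, h1]
        have h2 : a ^ (p ^ n) = a - b := by linear_combination ha
        rw [h2, sub_smul]
        abel
      · rw [map_add, add_eq_left, Submodule.mkQ_apply, Submodule.Quotient.mk_eq_zero]
        exact Submodule.smul_mem _ _ (Submodule.mem_span_singleton_self v)
    choose s hs1 hs2 using hsurj
    let F : {x : V ⧸ S // ψ x = x} × {a : k // a ^ (p ^ n) = a} → {w : V // φ w = w} :=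
      fun y => ⟨s y.1 + y.2.1 • v, by rw [map_add, hs1, hφ, hv, y.2.2]⟩
    have hmv : ∀ a : k, S.mkQ (a • v) = 0 := fun a => by
      rw [Submodule.mkQ_apply, Submodule.Quotient.mk_eq_zero]
      exact Submodule.smul_mem _ _ (Submodule.mem_span_singleton_self v)
    have hF : Function.Bijective F := by
      constructor
      · rintro ⟨x, a⟩ ⟨y, b⟩ h
        have h1 : s x + a.1 • v = s y + b.1 • v := congrArg Subtype.val h
        have h2 := congrArg S.mkQ h1
        rw [map_add, map_add, hs2, hs2, hmv, hmv, add_zero, add_zero] at h2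
        have h3 : x = y := Subtype.ext h2
        subst h3
        have h4 : a.1 • v = b.1 • v := add_left_cancel h1
        have h5 : a = b := Subtype.ext (smul_left_injective k hv0 h4)
        rw [h5]
      · rintro ⟨w, hw⟩
        have hx : ψ (S.mkQ w) = S.mkQ w := by rw [hψ, hw]
        have h1 : S.mkQ (w - s ⟨S.mkQ w, hx⟩) = 0 := by rw [map_sub, hs2, sub_self]
        rw [Submodule.mkQ_apply, Submodule.Quotient.mk_eq_zero] at h1
        obtain ⟨a, ha⟩ := Submodule.mem_span_singleton.1 h1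
        have h2 : a ^ (p ^ n) = a := by
          have h3 : φ (a • v) = a • v := by rw [ha, map_sub, hw, hs1]
          rw [hφ, hv] at h3
          exact smul_left_injective k hv0 h3
        refine ⟨(⟨S.mkQ w, hx⟩, ⟨a, h2⟩), Subtype.ext ?_⟩
        change s _ + a • v = w
        rw [ha]
        abel
    rw [← Nat.card_eq_of_bijective F hF, Nat.card_prod, key, AuxFLang.card_fixed hn, ← hd, pow_succ]

end lang

end Vale.Agent.P019P
end
end

section

section

/-!
# Frobenius on the rational function field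
-/

namespace Vale.Agent.P019P

open Polynomial IntermediateField

/-- the Frobenius of the constants acting on the coefficients of rational functions. -/
theorem exists_frob_adj {k F : Type*} [Field k] [Field F] [Algebra k F]
    {p : ℕ} [Fact p.Prime] [CharP k p] {x : F} (hx : Transcendental k x) (m : ℕ) :
    ∃ τ : k⟮x⟯ →+* k⟮x⟯, (∀ a : k, τ (algebraMap k k⟮x⟯ a) = algebraMap k k⟮x⟯ (a ^ p ^ m)) ∧
      τ (AdjoinSimple.gen k x) = AdjoinSimple.gen k x := by
  set φ : k[X] →+* k⟮x⟯ := Polynomial.eval₂RingHom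
    ((algebraMap k k⟮x⟯).comp (iterateFrobenius k p m)) (AdjoinSimple.gen k x) with hφd
  have hgen : Transcendental k (AdjoinSimple.gen k x) := by
    intro h
    apply hx
    have := h.algebraMap (A := F)
    rwa [AdjoinSimple.algebraMap_gen] at this
  have hinj : ∀ f : k[X], φ f = 0 → f = 0 := by
    intro f hf
    have h1 : φ f = aeval (AdjoinSimple.gen k x) (f.map (iterateFrobenius k p m)) := by
      simp only [hφd, coe_eval₂RingHom, aeval_def, eval₂_map]
    rw [h1] at hf
    have h2 : f.map (iterateFrobenius k p m) = 0 := by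
      by_contra hne
      exact hgen ⟨_, hne, hf⟩
    rwa [Polynomial.map_eq_zero] at h2
  have hφ : nonZeroDivisors k[X] ≤ (nonZeroDivisors k⟮x⟯).comap φ := by
    intro f hf
    rw [Submonoid.mem_comap, mem_nonZeroDivisors_iff_ne_zero]
    intro h
    exact (mem_nonZeroDivisors_iff_ne_zero.1 hf) (hinj f h)
  refine ⟨(RatFunc.liftRingHom φ hφ).comp
    ((RatFunc.algEquivOfTranscendental x hx).symm : k⟮x⟯ →+* RatFunc k), ?_, ?_⟩
  · intro a
    have h1 : (RatFunc.algEquivOfTranscendental x hx).symm (algebraMap k k⟮x⟯ a) =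
        RatFunc.C a := by
      rw [AlgEquiv.commutes]
      rfl
    simp only [RingHom.comp_apply, RingHom.coe_coe]
    rw [h1, RatFunc.liftRingHom_C]
    simp [hφd, iterateFrobenius_def]
  · simp only [RingHom.comp_apply, RingHom.coe_coe]
    rw [RatFunc.algEquivOfTranscendental_symm_gen, RatFunc.liftRingHom_X]
    simp [hφd]

/-- every element of `k(x)` is fixed by a power of Frobenius. -/
theorem exists_frob_fix {k F : Type*} [Field k] [Field F] [Algebra k F]
    {p : ℕ} [Fact p.Prime] [CharP k p]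
    (hf : ∀ a : k, a ≠ 0 → ∃ n : ℕ, 0 < n ∧ a ^ n = 1) {x : F} (s : Finset k⟮x⟯) :
    ∃ m : ℕ, 0 < m ∧ ∀ τ : k⟮x⟯ →+* k⟮x⟯,
      (∀ a : k, τ (algebraMap k k⟮x⟯ a) = algebraMap k k⟮x⟯ (a ^ p ^ m)) →
      τ (AdjoinSimple.gen k x) = AdjoinSimple.gen k x → ∀ z ∈ s, τ z = z := by
  classical
  have hex : ∀ z : k⟮x⟯, ∃ r q : k[X], z = aeval (AdjoinSimple.gen k x) r /
      aeval (AdjoinSimple.gen k x) q := by
    intro z
    obtain ⟨r, q, h⟩ := (IntermediateField.mem_adjoin_simple_iff k (z : F)).1 z.2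
    refine ⟨r, q, ?_⟩
    apply (algebraMap k⟮x⟯ F).injective
    rw [map_div₀, ← aeval_algebraMap_apply, ← aeval_algebraMap_apply,
      AdjoinSimple.algebraMap_gen]
    exact h
  choose r q hrq using hex
  obtain ⟨m, hm, hfix⟩ := exists_pow_fix (p := p) hf
    (s.biUnion fun z => (r z).coeffs ∪ (q z).coeffs)
  refine ⟨m, hm, fun τ hτ hτx z hz => ?_⟩
  have key : ∀ f : k[X], (∀ n ∈ f.support, f.coeff n ^ p ^ m = f.coeff n) →
      τ (aeval (AdjoinSimple.gen k x) f) = aeval (AdjoinSimple.gen k x) f := by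
    intro f hcf
    rw [aeval_def, Polynomial.hom_eval₂, hτx, eval₂_eq_sum, eval₂_eq_sum, Polynomial.sum_def,
      Polynomial.sum_def]
    refine Finset.sum_congr rfl fun n hn => ?_
    rw [RingHom.comp_apply, hτ, hcf n hn]
  have h1 : τ (aeval (AdjoinSimple.gen k x) (r z)) = aeval (AdjoinSimple.gen k x) (r z) := by
    refine key _ fun n hn => hfix _ (Finset.mem_biUnion.2 ⟨z, hz, Finset.mem_union_left _ ?_⟩)
    exact Polynomial.coeff_mem_coeffs (Polynomial.mem_support_iff.1 hn)
  have h2 : τ (aeval (AdjoinSimple.gen k x) (q z)) = aeval (AdjoinSimple.gen k x) (q z) := by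
    refine key _ fun n hn => hfix _ (Finset.mem_biUnion.2 ⟨z, hz, Finset.mem_union_right _ ?_⟩)
    exact Polynomial.coeff_mem_coeffs (Polynomial.mem_support_iff.1 hn)
  rw [hrq z, map_div₀, h1, h2]

end Vale.Agent.P019P
end
end

section

section

/-!
# Lang's lemma: the number of stable lines
-/

namespace Vale.Agent.P019P

namespace AuxFLangB

/-- removing one element from a finite subtype. -/
theorem card_ne {α : Type*} (P : α → Prop) (x : α) (hx : P x) :
    Nat.card {a // a ≠ x ∧ P a} = Nat.card {a // P a} - 1 := by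
  have h1 : Set.ncard ({a | P a} \ {x}) = Set.ncard {a | P a} - 1 :=
    Set.ncard_diff_singleton_of_mem hx
  have h2 : Nat.card {a // P a} = Set.ncard {a | P a} := Nat.card_coe_set_eq _
  have h3 : Nat.card {a // a ≠ x ∧ P a} = Set.ncard ({a | P a} \ {x}) := by
    rw [← Nat.card_coe_set_eq]
    refine Nat.card_congr (Equiv.subtypeEquivRight fun a => ?_)
    simp only [Set.mem_diff, Set.mem_setOf_eq, Set.mem_singleton_iff]
    tauto
  rw [h3, h1, h2]

end AuxFLangB

section lang

variable {k V : Type*} [Field k] [IsAlgClosed k] [AddCommGroup V] [Module k V]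

/-- the number of stable lines (`e` maps a nonzero vector to its line). -/
theorem lang_count {p n : ℕ} [Fact p.Prime] [CharP k p] (hn : 0 < n) [FiniteDimensional k V]
    (φ : V →+ V) (hinj : Function.Injective φ)
    (hφ : ∀ (a : k) (v : V), φ (a • v) = a ^ (p ^ n) • φ v) {S : Type*} (e : V → S)
    (he : ∀ v w : V, v ≠ 0 → w ≠ 0 → (e v = e w ↔ ∃ a : k, a ≠ 0 ∧ w = a • v)) :
    Nat.card {s : S // ∃ v : V, v ≠ 0 ∧ (∃ c : k, φ v = c • v) ∧ e v = s} * (p ^ n - 1) =
      (p ^ n) ^ Module.finrank k V - 1 := by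
  have hQ : 1 < p ^ n := Nat.one_lt_pow hn.ne' (Fact.out : p.Prime).one_lt
  have hV := lang_card hn φ hinj hφ
  have hk := AuxFLang.card_fixed (k := k) (p := p) hn
  have hV' := AuxFLangB.card_ne (fun v : V => φ v = v) 0 (map_zero φ)
  have hk' := AuxFLangB.card_ne (fun a : k => a ^ (p ^ n) = a) 0 (zero_pow (by omega))
  rw [hV] at hV'
  rw [hk] at hk'
  -- a fixed representative in every stable line
  have hrep : ∀ s : {s : S // ∃ v : V, v ≠ 0 ∧ (∃ c : k, φ v = c • v) ∧ e v = s},
      ∃ v : V, v ≠ 0 ∧ φ v = v ∧ e v = s.1 := by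
    rintro ⟨s, v, hv0, ⟨c, hc⟩, hs⟩
    have hc0 : c ≠ 0 := by
      rintro rfl
      rw [zero_smul] at hc
      exact hv0 (hinj (hc.trans (map_zero φ).symm))
    obtain ⟨a, ha⟩ := IsAlgClosed.exists_pow_nat_eq c⁻¹ (n := p ^ n - 1) (by omega)
    have ha0 : a ≠ 0 := by
      rintro rfl
      rw [zero_pow (by omega)] at ha
      exact inv_ne_zero hc0 ha.symm
    have hav0 : a • v ≠ 0 := smul_ne_zero ha0 hv0
    refine ⟨a • v, hav0, ?_, ?_⟩
    · have h1 : a ^ (p ^ n) * c = a := by
        have h2 : a ^ (p ^ n) = a ^ (p ^ n - 1) * a := by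
          rw [← pow_succ]
          congr 1
          omega
        rw [h2, ha]
        field_simp
      rw [hφ, hc, smul_smul, h1]
    · exact (((he v (a • v) hv0 hav0).2 ⟨a, ha0, rfl⟩).symm).trans hs
  choose r hr0 hr1 hr2 using hrep
  let F : {s : S // ∃ v : V, v ≠ 0 ∧ (∃ c : k, φ v = c • v) ∧ e v = s} ×
      {a : k // a ≠ 0 ∧ a ^ (p ^ n) = a} → {v : V // v ≠ 0 ∧ φ v = v} :=
    fun y => ⟨y.2.1 • r y.1, smul_ne_zero y.2.2.1 (hr0 y.1), by rw [hφ, hr1, y.2.2.2]⟩
  have hF : Function.Bijective F := by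
    constructor
    · rintro ⟨s, a⟩ ⟨t, b⟩ h
      have h1 : a.1 • r s = b.1 • r t := congrArg Subtype.val h
      have h2 : e (r s) = e (a.1 • r s) :=
        (he _ _ (hr0 s) (smul_ne_zero a.2.1 (hr0 s))).2 ⟨a.1, a.2.1, rfl⟩
      have h3 : e (r t) = e (b.1 • r t) :=
        (he _ _ (hr0 t) (smul_ne_zero b.2.1 (hr0 t))).2 ⟨b.1, b.2.1, rfl⟩
      have h4 : s = t := by
        apply Subtype.ext
        rw [← hr2 s, ← hr2 t, h2, h3, h1]
      subst h4
      have h5 : a = b := Subtype.ext (smul_left_injective k (hr0 s) h1)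
      rw [h5]
    · rintro ⟨w, hw0, hw⟩
      have hs : ∃ v : V, v ≠ 0 ∧ (∃ c : k, φ v = c • v) ∧ e v = e w :=
        ⟨w, hw0, ⟨1, by rw [one_smul, hw]⟩, rfl⟩
      obtain ⟨a, ha0, ha⟩ := (he (r ⟨e w, hs⟩) w (hr0 _) hw0).1 (hr2 ⟨e w, hs⟩)
      have h2 : a ^ (p ^ n) = a := by
        have h3 : φ w = w := hw
        rw [ha, hφ, hr1] at h3
        exact smul_left_injective k (hr0 _) h3
      exact ⟨(⟨e w, hs⟩, ⟨a, ha0, h2⟩), Subtype.ext ha.symm⟩
  have hcard := Nat.card_eq_of_bijective F hF
  rw [Nat.card_prod, hk', hV'] at hcard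
  exact hcard

end lang

end Vale.Agent.P019P
end
end

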