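import Vale.Agent.P025.R2.H816.J15
import Vale.Agent.P025.R2.H816.J16

/-! Carved out of `Vale.Agent.P019.Bd4` (function fields of one variable); generated file. -/

set_option linter.all false

attribute [local instance] O19.fr O19.tf O19.pj O19.fl

section

section

/-!
# Effective divisors in a class, divisors of degree zero
-/

namespace Vale.Agent.P019P

open Polynomial IntermediateField

variable {k F : Type*} [Field k] [Field F] [Algebra k F] [CFF k F]

namespace AuxFEff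

theorem fe_dv_one : dv k (1 : F) = 0 :=
  (dv_eq_zero_iff one_ne_zero).2 ⟨1, (map_one _).symm⟩

theorem fe_dg_sum {α : Type*} (D : α →₀ ℤ) : dg D = ∑ P ∈ D.support, D P := by
  unfold dg
  rw [Finsupp.liftAddHom_apply]
  rfl

theorem fe_dg_nonneg {α : Type*} {D : α →₀ ℤ} (hD : 0 ≤ D) : 0 ≤ dg D := by
  rw [fe_dg_sum]
  exact Finset.sum_nonneg fun P _ => hD P

theorem fe_eq_zero {α : Type*} {D : α →₀ ℤ} (hD : 0 ≤ D) (h0 : dg D = 0) : D = 0 := by
  rw [fe_dg_sum, Finset.sum_eq_zero_iff_of_nonneg fun P _ => hD P] at h0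
  ext P
  by_cases hP : P ∈ D.support
  · exact h0 P hP
  · exact Finsupp.notMem_support_iff.1 hP

end AuxFEff

open AuxFEff

theorem dv_eq_iff {z w : F} (hz : z ≠ 0) (hw : w ≠ 0) :
    dv k z = dv k w ↔ ∃ a : k, a ≠ 0 ∧ w = a • z := by
  have h1 : dv k (w * z⁻¹) = dv k w - dv k z := by
    rw [dv_mul hw (inv_ne_zero hz), dv_inv, sub_eq_add_neg]
  have h2 : w * z⁻¹ ≠ 0 := mul_ne_zero hw (inv_ne_zero hz)
  constructor
  · intro h
    have h3 : dv k (w * z⁻¹) = 0 := by rw [h1, h, sub_self]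
    obtain ⟨a, ha⟩ := (dv_eq_zero_iff h2).1 h3
    have h4 : w = a • z := by
      rw [Algebra.smul_def, ← ha, mul_assoc, inv_mul_cancel₀ hz, mul_one]
    refine ⟨a, ?_, h4⟩
    rintro rfl
    exact hw (by rw [h4, zero_smul])
  · rintro ⟨a, ha, h4⟩
    have h5 : w * z⁻¹ = algebraMap k F a := by
      rw [h4, Algebra.smul_def, mul_assoc, mul_inv_cancel₀ hz, mul_one]
    have h6 : dv k (w * z⁻¹) = 0 := (dv_eq_zero_iff h2).2 ⟨a, h5⟩
    rw [h1] at h6
    exact (sub_eq_zero.1 h6).symm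

theorem mem_LL_dv {D : Plk k F →₀ ℤ} {z : F} (hz : z ≠ 0) : z ∈ LL k D ↔ 0 ≤ D + dv k z := by
  constructor
  · intro h P
    have h1 := (Or.resolve_left h hz) P
    rw [Finsupp.add_apply, dv_apply]
    show 0 ≤ _
    linarith
  · intro h
    right
    intro P
    have h1 := h P
    rw [Finsupp.add_apply, dv_apply] at h1
    have h2 : (0 : Plk k F →₀ ℤ) P = 0 := rfl
    rw [h2] at h1
    linarith

/-- effective divisors in a class and functions. -/
theorem eff_iff {D E : Plk k F →₀ ℤ} :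
    (0 ≤ E ∧ E - D ∈ prn k F) ↔ ∃ z ∈ LL k D, z ≠ 0 ∧ E = D + dv k z := by
  constructor
  · rintro ⟨hE, z, hz, h⟩
    have h1 : E = D + dv k z := by rw [← h]; abel
    exact ⟨z, (mem_LL_dv hz).2 (by rw [← h1]; exact hE), hz, h1⟩
  · rintro ⟨z, hzD, hz, h1⟩
    refine ⟨by rw [h1]; exact (mem_LL_dv hz).1 hzD, z, hz, ?_⟩
    rw [h1]
    abel

/-- there is a place. -/
theorem exists_place_cff (k F : Type*) [Field k] [Field F] [Algebra k F] [CFF k F] :
    Nonempty (Plk k F) := by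
  obtain ⟨x, hx, _⟩ := CFF.ex (k := k) (F := F)
  have hx0 : x ≠ 0 := by
    rintro rfl
    exact hx (isAlgebraic_zero)
  have h1 : dv k x ≠ 0 := by
    intro h
    obtain ⟨a, ha⟩ := (dv_eq_zero_iff hx0).1 h
    exact hx (by rw [ha]; exact isAlgebraic_algebraMap a)
  obtain ⟨P, _⟩ := Finsupp.ne_iff.1 h1
  exact ⟨P⟩

theorem LL_neg {D : Plk k F →₀ ℤ} (hD : dg D < 0) : Module.finrank k (LL k D) = 0 := by
  have h : LL k D = ⊥ := by
    rw [Submodule.eq_bot_iff]
    intro z hz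
    by_contra hz0
    have h1 := fe_dg_nonneg ((mem_LL_dv hz0).1 hz)
    rw [map_add, dg_dv, add_zero] at h1
    linarith
  rw [h]
  exact finrank_bot k F

theorem LL_prin {D : Plk k F →₀ ℤ} (hD : D ∈ prn k F) : Module.finrank k (LL k D) = 1 := by
  obtain ⟨u, hu, rfl⟩ := hD
  have h : LL k (dv k u) = Submodule.span k {u⁻¹} := by
    apply le_antisymm
    · intro z hz
      by_cases hz0 : z = 0
      · rw [hz0]
        exact Submodule.zero_mem _
      have h1 := (mem_LL_dv hz0).1 hz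
      have h2 : dg (dv k u + dv k z) = 0 := by rw [map_add, dg_dv, dg_dv, add_zero]
      have h3 := fe_eq_zero h1 h2
      rw [← dv_mul hu hz0] at h3
      obtain ⟨a, ha⟩ := (dv_eq_zero_iff (mul_ne_zero hu hz0)).1 h3
      rw [Submodule.mem_span_singleton]
      refine ⟨a, ?_⟩
      rw [Algebra.smul_def, ← ha, mul_comm u z, mul_assoc, mul_inv_cancel₀ hu, mul_one]
    · rw [Submodule.span_singleton_le_iff_mem]
      rw [mem_LL_dv (inv_ne_zero hu), dv_inv, add_neg_cancel]
  rw [h]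
  exact finrank_span_singleton (inv_ne_zero hu)

theorem LL_zero {D : Plk k F →₀ ℤ} (hD : dg D = 0) (hD' : D ∉ prn k F) :
    Module.finrank k (LL k D) = 0 := by
  have h : LL k D = ⊥ := by
    rw [Submodule.eq_bot_iff]
    intro z hz
    by_contra hz0
    have h1 := (mem_LL_dv hz0).1 hz
    have h2 : dg (D + dv k z) = 0 := by rw [map_add, dg_dv, hD, add_zero]
    have h3 := fe_eq_zero h1 h2
    apply hD'
    refine ⟨z⁻¹, inv_ne_zero hz0, ?_⟩
    rw [dv_inv]
    exact eq_neg_of_add_eq_zero_left h3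
  rw [h]
  exact finrank_bot k F

end Vale.Agent.P019P
end
end

section

section

/-!
# Frobenius on a function field over the algebraic closure of a finite field
-/

namespace Vale.Agent.P019P

open Polynomial IntermediateField

/-- extension of an endomorphism to a simple extension. -/
theorem ffrob_extend {K F : Type*} [Field K] [Field F] [Algebra K F] {y : F} (hy : K⟮y⟯ = ⊤)
    (hint : IsIntegral K y) (τ : K →+* K) (hτ : (minpoly K y).map τ = minpoly K y) :
    ∃ σ : F →+* F, (∀ a : K, σ (algebraMap K F a) = algebraMap K F (τ a)) ∧ σ y = y := by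
  set e : AdjoinRoot (minpoly K y) ≃ₐ[K] F :=
    (adjoinRootEquivAdjoin K hint).trans ((IntermediateField.equivOfEq hy).trans topEquiv) with he
  have he1 : e (AdjoinRoot.root (minpoly K y)) = y := by
    simp only [he, AlgEquiv.trans_apply, adjoinRootEquivAdjoin_apply_root]
    rfl
  have hev : (minpoly K y).eval₂ ((algebraMap K F).comp τ) y = 0 := by
    rw [← Polynomial.eval₂_map, hτ]
    exact minpoly.aeval K y
  refine ⟨(AdjoinRoot.lift ((algebraMap K F).comp τ) y hev).comp (e.symm : F →+* _), fun a => ?_,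
    ?_⟩
  · have h1 : e.symm (algebraMap K F a) = AdjoinRoot.of (minpoly K y) a := by
      rw [AlgEquiv.commutes]
      rfl
    show AdjoinRoot.lift ((algebraMap K F).comp τ) y hev (e.symm (algebraMap K F a)) = _
    rw [h1, AdjoinRoot.lift_of]
    rfl
  · have h1 : e.symm y = AdjoinRoot.root (minpoly K y) := by
      rw [AlgEquiv.symm_apply_eq]
      exact he1.symm
    show AdjoinRoot.lift ((algebraMap K F).comp τ) y hev (e.symm y) = _
    rw [h1, AdjoinRoot.lift_root]

/-- existence of Frobenius. -/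
theorem exists_frob (k F : Type*) [Field k] [Field F] [Algebra k F] [CFF k F] {p : ℕ}
    [Fact p.Prime] [CharP k p] (hf : ∀ a : k, a ≠ 0 → ∃ n : ℕ, 0 < n ∧ a ^ n = 1) :
    ∃ (m : ℕ) (σ : F ≃+* F) (x : F), 0 < m ∧
      (∀ a : k, σ (algebraMap k F a) = algebraMap k F (a ^ p ^ m)) ∧
      (∀ a : k, x ≠ algebraMap k F a) ∧ σ x = x := by
  have : IsAlgClosed k := CFF.ac F
  obtain ⟨x, hx, hfin, hsep⟩ := exists_sep k F
  obtain ⟨y, hy⟩ := Field.exists_primitive_element k⟮x⟯ F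
  have hint : IsIntegral k⟮x⟯ y := IsIntegral.of_finite k⟮x⟯ y
  obtain ⟨m, hm, hfix⟩ := exists_frob_fix (F := F) (x := x) hf (minpoly k⟮x⟯ y).coeffs
  obtain ⟨τ, hτ1, hτ2⟩ := exists_frob_adj hx (p := p) m
  have hfix' := hfix τ hτ1 hτ2
  have hτ : (minpoly k⟮x⟯ y).map τ = minpoly k⟮x⟯ y := by
    ext n
    rw [Polynomial.coeff_map]
    by_cases h0 : (minpoly k⟮x⟯ y).coeff n = 0
    · rw [h0, map_zero]
    · rw [hfix' _ (Polynomial.coeff_mem_coeffs h0)]
  obtain ⟨σ, hσ1, hσ2⟩ := ffrob_extend hy hint τ hτ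
  have hσk : ∀ a : k, σ (algebraMap k F a) = algebraMap k F (a ^ p ^ m) := fun a => by
    rw [IsScalarTower.algebraMap_apply k k⟮x⟯ F a, hσ1, hτ1,
      ← IsScalarTower.algebraMap_apply k k⟮x⟯ F]
  have hσx : σ x = x := by
    have h1 := hσ1 (AdjoinSimple.gen k x)
    rw [hτ2] at h1
    exact h1
  have hsurj : Function.Surjective σ := by
    have hk : ∀ a : k, algebraMap k F a ∈ σ.fieldRange := fun a => by
      obtain ⟨b, hb⟩ := IsAlgClosed.exists_pow_nat_eq a
        (pow_pos (Fact.out : p.Prime).pos m)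
      exact ⟨algebraMap k F b, by rw [hσk, hb]⟩
    have hK : ∀ a : k⟮x⟯, algebraMap k⟮x⟯ F a ∈ σ.fieldRange := fun a => by
      have h1 : k⟮x⟯ ≤ σ.fieldRange.toIntermediateField hk :=
        adjoin_simple_le_iff.2 (show x ∈ σ.fieldRange from ⟨x, hσx⟩)
      exact h1 a.2
    intro z
    have h2 : k⟮x⟯⟮y⟯ ≤ σ.fieldRange.toIntermediateField hK :=
      adjoin_simple_le_iff.2 (show y ∈ σ.fieldRange from ⟨y, hσ2⟩)
    rw [hy] at h2
    exact h2 (show z ∈ (⊤ : IntermediateField k⟮x⟯ F) from IntermediateField.mem_top)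
  refine ⟨m, RingEquiv.ofBijective σ ⟨σ.injective, hsurj⟩, x, hm, hσk, fun a ha => ?_, hσx⟩
  apply hx
  rw [ha]
  exact isAlgebraic_algebraMap a

end Vale.Agent.P019P
end
end

section

section

/-!
# The number of rational effective divisors in a class
-/

namespace Vale.Agent.P019P

open Polynomial IntermediateField

variable {k F : Type*} [Field k] [Field F] [Algebra k F] [CFF k F] {p m : ℕ} [Fact p.Prime]
  [CharP k p]

/-- the semilinear map of a Riemann-Roch space. -/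
theorem fcount_mem {s : F ≃+* F} {s₀ : k ≃+* k}
    {h : ∀ a, s (algebraMap k F a) = algebraMap k F (s₀ a)} {D : Plk k F →₀ ℤ} {u : F}
    (hu : u ≠ 0) (hD : D.mapDomain (plEquiv s s₀ h) - D = dv k u) {z : F} (hz : z ≠ 0) :
    D + dv k (u * s z) = (D + dv k z).mapDomain (plEquiv s s₀ h) := by
  have hsz : s z ≠ 0 := by simpa using hz
  rw [dv_mul hu hsz, ← hD, dv_plEquiv s s₀ h, Finsupp.mapDomain_add]
  abel

omit [CFF k F] in
theorem fcount_nonneg (σ : Plk k F ≃ Plk k F) {E : Plk k F →₀ ℤ} (hE : 0 ≤ E) :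
    0 ≤ E.mapDomain σ := by
  intro P
  rw [Finsupp.mapDomain_equiv_apply]
  exact hE _

/-- the number of rational effective divisors in a class. -/
theorem count_eff (hm : 0 < m) (s : F ≃+* F) (s₀ : k ≃+* k) (h0 : ∀ a : k, s₀ a = a ^ p ^ m)
    (h : ∀ a, s (algebraMap k F a) = algebraMap k F (s₀ a)) (D : Plk k F →₀ ℤ)
    (hD : D.mapDomain (plEquiv s s₀ h) - D ∈ prn k F) :
    Nat.card {E : Plk k F →₀ ℤ // 0 ≤ E ∧ E.mapDomain (plEquiv s s₀ h) = E ∧
      E - D ∈ prn k F} * (p ^ m - 1) = (p ^ m) ^ Module.finrank k (LL k D) - 1 := by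
  have : IsAlgClosed k := CFF.ac F
  obtain ⟨u, hu, hDu⟩ := hD
  have hmem : ∀ z ∈ LL k D, u * s z ∈ LL k D := by
    intro z hz
    by_cases hz0 : z = 0
    · rw [hz0, map_zero, mul_zero]; exact Submodule.zero_mem _
    · have hsz : s z ≠ 0 := by simpa using hz0
      rw [mem_LL_dv (mul_ne_zero hu hsz), fcount_mem hu hDu hz0]
      exact fcount_nonneg _ ((mem_LL_dv hz0).1 hz)
  let φ : LL k D →+ LL k D :=
    { toFun := fun z => ⟨u * s z, hmem z z.2⟩
      map_zero' := by ext; simp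
      map_add' := fun z w => by ext; simp [mul_add] }
  have hφv : ∀ z : LL k D, ((φ z : LL k D) : F) = u * s z := fun z => rfl
  have hinj : Function.Injective φ := by
    intro z w hzw
    have h1 : u * s (z : F) = u * s (w : F) := congrArg Subtype.val hzw
    exact Subtype.ext (s.injective (mul_left_cancel₀ hu h1))
  have hφ : ∀ (a : k) (v : LL k D), φ (a • v) = a ^ (p ^ m) • φ v := by
    intro a v
    apply Subtype.ext
    rw [hφv, Submodule.coe_smul, Submodule.coe_smul, hφv, Algebra.smul_def, Algebra.smul_def,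
      map_mul, h, h0]
    ring
  have hne : ∀ {v : LL k D}, v ≠ 0 → (v : F) ≠ 0 := fun {v} hv hv' => hv (Subtype.ext hv')
  have he : ∀ v w : LL k D, v ≠ 0 → w ≠ 0 →
      (D + dv k (v : F) = D + dv k (w : F) ↔ ∃ a : k, a ≠ 0 ∧ w = a • v) := by
    intro v w hv hw
    rw [add_right_inj, dv_eq_iff (hne hv) (hne hw)]
    constructor
    · rintro ⟨a, ha, h1⟩; exact ⟨a, ha, Subtype.ext h1⟩
    · rintro ⟨a, ha, h1⟩; exact ⟨a, ha, congrArg Subtype.val h1⟩
  have key := lang_count (p := p) (n := m) hm φ hinj hφ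
    (fun z : LL k D => D + dv k (z : F)) he
  rw [← key]
  congr 1
  apply Nat.card_congr
  apply Equiv.subtypeEquivRight
  intro E
  have hφ0 : ∀ {v : LL k D}, v ≠ 0 → φ v ≠ 0 := fun {v} hv h1 =>
    hv (hinj (h1.trans (map_zero φ).symm))
  have hcrit : ∀ {v : LL k D}, v ≠ 0 →
      ((D + dv k (v : F)).mapDomain (plEquiv s s₀ h) = D + dv k (v : F) ↔
        ∃ c : k, φ v = c • v) := by
    intro v hv
    rw [← fcount_mem hu hDu (hne hv), ← hφv, add_right_inj]
    constructor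
    · intro h1
      obtain ⟨a, ha, h2⟩ := (dv_eq_iff (hne hv) (hne (hφ0 hv))).1 h1.symm
      exact ⟨a, Subtype.ext h2⟩
    · rintro ⟨c, hc⟩
      have hc0 : c ≠ 0 := by
        rintro rfl
        rw [zero_smul] at hc
        exact hφ0 hv hc
      exact ((dv_eq_iff (hne hv) (hne (hφ0 hv))).2
        ⟨c, hc0, congrArg Subtype.val hc⟩).symm
  constructor
  · rintro ⟨h1, h2, h3⟩
    obtain ⟨z, hz, hz0, rfl⟩ := eff_iff.1 ⟨h1, h3⟩
    have hv : (⟨z, hz⟩ : LL k D) ≠ 0 := fun h4 => hz0 (congrArg Subtype.val h4)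
    exact ⟨⟨z, hz⟩, hv, (hcrit hv).1 h2, rfl⟩
  · rintro ⟨v, hv, hc, rfl⟩
    obtain ⟨h1, h2⟩ := eff_iff.2 ⟨(v : F), v.2, hne hv, rfl⟩
    exact ⟨h1, (hcrit hv).2 hc, h2⟩

end Vale.Agent.P019P
end
end

section

section

/-!
# The zeta data of a curve over the algebraic closure of a finite field
-/

namespace Vale.Agent.P019P

set_option linter.style.haveILetI false

open Polynomial IntermediateField

variable {k F : Type*} [Field k] [Field F] [Algebra k F] [CFF k F]

/-- the action on principal divisors. -/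
theorem mapDomain_mem_prn (s : F ≃+* F) (s₀ : k ≃+* k)
    (h : ∀ a, s (algebraMap k F a) = algebraMap k F (s₀ a)) (D : Plk k F →₀ ℤ) :
    D ∈ prn k F ↔ D.mapDomain (plEquiv s s₀ h) ∈ prn k F := by
  constructor
  · rintro ⟨z, hz, rfl⟩
    exact ⟨s z, (map_ne_zero s).2 hz, (dv_plEquiv s s₀ h z).symm⟩
  · rintro ⟨w, hw, hD⟩
    obtain ⟨z, rfl⟩ := s.surjective w
    refine ⟨z, (map_ne_zero s).1 hw, ?_⟩
    rw [dv_plEquiv s s₀ h z] at hD
    exact Finsupp.mapDomain_injective (plEquiv s s₀ h).injective hD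

/-- the zeta data of a curve. -/
theorem exists_zdat (k F : Type*) [Field k] [Field F] [Algebra k F] [CFF k F]
    (hf : ∀ a : k, a ≠ 0 → ∃ n : ℕ, 0 < n ∧ a ^ n = 1) {p : ℕ} [hp : Fact p.Prime] [CharP k p] :
    ∃ Z : ZDat (Plk k F), Z.prin = prn k F ∧ Z.g = gen k F ∧ ∃ m : ℕ, 0 < m ∧ Z.q = p ^ m := by
  haveI : IsAlgClosed k := CFF.ac F
  obtain ⟨m, σ, x, hm, hσ, hx, hσx⟩ := exists_frob k F hf (p := p)
  haveI : PerfectRing k p := PerfectField.toPerfectRing p
  let σ₀ : k ≃+* k := iterateFrobeniusEquiv k p m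
  have h0 : ∀ a : k, σ₀ a = a ^ p ^ m := fun a => iterateFrobeniusEquiv_def k p m a
  have h : ∀ a, σ (algebraMap k F a) = algebraMap k F (σ₀ a) := fun a => by rw [hσ, h0]
  obtain ⟨P0⟩ := exists_place_cff k F
  obtain ⟨N, hN, hP0⟩ := pl_per hf σ σ₀ h0 h hx hσx P0
  have hpow : ∀ (n : ℕ) (a : k), (σ₀ ^ n) a = a ^ p ^ (m * n) := by
    intro n
    induction n with
    | zero => intro a; simp
    | succ n ih =>
      intro a
      rw [pow_succ, RingAut.mul_apply, ih, h0, ← pow_mul, ← pow_add, mul_add, mul_one, add_comm]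
  have hx' : ∀ n : ℕ, (σ ^ n) x = x := by
    intro n
    induction n with
    | zero => simp
    | succ n ih => rw [pow_succ, RingAut.mul_apply, hσx, ih]
  have hmN : 0 < m * N := Nat.mul_pos hm hN
  have hpow2 : ∀ (n : ℕ) (a : k), ((σ₀ ^ N) ^ n) a = a ^ p ^ (m * N * n) := by
    intro n a
    rw [← pow_mul, hpow, mul_assoc]
  refine ⟨{ σ := plEquiv (σ ^ N) (σ₀ ^ N) (semi_pow h N)
            q := p ^ (m * N)
            g := gen k F
            prin := prn k F
            l := fun D => Module.finrank k (LL k D)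
            κ := can k F
            P0 := P0
            two_le := ?_
            fix0 := ?_
            per := ?_
            fin := ?_
            deg_prin := ?_
            sig_prin := ?_
            rr := ?_
            l_neg := ?_
            l_prin := ?_
            l_zero := ?_
            count := ?_ }, rfl, rfl, m * N, hmN, rfl⟩
  · exact hp.out.two_le.trans (Nat.le_self_pow hmN.ne' p)
  · rw [← plEquiv_pow]
    exact hP0
  · intro P
    exact pl_per hf (σ ^ N) (σ₀ ^ N) (hpow N) (semi_pow h N) hx (hx' N) P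
  · intro n hn
    exact pl_fin hmN (σ ^ N) (σ₀ ^ N) (hpow N) (semi_pow h N) hx (hx' N) hn
  · rintro _ ⟨z, _, rfl⟩
    exact dg_dv z
  · intro D
    exact mapDomain_mem_prn _ _ _ D
  · intro D
    exact RR D
  · intro D hD
    exact LL_neg hD
  · intro D hD
    exact LL_prin hD
  · intro D hD hD'
    exact LL_zero hD hD'
  · intro n hn D hD
    have e1 := plEquiv_pow (σ ^ N) (σ₀ ^ N) (semi_pow h N) n
    rw [e1] at hD ⊢
    have := count_eff (p := p) (m := m * N * n) (Nat.mul_pos hmN hn) ((σ ^ N) ^ n)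
      ((σ₀ ^ N) ^ n) (hpow2 n) (semi_pow (semi_pow h N) n) D hD
    have e2 : (p ^ (m * N)) ^ n = p ^ (m * N * n) := (pow_mul p (m * N) n).symm
    have e3 : (p ^ (m * N)) ^ (n * Module.finrank k (LL k D)) =
        (p ^ (m * N * n)) ^ Module.finrank k (LL k D) := by
      rw [pow_mul (p ^ (m * N)), e2]
    rw [e2, e3]
    exact this

/-- `ℓ`-torsion and divisibility of the class group over the closure of a finite field. -/
theorem pic_fin' (hf : ∀ a : k, a ≠ 0 → ∃ n : ℕ, 0 < n ∧ a ^ n = 1) {ℓ : ℕ} (hℓ : ℓ.Prime)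
    (hℓk : (ℓ : k) ≠ 0) :
    (∀ D : Plk k F →₀ ℤ, dg D = 0 → ∃ E : Plk k F →₀ ℤ, dg E = 0 ∧ D - ℓ • E ∈ prn k F) ∧
    Nat.card {x : (Plk k F →₀ ℤ) ⧸ prn k F // ℓ • x = 0} = ℓ ^ (2 * gen k F) := by
  obtain ⟨p, hp, hc⟩ := exists_prime_char hf
  haveI : Fact p.Prime := ⟨hp⟩
  obtain ⟨Z, hZ, hg, m, hm, hq⟩ := exists_zdat k F hf (p := p)
  have hlq : ¬ ℓ ∣ Z.q := by
    rw [hq]
    intro h
    have h1 := (Nat.prime_dvd_prime_iff_eq hℓ hp).1 (hℓ.dvd_of_dvd_pow h)
    rw [h1] at hℓk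
    exact hℓk (CharP.cast_eq_zero k p)
  constructor
  · intro D hD
    obtain ⟨E, hE, hE'⟩ := Z.divisible hℓ hlq D hD
    exact ⟨E, hE, hZ ▸ hE'⟩
  · have h9 : Nat.card {x : (Plk k F →₀ ℤ) ⧸ Z.prin // ℓ • x = 0} = ℓ ^ (2 * Z.g) :=
      Z.card_tors hℓ hlq
    rw [hZ, hg] at h9
    exact h9

end Vale.Agent.P019P
end
end

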