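import Vale.Agent.P025.R2.H816.J08
import Vale.Agent.P025.R2.H816.J11
import Vale.Agent.P025.R2.H816.J12
import Vale.Agent.P025.R2.H816.J17

/-! Carved out of `Vale.Agent.P019.Bd4` (function fields of one variable); generated file. -/

set_option linter.all false

attribute [local instance] O19.fr O19.tf O19.pj O19.fl

section

section

/-!
# Classes with divisor divisible by `ℓ` and the torsion of the class group
-/

namespace Vale.Agent.P019P

open Polynomial IntermediateField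

variable {k F : Type*} [Field k] [Field F] [Algebra k F] [CFF k F]

private theorem h4Cnt_dv_pow (z : F) (n : ℕ) : dv k (z ^ n) = n • dv k z := by
  ext P
  rw [dv_apply, ord_pow, Finsupp.smul_apply, dv_apply, nsmul_eq_mul]

private theorem h4Cnt_mk {E E' : Plk k F →₀ ℤ} :
    (QuotientAddGroup.mk E : (Plk k F →₀ ℤ) ⧸ prn k F) = QuotientAddGroup.mk E' ↔
      ∃ h : F, h ≠ 0 ∧ E' - E = dv k h := by
  rw [QuotientAddGroup.eq, ← sub_eq_neg_add]
  rfl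

private theorem h4Cnt_div {ℓ : ℕ} {z : F} (hz : ∀ P : Plk k F, (ℓ : ℤ) ∣ ord P z) :
    ∃ E : Plk k F →₀ ℤ, ℓ • E = dv k z := by
  refine ⟨(dv k z).mapRange (fun a => a / (ℓ : ℤ)) (by simp), ?_⟩
  ext P
  rw [Finsupp.smul_apply, Finsupp.mapRange_apply, dv_apply, nsmul_eq_mul]
  exact Int.mul_ediv_cancel' (hz P)

omit [CFF k F] in
private theorem h4Cnt_smul_inj {ℓ : ℕ} (hℓ : ℓ ≠ 0) {D D' : Plk k F →₀ ℤ}
    (h : ℓ • D = ℓ • D') : D = D' := by
  ext P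
  have h1 := DFunLike.congr_fun h P
  rw [Finsupp.smul_apply, Finsupp.smul_apply, nsmul_eq_mul, nsmul_eq_mul] at h1
  exact mul_left_cancel₀ (Nat.cast_ne_zero.2 hℓ) h1

theorem h4_nc_iff {ℓ : ℕ} (hℓ : ℓ ≠ 0) {M : ℕ} :
    NC ℓ k F M ↔ ∃ φ : Fin M → {x : (Plk k F →₀ ℤ) ⧸ prn k F // ℓ • x = 0},
      Function.Injective φ := by
  constructor
  · rintro ⟨z, hz, hne⟩
    choose E hE using fun i => h4Cnt_div (hz i).2
    refine ⟨fun i => ⟨QuotientAddGroup.mk (E i), ?_⟩, ?_⟩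
    · rw [← QuotientAddGroup.mk_nsmul, hE, QuotientAddGroup.eq_zero_iff]
      exact ⟨z i, (hz i).1, rfl⟩
    · intro i j hij
      by_contra hc
      obtain ⟨h, h0, h1⟩ := h4Cnt_mk.1 (Subtype.ext_iff.1 hij)
      have h2 : dv k (z j) = dv k (h ^ ℓ * z i) := by
        rw [dv_mul (pow_ne_zero _ h0) (hz i).1, h4Cnt_dv_pow h, ← h1, ← hE, ← hE, smul_sub]
        abel
      have h3 : h ^ ℓ * z i ≠ 0 := mul_ne_zero (pow_ne_zero _ h0) (hz i).1
      have h4 : dv k (z j * (h ^ ℓ * z i)⁻¹) = 0 := by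
        rw [dv_mul (hz j).1 (inv_ne_zero h3), dv_inv, h2, add_neg_cancel]
      obtain ⟨a, ha⟩ := (dv_eq_zero_iff (mul_ne_zero (hz j).1 (inv_ne_zero h3))).1 h4
      have hac : IsAlgClosed k := CFF.ac F
      obtain ⟨b, hb⟩ := IsAlgClosed.exists_pow_nat_eq a (Nat.pos_of_ne_zero hℓ)
      refine hne j i (Ne.symm hc) ⟨algebraMap k F b * h, ?_⟩
      rw [mul_pow, ← map_pow, hb, ← ha, mul_assoc, mul_assoc, inv_mul_cancel₀ h3, mul_one]
  · rintro ⟨φ, hφ⟩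
    have h1 : ∀ i, ∃ (E : Plk k F →₀ ℤ) (z : F), QuotientAddGroup.mk E = (φ i).1 ∧ z ≠ 0 ∧
        ℓ • E = dv k z := by
      intro i
      obtain ⟨E, hE⟩ := QuotientAddGroup.mk_surjective (φ i).1
      have h2 : (QuotientAddGroup.mk (ℓ • E) : (Plk k F →₀ ℤ) ⧸ prn k F) = 0 := by
        rw [QuotientAddGroup.mk_nsmul, hE]
        exact (φ i).2
      obtain ⟨z, hz0, hz⟩ := (QuotientAddGroup.eq_zero_iff _).1 h2
      exact ⟨E, z, hE, hz0, hz⟩
    choose E z hE hz0 hz using h1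
    refine ⟨z, fun i => ⟨hz0 i, fun P => ?_⟩, fun i j hij => ?_⟩
    · rw [← dv_apply, ← hz, Finsupp.smul_apply, nsmul_eq_mul]
      exact dvd_mul_right _ _
    · rintro ⟨h, hh⟩
      have h0 : h ≠ 0 := by
        rintro rfl
        rw [zero_pow hℓ, zero_mul] at hh
        exact hz0 i hh
      have h2 : ℓ • (E i - E j) = ℓ • dv k h := by
        rw [smul_sub, hz, hz, hh, dv_mul (pow_ne_zero _ h0) (hz0 j), h4Cnt_dv_pow h]
        abel
      have h3 := h4Cnt_smul_inj hℓ h2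
      refine hij (hφ (Subtype.ext ?_))
      rw [← hE i, ← hE j]
      exact (h4Cnt_mk.2 ⟨h, h0, h3⟩).symm

theorem h4_nc_of_card {ℓ : ℕ} (hℓ : ℓ ≠ 0) {M : ℕ} (hM : 0 < M)
    (h : Nat.card {x : (Plk k F →₀ ℤ) ⧸ prn k F // ℓ • x = 0} = M) :
    NC ℓ k F M ∧ ¬ NC ℓ k F (M + 1) := by
  have hfin : Finite {x : (Plk k F →₀ ℤ) ⧸ prn k F // ℓ • x = 0} :=
    Nat.finite_of_card_ne_zero (by omega)
  constructor
  · rw [h4_nc_iff hℓ, ← h]
    exact ⟨_, (Finite.equivFin _).symm.injective⟩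
  · rw [h4_nc_iff hℓ]
    rintro ⟨φ, hφ⟩
    have h1 := Nat.card_le_card_of_injective φ hφ
    rw [Nat.card_fin, h] at h1
    omega

theorem h4_card_of_nc {ℓ : ℕ} (hℓ : ℓ ≠ 0) {M : ℕ} (h : NC ℓ k F M)
    (h' : ¬ NC ℓ k F (M + 1)) :
    Nat.card {x : (Plk k F →₀ ℤ) ⧸ prn k F // ℓ • x = 0} = M := by
  rw [h4_nc_iff hℓ] at h h'
  have hfin : Finite {x : (Plk k F →₀ ℤ) ⧸ prn k F // ℓ • x = 0} := by
    by_contra hc
    rw [not_finite_iff_infinite] at hc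
    exact h' ⟨fun i => Infinite.natEmbedding _ (i : ℕ),
      (Infinite.natEmbedding _).injective.comp Fin.val_injective⟩
  obtain ⟨φ, hφ⟩ := h
  have h1 := Nat.card_le_card_of_injective φ hφ
  rw [Nat.card_fin] at h1
  by_contra hc
  have h2 : M + 1 ≤ Nat.card {x : (Plk k F →₀ ℤ) ⧸ prn k F // ℓ • x = 0} := by omega
  exact h' ⟨fun i => (Finite.equivFin _).symm (Fin.castLE h2 i),
    (Finite.equivFin _).symm.injective.comp (Fin.castLE_injective _)⟩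

end Vale.Agent.P019P
end
end

section

section

/-!
# The torsion and the divisibility of the class group, arbitrary constants
-/

universe u

namespace Vale.Agent.P019P

open Polynomial IntermediateField TensorProduct

section

variable {A₀ : Type u} [CommRing A₀] {R₀ : Type u} [CommRing R₀] [Algebra A₀ R₀] {S : Set ℕ}
  {b : Module.Basis S A₀ R₀} {g : ℕ}

/-- models over a field. -/
theorem exists_HM_gen {g : ℕ} {S : Set ℕ} {κ R : Type u} [Field κ] [IsAlgClosed κ]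
    [CommRing R] [Algebra κ R] {b : Module.Basis S κ R} (h : IsDB b) (hS : Sgp g S) {D : ℕ}
    (hD : D = 2 * g * (g + 1) + 4 * g) (hn : ¬ ∃ t : IN S g D → κ, QN b t) :
    ∃ (Fκ : Type u) (_ : Field Fκ) (_ : Algebra R Fκ)
      (_ : IsFractionRing R Fκ) (_ : Algebra κ Fκ)
      (_ : IsScalarTower κ R Fκ) (_ : CFF κ Fκ) (P : Plk κ Fκ),
      HM b g P := by
  haveI : IsDomain R := h4_domain h hS
  haveI hc : CFF κ (FractionRing R) := h4_cff h hS
  obtain ⟨P, hP⟩ := h4_place (F := FractionRing R) h hS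
  refine ⟨FractionRing R, inferInstance, inferInstance, inferInstance, inferInstance,
    inferInstance, hc, P, h, hS, hP, ?_⟩
  by_contra hcon
  exact hn (QN_of_notFull h hS hP hD hcon)

/-- models over other fields. -/
theorem exists_HM (h : IsDB b) (hS : Sgp g S) (κ : Type u) [Field κ] [IsAlgClosed κ]
    [Algebra A₀ κ] {D : ℕ} (hD : D = 2 * g * (g + 1) + 4 * g)
    (hn : ¬ ∃ t : IN S g D → κ, QN (b.baseChange κ) t) :
    ∃ (Fκ : Type u) (_ : Field Fκ) (_ : Algebra (κ ⊗[A₀] R₀) Fκ)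
      (_ : IsFractionRing (κ ⊗[A₀] R₀) Fκ) (_ : Algebra κ Fκ)
      (_ : IsScalarTower κ (κ ⊗[A₀] R₀) Fκ) (_ : CFF κ Fκ) (P : Plk κ Fκ),
      HM (b.baseChange κ) g P :=
  exists_HM_gen (h.baseChange κ) hS hD hn

/-- models over closures of finite fields. -/
theorem exists_HM_fin (h : IsDB b) (hS : Sgp g S) (κ : Type u) [Field κ] [IsAlgClosed κ]
    [Algebra A₀ κ] (hf : ∀ a : κ, a ≠ 0 → ∃ n : ℕ, 0 < n ∧ a ^ n = 1) {ℓ : ℕ} (hℓ : ℓ.Prime)
    (hℓκ : (ℓ : κ) ≠ 0) {D : ℕ} (hD : D = 2 * g * (g + 1) + 4 * g)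
    (hn : ¬ ∃ t : IN S g D → κ, QN (b.baseChange κ) t) :
    ∃ (Fκ : Type u) (_ : Field Fκ) (_ : Algebra (κ ⊗[A₀] R₀) Fκ)
      (_ : IsFractionRing (κ ⊗[A₀] R₀) Fκ) (_ : Algebra κ Fκ)
      (_ : IsScalarTower κ (κ ⊗[A₀] R₀) Fκ) (_ : CFF κ Fκ) (P : Plk κ Fκ),
      HM (b.baseChange κ) g P ∧
      (∀ D : Plk κ Fκ →₀ ℤ, dg D = 0 →
        ∃ E : Plk κ Fκ →₀ ℤ, dg E = 0 ∧ D - ℓ • E ∈ prn κ Fκ) ∧
      NC ℓ κ Fκ (ℓ ^ (2 * g)) ∧ ¬ NC ℓ κ Fκ (ℓ ^ (2 * g) + 1) := by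
  obtain ⟨Fκ, _, _, _, _, _, _, P, hHM⟩ := exists_HM h hS κ hD hn
  obtain ⟨h1, h2⟩ := pic_fin' (k := κ) (F := Fκ) hf hℓ hℓκ
  rw [hHM.gen_eq] at h2
  obtain ⟨h3, h4⟩ := h4_nc_of_card hℓ.ne_zero (pow_pos hℓ.pos _) h2
  exact ⟨Fκ, _, _, inferInstance, _, inferInstance, inferInstance, P, hHM, h1, h3, h4⟩

end

section

variable {k F : Type u} [Field k] [Field F] [Algebra k F] [CFF k F]

/-- the number of torsion classes. -/
theorem h4_card_tors {ℓ : ℕ} (hℓ : ℓ.Prime) (hℓk : (ℓ : k) ≠ 0) :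
    Nat.card {x : (Plk k F →₀ ℤ) ⧸ prn k F // ℓ • x = 0} = ℓ ^ (2 * gen k F) := by
  haveI : IsAlgClosed k := CFF.ac F
  obtain ⟨P₀⟩ := exists_place_cff k F
  obtain ⟨A₀, _, _, _, _, R₀, _, _, S, b, _, _, _, hinj, hdb, hHM, -⟩ :=
    h4_model P₀ (∅ : Finset F) (by simp)
  have hS : Sgp (gen k F) S := hHM.sg
  have hℓ2 : 2 ≤ ℓ := hℓ.two_le
  obtain ⟨δ₀, hδ₀, hgen⟩ := (isSys_QN b (gen k F)
    (2 * gen k F * (gen k F + 1) + 4 * gen k F)).gen hinj (fun ⟨t, ht⟩ => not_QN hHM t ht)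
  have hℓA : ((ℓ : ℕ) : A₀) ≠ 0 := by
    intro h0
    apply hℓk
    rw [← map_natCast (algebraMap A₀ k), h0, map_zero]
  have hδ : δ₀ * (ℓ : A₀) ≠ 0 := mul_ne_zero hδ₀ hℓA
  apply h4_card_of_nc hℓ.ne_zero
  · obtain ⟨t, ht⟩ := (isSys_QT b ℓ (ℓ ^ (2 * gen k F)) _ _ _ _).low hinj hδ
      (fun κ _ _ _ hf hκ => by
        rw [map_mul, map_natCast] at hκ
        obtain ⟨Fκ, _, _, _, _, _, _, P, h1, -, h2, -⟩ := exists_HM_fin hdb hS κ hf hℓ
          (right_ne_zero_of_mul hκ) rfl (hgen κ (left_ne_zero_of_mul hκ))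
        exact QT_of_NC h1 hℓ2 rfl rfl rfl rfl h2)
    exact NC_of_QT hHM hℓ2 rfl rfl rfl rfl ht
  · intro hcon
    obtain ⟨κ, _, _, _, hf, hκ, t, ht⟩ := (isSys_QT b ℓ (ℓ ^ (2 * gen k F) + 1) _ _ _ _).up
      hinj hδ (QT_of_NC hHM hℓ2 rfl rfl rfl rfl hcon)
    rw [map_mul, map_natCast] at hκ
    obtain ⟨Fκ, _, _, _, _, _, _, P, h1, -, -, h2⟩ := exists_HM_fin hdb hS κ hf hℓ
      (right_ne_zero_of_mul hκ) rfl (hgen κ (left_ne_zero_of_mul hκ))
    exact h2 (NC_of_QT h1 hℓ2 rfl rfl rfl rfl ht)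

/-- a function with prescribed orders modulo `ℓ`. -/
theorem h4_div_fun {ℓ : ℕ} (hℓ : ℓ.Prime) (hℓk : (ℓ : k) ≠ 0) {P₀ P : Plk k F} (hP : P ≠ P₀) :
    ∃ f : F, f ≠ 0 ∧ ∀ Q : Plk k F, Q ≠ P₀ →
      (ℓ : ℤ) ∣ ord Q f - Finsupp.single P (1 : ℤ) Q := by
  classical
  haveI : IsAlgClosed k := CFF.ac F
  obtain ⟨a, ha, ha'⟩ := h4_gens P₀ (E := Finsupp.single P (1 : ℤ))
    (Finsupp.single_nonneg.2 zero_le_one) (Finsupp.single_eq_of_ne' hP)
    (n := 1 + 2 * gen k F) (by rw [dg_sgl]; push_cast; exact le_rfl)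
  obtain ⟨A₀, _, _, _, _, R₀, _, _, S, b, _, _, _, hinj, hdb, hHM, hZ⟩ :=
    h4_model P₀ {a 0, a 1} (by
      intro z hz
      rw [Finset.mem_insert, Finset.mem_singleton] at hz
      rcases hz with rfl | rfl
      · exact (mem_LP.1 (ha 0).2).1
      · exact (mem_LP.1 (ha 1).2).1)
  have hr : ∀ j : Fin 2, ∃ r : R₀, algebraMap (k ⊗[A₀] R₀) F (1 ⊗ₜ r) = a j := by
    intro j
    apply hZ
    fin_cases j
    · simp
    · simp
  choose r hr using hr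
  have hS : Sgp (gen k F) S := hHM.sg
  have hℓ2 : 2 ≤ ℓ := hℓ.two_le
  obtain ⟨δ₀, hδ₀, hgen⟩ := (isSys_QN b (gen k F)
    (2 * gen k F * (gen k F + 1) + 4 * gen k F)).gen hinj (fun ⟨t, ht⟩ => not_QN hHM t ht)
  have hℓA : ((ℓ : ℕ) : A₀) ≠ 0 := by
    intro h0
    apply hℓk
    rw [← map_natCast (algebraMap A₀ k), h0, map_zero]
  have hr0 : r 0 ≠ 0 := by
    intro h0
    apply (ha 0).1
    rw [← hr 0, h0, TensorProduct.tmul_zero, map_zero]
  obtain ⟨d₀, hd₀⟩ : ∃ d₀ : S, b.repr (r 0) d₀ ≠ 0 := by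
    by_contra hcon
    push Not at hcon
    apply hr0
    apply b.repr.map_eq_zero_iff.1
    ext d
    exact hcon d
  have hδ : δ₀ * (ℓ : A₀) * b.repr (r 0) d₀ ≠ 0 := mul_ne_zero (mul_ne_zero hδ₀ hℓA) hd₀
  obtain ⟨t, ht⟩ := (isSys_QD b ℓ (max (dgr b (r 0)) (dgr b (r 1)) + ℓ * (4 * gen k F) +
      2 * gen k F) r).low hinj hδ
    (fun κ _ _ _ hf hκ => by
      rw [map_mul, map_mul, map_natCast] at hκ
      have hκ1 := left_ne_zero_of_mul hκ
      obtain ⟨Fκ, _, _, _, _, _, _, P', h1, h2, -, -⟩ := exists_HM_fin hdb hS κ hf hℓ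
        (right_ne_zero_of_mul hκ1) rfl (hgen κ (left_ne_zero_of_mul hκ1))
      refine QD_of h1 hℓ.ne_zero h2 (M := max (dgr b (r 0)) (dgr b (r 1))) ?_ ⟨0, ?_⟩ rfl
      · intro i f hf'
        rw [Module.Basis.baseChange_repr_tmul]
        have h3 : b.repr (r i) f = 0 := by
          by_contra h4
          have h5 : (f : ℕ) ≤ dgr b (r i) :=
            Finset.le_sup (f := fun f : S => (f : ℕ)) (Finsupp.mem_support_iff.2 h4)
          have h6 : dgr b (r i) ≤ max (dgr b (r 0)) (dgr b (r 1)) := by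
            fin_cases i
            · exact le_max_left _ _
            · exact le_max_right _ _
          omega
        rw [h3, zero_smul]
      · intro h0
        apply right_ne_zero_of_mul hκ
        have h3 := congrArg (fun z => (b.baseChange κ).repr z d₀) h0
        simp only [Module.Basis.baseChange_repr_tmul, map_zero, Finsupp.coe_zero,
          Pi.zero_apply] at h3
        rw [← h3, Algebra.smul_def, mul_one])
  obtain ⟨f, hf0, hf⟩ := of_QD hHM hℓ.ne_zero ht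
  refine ⟨f, hf0, fun Q hQ => ?_⟩
  obtain ⟨i, hi0, hmin, hdvd⟩ := hf Q hQ
  obtain ⟨h1, j, hj⟩ := ha' Q hQ
  simp only [hr] at hmin hdvd
  have h2 : ord Q (a i) = Finsupp.single P (1 : ℤ) Q := by
    apply le_antisymm _ (h1 i)
    rw [← hj]
    apply hmin
    intro h0
    apply (ha j).1
    rw [← hr j, h0, map_zero]
  rwa [h2] at hdvd

/-- divisibility for one place. -/
theorem h4_div_place {ℓ : ℕ} (hℓ : ℓ.Prime) (hℓk : (ℓ : k) ≠ 0) {P₀ P : Plk k F}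
    (hP : P ≠ P₀) : ∃ E : Plk k F →₀ ℤ, dg E = 0 ∧
      Finsupp.single P 1 - Finsupp.single P₀ 1 - ℓ • E ∈ prn k F := by
  classical
  obtain ⟨f, hf0, hf⟩ := h4_div_fun hℓ hℓk hP
  set v : Plk k F →₀ ℤ := dv k f - (Finsupp.single P 1 - Finsupp.single P₀ 1) with hv
  have hv0 : dg v = 0 := by
    rw [hv, map_sub, map_sub, dg_dv, dg_sgl, dg_sgl]
    ring
  have h1 : ∀ Q, Q ≠ P₀ → (ℓ : ℤ) ∣ v Q := by
    intro Q hQ
    have h2 := hf Q hQ
    rw [hv, Finsupp.sub_apply, Finsupp.sub_apply, dv_apply, Finsupp.single_eq_of_ne' hQ.symm,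
      sub_zero]
    exact h2
  have h2 : (ℓ : ℤ) ∣ v P₀ := by
    rw [dg_apply, Finsupp.sum, ← Finset.sum_insert_of_eq_zero_if_notMem (a := P₀)
      (fun h => Finsupp.notMem_support_iff.1 h),
      ← Finset.add_sum_erase _ _ (Finset.mem_insert_self P₀ _)] at hv0
    have h3 : v P₀ = -∑ x ∈ (insert P₀ v.support).erase P₀, v x := by omega
    rw [h3]
    refine (Finset.dvd_sum fun Q hQ => h1 Q (Finset.ne_of_mem_erase hQ)).neg_right
  have h3 : ∀ Q, (ℓ : ℤ) ∣ v Q := by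
    intro Q
    by_cases hQ : Q = P₀
    · rw [hQ]
      exact h2
    · exact h1 Q hQ
  have hℓ0 : (ℓ : ℤ) ≠ 0 := by exact_mod_cast hℓ.ne_zero
  have h4 : ℓ • v.mapRange (fun n : ℤ => n / ℓ) (Int.zero_ediv _) = v := by
    ext Q
    rw [Finsupp.smul_apply, Finsupp.mapRange_apply, nsmul_eq_mul]
    exact Int.mul_ediv_cancel' (h3 Q)
  refine ⟨-v.mapRange (fun n : ℤ => n / ℓ) (Int.zero_ediv _), ?_, ?_⟩
  · have h5 := congrArg dg h4
    rw [map_nsmul, hv0, nsmul_eq_mul] at h5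
    rw [map_neg, neg_eq_zero]
    exact (mul_eq_zero.1 h5).resolve_left hℓ0
  · rw [smul_neg, h4, hv]
    have h6 : Finsupp.single P 1 - Finsupp.single P₀ 1 -
        -(dv k f - (Finsupp.single P 1 - Finsupp.single P₀ 1)) = dv k f := by abel
    rw [h6]
    exact ⟨f, hf0, rfl⟩

/-- the structure of the class group, arbitrary constants. -/
theorem pic_any {ℓ : ℕ} (hℓ : ℓ.Prime) (hℓk : (ℓ : k) ≠ 0) :
    (∀ D : Plk k F →₀ ℤ, dg D = 0 → ∃ E : Plk k F →₀ ℤ, dg E = 0 ∧ D - ℓ • E ∈ prn k F) ∧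
    Nat.card {x : (Plk k F →₀ ℤ) ⧸ prn k F // ℓ • x = 0} = ℓ ^ (2 * gen k F) := by
  refine ⟨?_, h4_card_tors hℓ hℓk⟩
  obtain ⟨P₀⟩ := exists_place_cff k F
  have key : ∀ P : Plk k F, ∃ E : Plk k F →₀ ℤ, dg E = 0 ∧
      Finsupp.single P 1 - Finsupp.single P₀ 1 - ℓ • E ∈ prn k F := by
    intro P
    by_cases hP : P = P₀
    · refine ⟨0, map_zero _, ?_⟩
      rw [hP, sub_self, smul_zero, sub_zero]
      exact (prn k F).zero_mem
    · exact h4_div_place hℓ hℓk hP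
  choose E hE0 hE using key
  intro D hD
  refine ⟨D.sum fun P n => n • E P, ?_, ?_⟩
  · rw [map_finsuppSum]
    refine Finset.sum_eq_zero fun P _ => ?_
    change dg (D P • E P) = 0
    rw [map_zsmul, hE0, smul_zero]
  · have h1 : D - ℓ • (D.sum fun P n => n • E P) =
        D.sum fun P n => n • (Finsupp.single P 1 - Finsupp.single P₀ 1 - ℓ • E P) := by
      have h2 : (D.sum fun P n => n • (Finsupp.single P (1 : ℤ))) = D := by
        simp
      have h3 : (D.sum fun P n => n • (Finsupp.single P₀ (1 : ℤ))) = 0 := by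
        rw [dg_apply] at hD
        rw [Finsupp.sum, ← Finset.sum_smul]
        rw [Finsupp.sum] at hD
        rw [hD, zero_smul]
      simp only [smul_sub]
      rw [Finsupp.sum_sub, Finsupp.sum_sub, h2, h3, sub_zero, Finsupp.smul_sum]
      congr 1
      apply Finsupp.sum_congr
      intro P _
      rw [smul_comm]
    rw [h1]
    exact AddSubgroup.sum_mem _ fun P _ => AddSubgroup.zsmul_mem _ (hE P) _

end

end Vale.Agent.P019P
end
end

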