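import Vale.Agent.P025.R2.H816.BC4
import Vale.Agent.P025.R2.H492.Ext5

/-!
# Solvable unramified covers: the Kummer step
-/

namespace P025H816

open Vale.Agent.P019P P025H492 IntermediateField
open scoped Polynomial

/-- a non-trivial finite solvable group has a non-trivial character. -/
theorem exists_char (C : Type*) [Field C] [IsAlgClosed C] [CharZero C] (G : Type*) [Group G]
    [Finite G] [Nontrivial G] [Group.IsSolvable G] : ∃ (χ : G →* Cˣ) (g : G), χ g ≠ 1 := by
  have h1 : commutator G < ⊤ := Group.IsSolvable.commutator_lt_top_of_nontrivial G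
  obtain ⟨g, -, hg⟩ := SetLike.exists_of_lt h1
  have h2 : (Abelianization.of g : Abelianization G) ≠ 1 := by
    intro h3
    apply hg
    exact (QuotientGroup.eq_one_iff g).1 h3
  have : Finite (Abelianization G) := Quotient.finite _
  have : NeZero (Monoid.exponent (Abelianization G)) :=
    ⟨Monoid.exponent_ne_zero_of_finite⟩
  obtain ⟨φ, hφ⟩ := CommGroup.exists_apply_ne_one_of_hasEnoughRootsOfUnity (Abelianization G) C h2
  exact ⟨φ.comp Abelianization.of, g, hφ⟩

section step

variable (C : Type*) {K M : Type*} [Field C] [Field K] [Field M] [Algebra C K] [Algebra C M]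
  [Algebra K M] [IsScalarTower C K M] [IsAlgClosed C] [CharZero C] [FiniteDimensional K M]
  [IsGalois K M]

include C in
/-- a nontrivial finite solvable Galois extension contains a Kummer extension. -/
theorem exists_kummer_elt (hG : Group.IsSolvable (M ≃ₐ[K] M)) (hne : Module.finrank K M ≠ 1) :
    ∃ (y : M) (f : K), y ≠ 0 ∧ y ^ (Module.finrank K M) = algebraMap K M f ∧
      y ∉ (⊥ : IntermediateField K M) := by
  have hcard : Nat.card (M ≃ₐ[K] M) = Module.finrank K M := IsGalois.card_aut_eq_finrank K M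
  have : Nontrivial (M ≃ₐ[K] M) := by
    rw [← Finite.one_lt_card_iff_nontrivial, hcard]
    have := Module.finrank_pos (R := K) (M := M)
    omega
  obtain ⟨χ, g, hg⟩ := exists_char C (M ≃ₐ[K] M)
  let c : (M ≃ₐ[K] M) → Mˣ := fun σ => Units.map (algebraMap C M : C →* M) (χ σ)
  have hc : groupCohomology.IsMulCocycle₁ c := by
    intro σ τ
    have h1 : σ • c τ = c τ := by
      ext
      rw [AlgEquiv.smul_units_def]
      change σ (algebraMap C M (χ τ : C)) = algebraMap C M (χ τ : C)
      rw [IsScalarTower.algebraMap_apply C K M, AlgEquiv.commutes]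
    rw [h1]
    change Units.map _ (χ (σ * τ)) = _
    rw [map_mul, map_mul, mul_comm]
  obtain ⟨β, hβ⟩ := groupCohomology.isMulCoboundary₁_of_isMulCocycle₁_of_aut_to_units c hc
  have hβ' : ∀ σ : M ≃ₐ[K] M, σ (β : M) = algebraMap C M (χ σ : C) * β := by
    intro σ
    have h1 := congrArg (fun u : Mˣ => (u : M) * (β : M)) (hβ σ)
    simp only [AlgEquiv.smul_units_def, Units.val_div_eq_div_val, Units.coe_map,
      div_mul_cancel₀ _ β.ne_zero] at h1
    exact h1
  have hfix : ∀ σ : M ≃ₐ[K] M, σ ((β : M) ^ Module.finrank K M) = (β : M) ^ Module.finrank K M := by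
    intro σ
    rw [map_pow, hβ', mul_pow, ← map_pow, ← Units.val_pow_eq_pow_val, ← map_pow, ← hcard,
      pow_card_eq_one', map_one, Units.val_one, map_one, one_mul]
  have hmem : (β : M) ^ Module.finrank K M ∈ (⊥ : IntermediateField K M) := by
    rw [← IsGalois.fixedField_top (F := K) (E := M)]
    rw [IntermediateField.mem_fixedField_iff]
    intro σ _
    exact hfix σ
  obtain ⟨f, hf⟩ := IntermediateField.mem_bot.1 hmem
  refine ⟨β, f, β.ne_zero, hf.symm, ?_⟩
  intro hβ0
  obtain ⟨b, hb⟩ := IntermediateField.mem_bot.1 hβ0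
  apply hg
  have h1 := hβ' g
  rw [← hb, AlgEquiv.commutes, hb] at h1
  have h2 : algebraMap C M (χ g : C) = 1 :=
    mul_right_cancel₀ β.ne_zero (by rw [one_mul]; exact h1.symm)
  ext
  apply (algebraMap C M).injective
  rw [h2, Units.val_one, map_one]

end step

section lift

variable {C K C' K' M Ω : Type*} [Field C] [Field K] [Algebra C K] [Field C'] [Field K']
  [Algebra C' K'] [Field M] [Algebra C' M] [Algebra K' M] [IsScalarTower C' K' M]
  [Field Ω] [IsAlgClosed Ω] [Algebra K Ω] [Algebra C Ω] [IsScalarTower C K Ω]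

/-- a radical extension of `K'` by a root of an element of `K` comes from `K`. -/
theorem IsBC.adjoin_root {i : C →+* C'} {j : K →+* K'} (h : IsBC i j) {y : M} {f : K} {n : ℕ}
    (hn : n ≠ 0) (hy : y ^ n = algebraMap K' M (j f)) (hgen : K'⟮y⟯ = ⊤) :
    ∃ (α : Ω) (j₁ : K⟮α⟯ →+* M), α ^ n = algebraMap K Ω f ∧
      (∀ z : K, j₁ (algebraMap K K⟮α⟯ z) = algebraMap K' M (j z)) ∧
      j₁ (AdjoinSimple.gen K α) = y ∧ IsBC i j₁ := by
  let _ : Algebra K M := ((algebraMap K' M).comp j).toAlgebra
  have hMdef : ∀ z : K, algebraMap K M z = algebraMap K' M (j z) := fun z => rfl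
  have hp0 : (Polynomial.X ^ n - Polynomial.C f : K[X]) ≠ 0 :=
    Polynomial.X_pow_sub_C_ne_zero (Nat.pos_of_ne_zero hn) f
  have hyp : Polynomial.aeval y (Polynomial.X ^ n - Polynomial.C f : K[X]) = 0 := by
    rw [map_sub, map_pow, Polynomial.aeval_X, Polynomial.aeval_C, hMdef, hy, sub_self]
  have hya : IsAlgebraic K y := ⟨_, hp0, hyp⟩
  have hyi : IsIntegral K y := hya.isIntegral
  obtain ⟨α, hα⟩ := IsAlgClosed.exists_aeval_eq_zero Ω (minpoly K y)
    (minpoly.degree_pos hyi).ne'
  have hαa : IsAlgebraic K α := ⟨_, minpoly.ne_zero hyi, hα⟩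
  have hαi : IsIntegral K α := hαa.isIntegral
  have hmin : minpoly K α = minpoly K y :=
    (minpoly.eq_of_irreducible_of_monic (minpoly.irreducible hyi) hα (minpoly.monic hyi)).symm
  have hαn : α ^ n = algebraMap K Ω f := by
    have h1 : minpoly K α ∣ Polynomial.X ^ n - Polynomial.C f := by
      rw [hmin]
      exact minpoly.dvd K y hyp
    obtain ⟨q, hq⟩ := h1
    have h2 : Polynomial.aeval α (Polynomial.X ^ n - Polynomial.C f : K[X]) = 0 := by
      rw [hq, map_mul, minpoly.aeval, zero_mul]
    rw [map_sub, map_pow, Polynomial.aeval_X, Polynomial.aeval_C, sub_eq_zero] at h2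
    exact h2
  let pb := adjoin.powerBasis hαi
  have hpb : pb.gen = AdjoinSimple.gen K α := adjoin.powerBasis_gen hαi
  have hroot : Polynomial.aeval y (minpoly K pb.gen) = 0 := by
    rw [hpb, minpoly_gen, hmin, minpoly.aeval]
  let φ : K⟮α⟯ →ₐ[K] M := pb.lift y hroot
  have hφ : φ (AdjoinSimple.gen K α) = y := by
    rw [← hpb]
    exact pb.lift_gen y hroot
  refine ⟨α, φ.toRingHom, hαn, fun z => ?_, hφ, ?_, ?_⟩
  · exact φ.commutes z
  · intro a
    change φ (algebraMap C K⟮α⟯ a) = _
    have h1 : algebraMap C K⟮α⟯ a = algebraMap K K⟮α⟯ (algebraMap C K a) := by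
      apply Subtype.ext
      change algebraMap C Ω a = algebraMap K Ω (algebraMap C K a)
      rw [← IsScalarTower.algebraMap_apply]
    rw [h1, φ.commutes, hMdef, h.comm, ← IsScalarTower.algebraMap_apply]
  · intro S hS1 hS2
    have h1 : S.comap (algebraMap K' M) = ⊤ := by
      apply h.gen
      · intro a
        change algebraMap K' M (algebraMap C' K' a) ∈ S
        rw [← IsScalarTower.algebraMap_apply]
        exact hS1 a
      · intro z
        change algebraMap K' M (j z) ∈ S
        rw [← hMdef, ← φ.commutes]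
        exact hS2 _
    have h2 : ∀ z : K', algebraMap K' M z ∈ S := by
      intro z
      have h3 : z ∈ S.comap (algebraMap K' M) := by rw [h1]; trivial
      exact h3
    have hyS : y ∈ S := by
      rw [← hφ]
      exact hS2 _
    rw [eq_top_iff]
    intro x _
    have hx : x ∈ K'⟮y⟯ := by rw [hgen]; trivial
    induction hx using IntermediateField.adjoin_induction with
    | mem z hz =>
      rw [Set.mem_singleton_iff] at hz
      rw [hz]
      exact hyS
    | algebraMap a => exact h2 a
    | add a b _ _ ha hb => exact S.add_mem (ha trivial) (hb trivial)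
    | inv a _ ha => exact S.inv_mem (ha trivial)
    | mul a b _ _ ha hb => exact S.mul_mem (ha trivial) (hb trivial)

end lift

end P025H816
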