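import Vale.Agent.P025.R2.H816.BC3
import Vale.Agent.P025.R2.H816.Kt1

/-!
# Solvable unramified covers descend along extensions of the constants
-/

universe u v

namespace P025H816

open Vale.Agent.P019P P025H492 IntermediateField
open scoped Polynomial

theorem mem_comap_of_forall {C K C' K' M : Type*} [Field C] [Field K] [Algebra C K] [Field C']
    [Field K'] [Algebra C' K'] [Field M] [Algebra C' M] [Algebra K' M] [IsScalarTower C' K' M]
    {i : C →+* C'} {j : K →+* K'} (h : IsBC i j) (S : Subfield M)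
    (hS1 : ∀ a, algebraMap C' M a ∈ S) (hS2 : ∀ z, algebraMap K' M (j z) ∈ S) (z : K') :
    algebraMap K' M z ∈ S := by
  have h1 : S.comap (algebraMap K' M) = ⊤ := by
    apply h.gen
    · intro a
      change algebraMap K' M (algebraMap C' K' a) ∈ S
      rw [← IsScalarTower.algebraMap_apply]
      exact hS1 a
    · exact hS2
  have h3 : z ∈ S.comap (algebraMap K' M) := by rw [h1]; trivial
  exact h3

theorem adjoin_gen_top {K M : Type*} [Field K] [Field M] [Algebra K M] (y : M) :
    K⟮AdjoinSimple.gen K y⟯ = ⊤ := by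
  rw [eq_top_iff]
  rintro ⟨x, hx⟩ -
  induction hx using IntermediateField.adjoin_induction with
  | mem z hz =>
    rw [Set.mem_singleton_iff] at hz
    subst hz
    exact mem_adjoin_simple_self _ _
  | algebraMap a => exact IntermediateField.algebraMap_mem _ a
  | add a b ha hb ha' hb' => exact add_mem ha' hb'
  | inv a ha ha' => exact inv_mem ha'
  | mul a b ha hb ha' hb' => exact mul_mem ha' hb'

theorem isUnr_bot {C K Ω : Type*} [Field C] [Field K] [Algebra C K] [CFF C K] [Field Ω]
    [Algebra K Ω] [Algebra C Ω] [IsScalarTower C K Ω] [CFF C (⊥ : IntermediateField K Ω)] :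
    IsUnr C K (⊥ : IntermediateField K Ω) := by
  intro P
  rw [ram_eq_one_iff_exists]
  obtain ⟨⟨π, hπ⟩, -, h1⟩ := exists_unif P
  obtain ⟨z, rfl⟩ := IntermediateField.mem_bot.1 hπ
  exact ⟨z, h1⟩

section descend

variable {C : Type u} {C' : Type v} [Field C] [CharZero C] [Field C']

theorem exists_descend_aux (n : ℕ) : ∀ {K Ω : Type u} [Field K] [Algebra C K] [CFF C K] [Field Ω]
    [IsAlgClosed Ω] [Algebra K Ω] [Algebra C Ω] [IsScalarTower C K Ω] {K' M : Type v} [Field K']
    [Algebra C' K'] [CFF C' K'] [Field M] [Algebra C' M] [Algebra K' M] [IsScalarTower C' K' M]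
    [CFF C' M] [FiniteDimensional K' M] [IsGalois K' M] (_ : Group.IsSolvable (M ≃ₐ[K'] M))
    (_ : IsUnr C' K' M) {i : C →+* C'} {j : K →+* K'} (_ : IsBC i j)
    (_ : Module.finrank K' M = n),
    ∃ (M₀ : IntermediateField K Ω) (_ : FiniteDimensional K M₀) (_ : CFF C M₀) (j' : M₀ →+* M),
      IsUnr C K M₀ ∧ (∀ z : K, j' (algebraMap K M₀ z) = algebraMap K' M (j z)) ∧ IsBC i j' := by
  induction n using Nat.strong_induction_on with
  | _ n ih =>
  intro K Ω _ _ _ _ _ _ _ _ K' M _ _ _ _ _ _ _ _ _ _ hs hu i j h hn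
  have hac' : IsAlgClosed C' := CFF.ac (k := C') (F := K')
  have hch' : CharZero C' := charZero_of_injective_ringHom i.injective
  by_cases hn1 : n = 1
  · -- trivial extension
    subst hn1
    have hcff : CFF C (⊥ : IntermediateField K Ω) := cff_of_finite (K := K)
    let j' : (⊥ : IntermediateField K Ω) →+* M :=
      ((algebraMap K' M).comp j).comp (botEquiv K Ω : (⊥ : IntermediateField K Ω) →+* K)
    have hj' : ∀ z : K, j' (algebraMap K (⊥ : IntermediateField K Ω) z) = algebraMap K' M (j z) := by
      intro z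
      change algebraMap K' M (j (botEquiv K Ω (algebraMap K (⊥ : IntermediateField K Ω) z))) = _
      rw [AlgEquiv.commutes]
      rfl
    refine ⟨⊥, inferInstance, hcff, j', isUnr_bot, hj', ?_, ?_⟩
    · intro a
      have h1 : algebraMap C (⊥ : IntermediateField K Ω) a =
          algebraMap K (⊥ : IntermediateField K Ω) (algebraMap C K a) := by
        apply Subtype.ext
        change algebraMap C Ω a = algebraMap K Ω (algebraMap C K a)
        rw [← IsScalarTower.algebraMap_apply]
      rw [h1, hj', h.comm, ← IsScalarTower.algebraMap_apply]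
    · intro S hS1 hS2
      rw [eq_top_iff]
      intro x _
      have h1 : (⊥ : IntermediateField K' M) = ⊤ := by
        rw [← IntermediateField.finrank_eq_one_iff_eq_top]
        rw [IntermediateField.finrank_bot']
        exact hn
      have hx : x ∈ (⊥ : IntermediateField K' M) := by rw [h1]; trivial
      obtain ⟨z, rfl⟩ := IntermediateField.mem_bot.1 hx
      refine mem_comap_of_forall h S hS1 (fun z => ?_) z
      rw [← hj']
      exact hS2 _
  · -- a Kummer step
    obtain ⟨y, f', hy0, hyf, hy⟩ := exists_kummer_elt C' hs (by rw [hn]; exact hn1)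
    rw [hn] at hyf
    have hn0 : n ≠ 0 := by
      rw [← hn]
      exact (Module.finrank_pos (R := K') (M := M)).ne'
    have hf'0 : f' ≠ 0 := by
      rintro rfl
      rw [map_zero] at hyf
      exact hy0 (eq_zero_of_pow_eq_zero hyf)
    have hdiv : ∀ P : Plk C' K', (n : ℤ) ∣ ord P f' := by
      intro P
      obtain ⟨P', rfl⟩ := exists_over (L := M) P
      rw [← hu.ord_algebraMap, ← hyf, ord_pow]
      exact dvd_mul_right _ _
    obtain ⟨f, hf0, hf, g, hg0, hfg⟩ := h.exists_eq_mul_pow hn0 hf'0 hdiv
    have hg0' : algebraMap K' M g ≠ 0 := by simpa using hg0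
    set y₁ : M := y * (algebraMap K' M g)⁻¹ with hy₁
    have hy₁f : y₁ ^ n = algebraMap K' M (j f) := by
      rw [hy₁, mul_pow, hyf, hfg, map_mul, map_pow, inv_pow, mul_assoc,
        mul_inv_cancel₀ (pow_ne_zero _ hg0'), mul_one]
    have hy₁b : y₁ ∉ (⊥ : IntermediateField K' M) := by
      intro h1
      apply hy
      have h2 : y = y₁ * algebraMap K' M g := by
        rw [hy₁, mul_assoc, inv_mul_cancel₀ hg0', mul_one]
      rw [h2]
      exact mul_mem h1 (IntermediateField.algebraMap_mem _ g)
    let y₂ : K'⟮y₁⟯ := AdjoinSimple.gen K' y₁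
    have hy₂ : y₂ ^ n = algebraMap K' K'⟮y₁⟯ (j f) := by
      apply Subtype.ext
      exact hy₁f
    obtain ⟨α, j₁, hα, hj₁, hj₁α, hbc⟩ := h.adjoin_root (M := K'⟮y₁⟯) (Ω := Ω) hn0 hy₂
      (adjoin_gen_top y₁)
    have hαi : IsIntegral K α := by
      have h1 : IsIntegral K (α ^ n) := by rw [hα]; exact isIntegral_algebraMap
      exact h1.of_pow (Nat.pos_of_ne_zero hn0)
    have hfd : FiniteDimensional K K⟮α⟯ := adjoin.finiteDimensional hαi
    have hcff : CFF C K⟮α⟯ := cff_of_finite (K := K)
    have hcff' : CFF C' K'⟮y₁⟯ := cff_of_finite (K := K')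
    have hst1 : IsScalarTower C K⟮α⟯ Ω := IsScalarTower.of_algebraMap_eq fun a => rfl
    have hst2 : IsScalarTower C' K'⟮y₁⟯ M := IsScalarTower.of_algebraMap_eq fun a => rfl
    have hunr : IsUnr C K K⟮α⟯ := by
      refine isUnr_kummer (n := n) (y := AdjoinSimple.gen K α) (f := f) (by exact_mod_cast hn0) ?_
        (adjoin_gen_top α) hf
      apply Subtype.ext
      exact hα
    have hunr' : IsUnr C' K'⟮y₁⟯ M := hu.top (K := K') (L := K'⟮y₁⟯)
    have hsolv : Group.IsSolvable (M ≃ₐ[K'⟮y₁⟯] M) :=
      Group.isSolvable_of_isSolvable_injective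
        (f := (IntermediateField.fixingSubgroup K'⟮y₁⟯).subtype.comp
          (IntermediateField.fixingSubgroupEquiv K'⟮y₁⟯).symm.toMonoidHom)
        ((Subgroup.subtype_injective _).comp (MulEquiv.injective _))
    have hlt : Module.finrank K'⟮y₁⟯ M < n := by
      have h1 := Module.finrank_mul_finrank K' K'⟮y₁⟯ M
      have h2 : Module.finrank K' K'⟮y₁⟯ ≠ 1 := by
        intro h3
        rw [IntermediateField.finrank_eq_one_iff] at h3
        apply hy₁b
        rw [← h3]
        exact mem_adjoin_simple_self _ _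
      have h3 := Module.finrank_pos (R := K') (M := K'⟮y₁⟯)
      have h4 := Module.finrank_pos (R := K'⟮y₁⟯) (M := M)
      rw [hn] at h1
      have h5 : 2 ≤ Module.finrank K' K'⟮y₁⟯ := by omega
      nlinarith
    obtain ⟨M₁, hM₁fd, hM₁cff, j', hM₁u, hj', hM₁bc⟩ :=
      ih _ hlt (K := K⟮α⟯) (Ω := Ω) (K' := K'⟮y₁⟯) (M := M) hsolv hunr' hbc rfl
    have hfd1 : FiniteDimensional K M₁ := FiniteDimensional.trans K K⟮α⟯ M₁
    have hst3 : IsScalarTower C K M₁ := IsScalarTower.of_algebraMap_eq fun a => by
      apply Subtype.ext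
      change algebraMap C Ω a = algebraMap K Ω (algebraMap C K a)
      rw [← IsScalarTower.algebraMap_apply]
    refine ⟨M₁.restrictScalars K, hfd1, hM₁cff, j', ?_, ?_, hM₁bc⟩
    · have hst4 : IsScalarTower K K⟮α⟯ M₁ := inferInstance
      have hst5 : IsScalarTower C K⟮α⟯ M₁ := inferInstance
      have h3 : IsUnr C K M₁ := IsUnr.trans (K := K) (L := K⟮α⟯) (M := M₁) hunr hM₁u
      exact h3
    · intro z
      have h1 := hj' (algebraMap K K⟮α⟯ z)
      rw [hj₁] at h1
      exact h1

/-- **solvable unramified covers come from below**: a finite Galois solvable everywhere unramified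
extension `M` of `K'` is the base change of a finite everywhere unramified extension of `K`, which
can be found inside any given algebraically closed extension of `K`. -/
theorem exists_descend {K Ω : Type u} [Field K] [Algebra C K] [CFF C K] [Field Ω]
    [IsAlgClosed Ω] [Algebra K Ω] [Algebra C Ω] [IsScalarTower C K Ω] {K' M : Type v} [Field K']
    [Algebra C' K'] [CFF C' K'] [Field M] [Algebra C' M] [Algebra K' M] [IsScalarTower C' K' M]
    [CFF C' M] [FiniteDimensional K' M] [IsGalois K' M] (hs : Group.IsSolvable (M ≃ₐ[K'] M))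
    (hu : IsUnr C' K' M) {i : C →+* C'} {j : K →+* K'} (h : IsBC i j) :
    ∃ (M₀ : IntermediateField K Ω) (_ : FiniteDimensional K M₀) (_ : CFF C M₀) (j' : M₀ →+* M),
      IsUnr C K M₀ ∧ (∀ z : K, j' (algebraMap K M₀ z) = algebraMap K' M (j z)) ∧ IsBC i j' :=
  exists_descend_aux _ hs hu h rfl

end descend

end P025H816
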