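import Vale.Agent.P025.R2.H816.Emb

/-!
# The class of finite Galois solvable everywhere unramified extensions: composites
-/

universe u v w

namespace P025H816

open Vale.Agent.P019P P025H492 IntermediateField
open scoped Polynomial

/-- finite Galois extensions with solvable group which are everywhere unramified. -/
structure IsSU (C K L : Type*) [Field C] [Field K] [Field L] [Algebra C K] [Algebra C L]
    [Algebra K L] [IsScalarTower C K L] : Prop where
  fin : FiniteDimensional K L
  gal : IsGalois K L
  solv : Group.IsSolvable (L ≃ₐ[K] L)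
  unr : ∀ [CFF C K] [CFF C L] [Algebra.IsAlgebraic K L], IsUnr C K L

section transport

variable {C K L L' : Type*} [Field C] [Field K] [Field L] [Field L'] [Algebra C K] [Algebra C L]
  [Algebra K L] [IsScalarTower C K L] [Algebra C L'] [Algebra K L'] [IsScalarTower C K L']

theorem IsSU.congr [CFF C K] (h : IsSU C K L) (e : L ≃ₐ[K] L') : IsSU C K L' := by
  have hf := h.fin
  have hg := h.gal
  have hs := h.solv
  refine ⟨Module.Finite.equiv e.toLinearEquiv, IsGalois.of_algEquiv e, ?_, ?_⟩
  · exact Group.isSolvable_of_isSolvable_injective (f := (AlgEquiv.autCongr e.symm).toMonoidHom)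
      (AlgEquiv.autCongr e.symm).injective
  · intro _ _ _ P
    have hcL : CFF C L := cff_of_finite (K := K)
    have h1 := h.unr (tr (e.symm.restrictScalars C) P)
    rw [ram_eq_one_iff_exists] at h1 ⊢
    obtain ⟨z, hz⟩ := h1
    refine ⟨z, ?_⟩
    rw [← hz, ← ord_tr (e.symm.restrictScalars C) P]
    congr 1
    exact (e.symm.commutes z)

end transport

section restrict

variable {C K A M : Type*} [Field C] [Field K] [Field A] [Field M] [Algebra C K] [Algebra C A]
  [Algebra C M] [Algebra K A] [Algebra K M] [Algebra A M] [IsScalarTower C K A]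
  [IsScalarTower C K M] [IsScalarTower C A M] [IsScalarTower K A M] [Algebra.IsAlgebraic A M]
  [Normal K A]

/-- inertia restricts to inertia. -/
theorem restrict_mem_inertia {P : Plk C M} {σ : M ≃ₐ[K] M} (h : σ ∈ inertia K P) :
    AlgEquiv.restrictNormalHom A σ ∈ inertia K (down A P) := by
  have h' : σ⁻¹ ∈ inertia K P := (inertia K P).inv_mem h
  rw [mem_inertia] at h h' ⊢
  apply Subtype.ext
  apply ValuationSubring.ext
  intro z
  rw [mem_conj, mem_down, mem_down]
  have h1 : algebraMap A M ((AlgEquiv.restrictNormalHom A σ).symm z) =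
      σ.symm (algebraMap A M z) := by
    have h2 : (AlgEquiv.restrictNormalHom A σ).symm = AlgEquiv.restrictNormalHom A σ⁻¹ := by
      rw [map_inv]
      rfl
    rw [h2]
    exact AlgEquiv.restrictNormal_commutes σ⁻¹ A z
  rw [h1, ← mem_conj, h]

end restrict

section sup

variable {C K Ω : Type*} [Field C] [Field K] [Field Ω] [Algebra C K] [Algebra C Ω] [Algebra K Ω]
  [IsScalarTower C K Ω]

/-- an automorphism of a composite which is trivial on both factors is trivial. -/
theorem eq_one_of_sup {A B : IntermediateField K Ω}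
    {σ : (A ⊔ B : IntermediateField K Ω) ≃ₐ[K] (A ⊔ B : IntermediateField K Ω)}
    (hA : ∀ (a : Ω) (h : a ∈ A), (σ ⟨a, le_sup_left (a := A) (b := B) h⟩ : Ω) = a)
    (hB : ∀ (b : Ω) (h : b ∈ B), (σ ⟨b, le_sup_right (a := A) (b := B) h⟩ : Ω) = b) : σ = 1 := by
  let F : IntermediateField K (A ⊔ B : IntermediateField K Ω) :=
    IntermediateField.fixedField (Subgroup.zpowers σ)
  have hF : ∀ x : (A ⊔ B : IntermediateField K Ω), x ∈ F ↔ σ x = x := by
    intro x
    rw [IntermediateField.mem_fixedField_iff]
    constructor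
    · intro h
      exact h σ (Subgroup.mem_zpowers σ)
    · rintro h τ ⟨m, rfl⟩
      have h3 : σ ∈ MulAction.stabilizer
          ((A ⊔ B : IntermediateField K Ω) ≃ₐ[K] (A ⊔ B : IntermediateField K Ω)) x := h
      exact (zpow_mem h3 m : σ ^ m ∈ MulAction.stabilizer
          ((A ⊔ B : IntermediateField K Ω) ≃ₐ[K] (A ⊔ B : IntermediateField K Ω)) x)
  have h1 : A ≤ F.map (A ⊔ B : IntermediateField K Ω).val := by
    intro a ha
    refine ⟨⟨a, le_sup_left (a := A) (b := B) ha⟩, ?_, rfl⟩
    exact (hF _).2 (Subtype.ext (hA a ha))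
  have h2 : B ≤ F.map (A ⊔ B : IntermediateField K Ω).val := by
    intro a ha
    refine ⟨⟨a, le_sup_right (a := A) (b := B) ha⟩, ?_, rfl⟩
    exact (hF _).2 (Subtype.ext (hB a ha))
  have h3 := sup_le h1 h2
  refine AlgEquiv.ext fun x => ?_
  obtain ⟨y, hy, hyx⟩ := h3 x.2
  have h4 : y = x := Subtype.ext hyx
  rw [← h4]
  exact (hF y).1 hy

variable [CharZero C] [CFF C K]

/-- the composite of two solvable unramified extensions is solvable unramified. -/
theorem IsSU.sup {A B : IntermediateField K Ω} (hA : IsSU C K A) (hB : IsSU C K B) :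
    IsSU C K (A ⊔ B : IntermediateField K Ω) := by
  have hAf := hA.fin
  have hBf := hB.fin
  have hAg := hA.gal
  have hBg := hB.gal
  have hAs := hA.solv
  have hBs := hB.solv
  have hcK : CharZero K := charZero_of_injective_algebraMap (algebraMap C K).injective
  have hcA : CFF C A := cff_of_finite (K := K)
  have hcB : CFF C B := cff_of_finite (K := K)
  have hAn : Normal K A := hAg.to_normal
  have hBn : Normal K B := hBg.to_normal
  have hfin : FiniteDimensional K (A ⊔ B : IntermediateField K Ω) := inferInstance
  have hnorm : Normal K (A ⊔ B : IntermediateField K Ω) := inferInstance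
  have hgal : IsGalois K (A ⊔ B : IntermediateField K Ω) := ⟨⟩
  let M := (A ⊔ B : IntermediateField K Ω)
  have hAM : A ≤ M := le_sup_left
  have hBM : B ≤ M := le_sup_right
  let _ : Algebra A M := (inclusion hAM).toAlgebra
  let _ : Algebra B M := (inclusion hBM).toAlgebra
  have hs1 : IsScalarTower K A M := IsScalarTower.of_algebraMap_eq fun a => rfl
  have hs2 : IsScalarTower K B M := IsScalarTower.of_algebraMap_eq fun a => rfl
  have hs3 : IsScalarTower C A M := IsScalarTower.of_algebraMap_eq fun a => rfl
  have hs4 : IsScalarTower C B M := IsScalarTower.of_algebraMap_eq fun a => rfl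
  have ha1 : Algebra.IsAlgebraic A M := Algebra.IsAlgebraic.tower_top (K := K) A
  have ha2 : Algebra.IsAlgebraic B M := Algebra.IsAlgebraic.tower_top (K := K) B
  have key : ∀ σ : M ≃ₐ[K] M, AlgEquiv.restrictNormalHom A σ = 1 →
      AlgEquiv.restrictNormalHom B σ = 1 → σ = 1 := by
    intro σ h1 h2
    apply eq_one_of_sup
    · intro a ha
      have h3 := AlgEquiv.restrictNormal_commutes σ A ⟨a, ha⟩
      have h4 : σ.restrictNormal A = 1 := h1
      rw [h4] at h3
      exact (congrArg Subtype.val h3).symm
    · intro a ha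
      have h3 := AlgEquiv.restrictNormal_commutes σ B ⟨a, ha⟩
      have h4 : σ.restrictNormal B = 1 := h2
      rw [h4] at h3
      exact (congrArg Subtype.val h3).symm
  refine ⟨hfin, hgal, ?_, ?_⟩
  · refine Group.isSolvable_of_isSolvable_injective
      (f := MonoidHom.prod (AlgEquiv.restrictNormalHom (F := K) (K₁ := M) A)
        (AlgEquiv.restrictNormalHom (F := K) (K₁ := M) B)) ?_
    rw [injective_iff_map_eq_one]
    intro σ hσ
    have h1 := congrArg Prod.fst hσ
    have h2 := congrArg Prod.snd hσ
    exact key σ h1 h2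
  · intro _ _ _
    rw [isUnr_iff_inertia]
    intro P
    rw [Subgroup.eq_bot_iff_forall]
    intro σ hσ
    apply key
    · have h1 := restrict_mem_inertia (A := A) hσ
      rw [(isUnr_iff_inertia.1 hA.unr) (down A P), Subgroup.mem_bot] at h1
      exact h1
    · have h1 := restrict_mem_inertia (A := B) hσ
      rw [(isUnr_iff_inertia.1 hB.unr) (down B P), Subgroup.mem_bot] at h1
      exact h1

end sup

end P025H816
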